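import Mathlib

/-!
The combinatorial dichotomy for signed labelled sets of size twice an odd prime.
-/

namespace Vale.Agent.P043T

open scoped BigOperators
open Finset

variable {α β : Type*}

section signs
variable (s : α → ℤ)

lemma abs_sum_le_card (S : Finset α) (hs : ∀ f ∈ S, s f = 1 ∨ s f = -1) :
    |∑ f ∈ S, s f| ≤ (S.card : ℤ) := by
  calc |∑ f ∈ S, s f| ≤ ∑ f ∈ S, |s f| := Finset.abs_sum_le_sum_abs _ _
    _ = ∑ f ∈ S, (1 : ℤ) := by
        refine Finset.sum_congr rfl fun f hf => ?_
        rcases hs f hf with h | h <;> simp [h]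
    _ = (S.card : ℤ) := by simp

lemma two_dvd_card_sub_sum (S : Finset α) (hs : ∀ f ∈ S, s f = 1 ∨ s f = -1) :
    (2 : ℤ) ∣ (S.card : ℤ) - ∑ f ∈ S, s f := by
  have : (S.card : ℤ) - ∑ f ∈ S, s f = ∑ f ∈ S, (1 - s f) := by
    rw [Finset.sum_sub_distrib]; simp
  rw [this]
  refine Finset.dvd_sum fun f hf => ?_
  rcases hs f hf with h | h <;> simp [h]

lemma sign_of_abs_eq (S : Finset α) (hs : ∀ f ∈ S, s f = 1 ∨ s f = -1)
    (h : |∑ f ∈ S, s f| = (S.card : ℤ)) (f : α) (hf : f ∈ S) :
    s f = Int.sign (∑ f ∈ S, s f) := by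
  have hcard : 0 < S.card := Finset.card_pos.mpr ⟨f, hf⟩
  rcases abs_cases (∑ f ∈ S, s f) with ⟨h1, h2⟩ | ⟨h1, h2⟩
  · -- the sum is the cardinality
    have hpos : 0 < ∑ f ∈ S, s f := by rw [h1] at h; rw [h]; exact_mod_cast hcard
    rw [Int.sign_eq_one_of_pos hpos]
    have h3 : ∑ g ∈ S, (1 - s g) = 0 := by
      rw [Finset.sum_sub_distrib]; simp only [sum_const, smul_eq_mul, mul_one, nsmul_eq_mul]
      rw [h1] at h; rw [h]; ring
    have h4 := (Finset.sum_eq_zero_iff_of_nonneg (fun g hg => ?_)).mp h3 f hf
    · linarith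
    · rcases hs g hg with h | h <;> simp [h]
  · have hneg : ∑ f ∈ S, s f < 0 := by
      have : -(∑ f ∈ S, s f) = (S.card : ℤ) := by rw [← h, h1]
      have h5 : (0 : ℤ) < S.card := by exact_mod_cast hcard
      linarith
    rw [Int.sign_eq_neg_one_of_neg hneg]
    have h3 : ∑ g ∈ S, (1 + s g) = 0 := by
      rw [Finset.sum_add_distrib]; simp only [sum_const, smul_eq_mul, mul_one, nsmul_eq_mul]
      have : -(∑ f ∈ S, s f) = (S.card : ℤ) := by rw [← h, h1]
      linarith
    have h4 := (Finset.sum_eq_zero_iff_of_nonneg (fun g hg => ?_)).mp h3 f hf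
    · linarith
    · rcases hs g hg with h | h <;> simp [h]

end signs

/-- Antipodal pairs from vanishing signed fibres. -/
lemma match_pairs [DecidableEq α] [DecidableEq β] (l : α → β) (s : α → ℤ) (F : Finset α) :
    (∀ f ∈ F, s f = 1 ∨ s f = -1) → (∀ b, ∑ f ∈ F with l f = b, s f = 0) →
    ∃ τ : α → α, ∀ f ∈ F, τ f ∈ F ∧ τ (τ f) = f ∧ τ f ≠ f ∧ l (τ f) = l f ∧ s (τ f) = - s f := by
  induction F using Finset.strongInduction with
  | H F IH =>
    intro hs h
    rcases F.eq_empty_or_nonempty with rfl | ⟨f, hf⟩
    · exact ⟨id, by simp⟩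
    · -- find a partner
      have hex : ∃ f' ∈ F, l f' = l f ∧ s f' = - s f := by
        by_contra hcon
        push_neg at hcon
        have hall : ∀ g ∈ F.filter (fun g => l g = l f), s g = s f := by
          intro g hg
          rw [Finset.mem_filter] at hg
          have := hcon g hg.1 hg.2
          rcases hs g hg.1 with h1 | h1 <;> rcases hs f hf with h2 | h2 <;> simp_all
        have hsum := h (l f)
        rw [Finset.sum_congr rfl hall] at hsum
        simp only [sum_const, nsmul_eq_mul] at hsum
        have hc : ((F.filter (fun g => l g = l f)).card : ℤ) ≠ 0 := by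
          have : 0 < (F.filter (fun g => l g = l f)).card :=
            Finset.card_pos.mpr ⟨f, Finset.mem_filter.mpr ⟨hf, rfl⟩⟩
          exact_mod_cast this.ne'
        rcases hs f hf with h2 | h2 <;> simp_all
      obtain ⟨f', hf', hl', hs'⟩ := hex
      have hne : f' ≠ f := by
        intro he
        rw [he] at hs'
        rcases hs f hf with h2 | h2 <;> rw [h2] at hs' <;> norm_num at hs'
      set F' := (F.erase f).erase f' with hF'
      have hsub : F' ⊂ F := by
        refine Finset.ssubset_iff_subset_ne.mpr ⟨?_, ?_⟩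
        · exact (Finset.erase_subset _ _).trans (Finset.erase_subset _ _)
        · intro he
          have : f ∈ F' := by rw [he]; exact hf
          simp [hF'] at this
      have hmemF : ∀ g, g ∈ F' ↔ g ≠ f' ∧ g ≠ f ∧ g ∈ F := by
        intro g; simp [hF']
      obtain ⟨τ', hτ'⟩ := IH F' hsub (fun g hg => hs g ((hmemF g).mp hg).2.2) (by
        intro b
        have h0 := h b
        have e : F.filter (fun g => l g = b)
            = (F'.filter (fun g => l g = b)) ∪ (F.filter (fun g => l g = b ∧ (g = f ∨ g = f'))) := by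
          ext g
          simp only [mem_filter, mem_union, hmemF]
          constructor
          · rintro ⟨h1, h2⟩
            by_cases h3 : g = f ∨ g = f'
            · exact Or.inr ⟨h1, h2, h3⟩
            · push_neg at h3
              exact Or.inl ⟨⟨h3.2, h3.1, h1⟩, h2⟩
          · rintro (⟨⟨_, _, h1⟩, h2⟩ | ⟨h1, h2, _⟩) <;> exact ⟨h1, h2⟩
        have hdisj : Disjoint (F'.filter (fun g => l g = b))
            (F.filter (fun g => l g = b ∧ (g = f ∨ g = f'))) := by
          rw [Finset.disjoint_left]
          intro g hg hg'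
          rw [Finset.mem_filter, hmemF] at hg
          rw [Finset.mem_filter] at hg'
          rcases hg'.2.2 with h3 | h3
          · exact hg.1.2.1 h3
          · exact hg.1.1 h3
        rw [e, Finset.sum_union hdisj] at h0
        have h9 : ∑ g ∈ F with l g = b ∧ (g = f ∨ g = f'), s g = 0 := by
          by_cases hb : l f = b
          · have e2 : F.filter (fun g => l g = b ∧ (g = f ∨ g = f')) = {f, f'} := by
              ext g
              simp only [mem_filter, mem_insert, mem_singleton]
              constructor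
              · rintro ⟨_, _, h3⟩; exact h3
              · rintro (rfl | rfl)
                · exact ⟨hf, hb, Or.inl rfl⟩
                · exact ⟨hf', hl'.trans hb, Or.inr rfl⟩
            rw [e2, Finset.sum_pair hne.symm, hs']; ring
          · apply Finset.sum_eq_zero
            intro g hg
            rw [Finset.mem_filter] at hg
            rcases hg.2.2 with h3 | h3
            · exact absurd (h3 ▸ hg.2.1) hb
            · exact absurd (hl'.symm.trans (h3 ▸ hg.2.1)) hb
        rw [h9, add_zero] at h0
        exact h0)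
      refine ⟨fun g => if g = f then f' else if g = f' then f else τ' g, ?_⟩
      intro g hg
      by_cases h1 : g = f
      · subst h1
        simp only [if_true, if_neg hne]
        refine ⟨hf', by simp, hne, hl', hs'⟩
      · by_cases h2 : g = f'
        · subst h2
          simp only [if_neg h1, if_true]
          refine ⟨hf, by simp [h1], Ne.symm h1, hl'.symm, ?_⟩
          rw [hs']; ring
        · simp only [if_neg h1, if_neg h2]
          have hg' : g ∈ F' := (hmemF g).mpr ⟨h2, h1, hg⟩
          obtain ⟨h3, h4, h5, h6, h7⟩ := hτ' g hg'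
          have h3' := (hmemF _).mp h3
          refine ⟨h3'.2.2, ?_, h5, h6, h7⟩
          rw [if_neg h3'.2.1, if_neg h3'.1, h4]

/-- The dichotomy: either antipodal pairs in each class, or two transversals. -/
theorem combin [DecidableEq α] [DecidableEq β] (p : ℕ) [Fact p.Prime] (hp : p ≠ 2)
    (F : Finset α) (hF : F.card = 2 * p)
    (b : α → β) (s : α → ℤ) (i : α → ZMod p) (hs : ∀ f ∈ F, s f = 1 ∨ s f = -1)
    (hκ : ∀ (B : β) (j j' : ZMod p),
      ∑ f ∈ F with b f = B ∧ i f = j, s f = ∑ f ∈ F with b f = B ∧ i f = j', s f) :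
    (∃ τ : α → α, ∀ f ∈ F, τ f ∈ F ∧ τ (τ f) = f ∧ τ f ≠ f ∧ b (τ f) = b f ∧ i (τ f) = i f ∧
      s (τ f) = - s f) ∨
    (∃ F₁ : Finset α, F₁ ⊆ F ∧ Set.BijOn i F₁ Set.univ ∧
      Set.BijOn i (F \ F₁ : Finset α) Set.univ ∧
      ∀ f ∈ F, ∀ f' ∈ F, (f ∈ F₁ ↔ f' ∈ F₁) → b f = b f' ∧ s f = s f') := by
  classical
  have hp0 : 0 < p := (Fact.out : p.Prime).pos
  have hpodd : Odd p := (Fact.out : p.Prime).odd_of_ne_two hp
  set Fb : β → ZMod p → Finset α := fun B j => F.filter fun f => b f = B ∧ i f = j with hFb
  set κ : β → ℤ := fun B => ∑ f ∈ Fb B 0, s f with hκdef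
  have hd : ∀ B j, ∑ f ∈ Fb B j, s f = κ B := fun B j => hκ B j 0
  by_cases hall : ∀ B, κ B = 0
  · left
    obtain ⟨τ, hτ⟩ := match_pairs (fun f => (b f, i f)) s F hs (by
      rintro ⟨B, j⟩
      have e : F.filter (fun f => (b f, i f) = (B, j)) = Fb B j := by
        ext f; simp [hFb, Prod.ext_iff]
      rw [e, hd, hall])
    refine ⟨τ, fun f hf => ?_⟩
    obtain ⟨h1, h2, h3, h4, h5⟩ := hτ f hf
    exact ⟨h1, h2, h3, (Prod.ext_iff.mp h4).1, (Prod.ext_iff.mp h4).2, h5⟩
  · right
    push Not at hall
    obtain ⟨B₀, hB₀⟩ := hall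
    set 𝔅 := F.image b with h𝔅
    set K : ℤ := ∑ B ∈ 𝔅, |κ B| with hK
    have hsub : ∀ B j, ∀ f ∈ Fb B j, s f = 1 ∨ s f = -1 := by
      intro B j f hf
      exact hs f (Finset.mem_filter.mp hf).1
    have h1 : ∀ B j, |κ B| ≤ ((Fb B j).card : ℤ) := by
      intro B j
      rw [← hd B j]
      exact abs_sum_le_card s _ (hsub B j)
    have hB₀mem : B₀ ∈ 𝔅 := by
      by_contra hcon
      apply hB₀
      simp only [hκdef]
      apply Finset.sum_eq_zero
      intro f hf
      exact absurd (Finset.mem_image.mpr ⟨f, (Finset.mem_filter.mp hf).1,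
        (Finset.mem_filter.mp hf).2.1⟩) hcon
    have hfib : ∀ j, ((F.filter fun f => i f = j).card : ℤ) = ∑ B ∈ 𝔅, ((Fb B j).card : ℤ) := by
      intro j
      have h := Finset.card_eq_sum_card_fiberwise (f := b) (s := F.filter fun f => i f = j) (t := 𝔅)
        (fun f hf => Finset.mem_image.mpr ⟨f, (Finset.mem_filter.mp hf).1, rfl⟩)
      rw [h]
      push_cast
      refine Finset.sum_congr rfl fun B _ => ?_
      congr 2
      ext f
      simp only [hFb, Finset.mem_filter]
      tauto
    have hjge : ∀ j, K ≤ ((F.filter fun f => i f = j).card : ℤ) := by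
      intro j
      rw [hfib]
      exact Finset.sum_le_sum fun B _ => h1 B j
    have hjpar : ∀ j, (2 : ℤ) ∣ ((F.filter fun f => i f = j).card : ℤ) - K := by
      intro j
      rw [hfib, hK, ← Finset.sum_sub_distrib]
      refine Finset.dvd_sum fun B _ => ?_
      have h2 := two_dvd_card_sub_sum s (Fb B j) (hsub B j)
      rw [hd] at h2
      rcases abs_cases (κ B) with ⟨h3, _⟩ | ⟨h3, _⟩
      · rwa [h3]
      · rw [h3]
        have : ((Fb B j).card : ℤ) - -κ B = ((Fb B j).card : ℤ) - κ B + 2 * κ B := by ring
        rw [this]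
        exact dvd_add h2 (dvd_mul_right _ _)
    have htotal : ∑ j : ZMod p, ((F.filter fun f => i f = j).card : ℤ) = 2 * p := by
      have h := Finset.card_eq_sum_card_fiberwise (f := i) (s := F) (t := Finset.univ)
        (fun f _ => Finset.mem_coe.mpr (Finset.mem_univ _))
      rw [hF] at h
      have h' : ((2 * p : ℕ) : ℤ) = ∑ j : ZMod p, ((F.filter fun f => i f = j).card : ℤ) := by
        rw [h]; push_cast; rfl
      rw [← h']; push_cast; ring
    have hKle : (p : ℤ) * K ≤ 2 * p := by
      rw [← htotal]
      calc (p : ℤ) * K = ∑ _j : ZMod p, K := by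
            simp [ZMod.card]
        _ ≤ _ := Finset.sum_le_sum fun j _ => hjge j
    have hpZ : (0 : ℤ) < p := by exact_mod_cast hp0
    have hK2 : K ≤ 2 := by nlinarith
    have hK1 : 1 ≤ K := by
      have h2 : |κ B₀| ≤ K := Finset.single_le_sum (f := fun B => |κ B|)
        (fun B _ => abs_nonneg _) hB₀mem
      have h3 : 0 < |κ B₀| := abs_pos.mpr hB₀
      omega
    have hKeven : (2 : ℤ) ∣ K := by
      have h2 : (2 : ℤ) ∣ ∑ j : ZMod p, (((F.filter fun f => i f = j).card : ℤ) - K) :=
        Finset.dvd_sum fun j _ => hjpar j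
      rw [Finset.sum_sub_distrib, htotal] at h2
      have h3 : ∑ _j : ZMod p, K = (p : ℤ) * K := by simp [ZMod.card]
      rw [h3] at h2
      have h4 : (2 : ℤ) ∣ (p : ℤ) * K := by
        have h5 := dvd_sub (dvd_mul_right (2 : ℤ) (p : ℤ)) h2
        simpa using h5
      have hcop : IsCoprime (2 : ℤ) (p : ℤ) := by
        have : Nat.Coprime 2 p := Nat.coprime_two_left.mpr hpodd
        exact_mod_cast Nat.isCoprime_iff_coprime.mpr this
      exact hcop.dvd_of_dvd_mul_left h4
    have hK : K = 2 := by omega
    have hj2 : ∀ j, ((F.filter fun f => i f = j).card : ℤ) = 2 := by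
      have hsum : ∑ _j : ZMod p, (2 : ℤ) = ∑ j : ZMod p, ((F.filter fun f => i f = j).card : ℤ) := by
        rw [htotal]; simp [ZMod.card]; ring
      have := (Finset.sum_eq_sum_iff_of_le (fun j _ => by rw [← hK]; exact hjge j)).mp hsum
      intro j
      exact (this j (Finset.mem_univ _)).symm
    have hbj : ∀ B ∈ 𝔅, ∀ j, ((Fb B j).card : ℤ) = |κ B| := by
      intro B hB j
      have hsum : ∑ B ∈ 𝔅, |κ B| = ∑ B ∈ 𝔅, ((Fb B j).card : ℤ) := by
        rw [← hfib, hj2, ← hK]
      have := (Finset.sum_eq_sum_iff_of_le (fun B _ => h1 B j)).mp hsum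
      exact (this B hB).symm
    have hsign : ∀ f ∈ F, s f = Int.sign (κ (b f)) := by
      intro f hf
      have hmem : f ∈ Fb (b f) (i f) := Finset.mem_filter.mpr ⟨hf, rfl, rfl⟩
      have h2 := sign_of_abs_eq s (Fb (b f) (i f)) (hsub _ _) (by
        rw [hd, hbj _ (Finset.mem_image_of_mem _ hf)]) f hmem
      rwa [hd] at h2
    have hκpos : ∀ f ∈ F, 1 ≤ |κ (b f)| := by
      intro f hf
      rw [← hbj _ (Finset.mem_image_of_mem _ hf) (i f)]
      have : 0 < (Fb (b f) (i f)).card :=
        Finset.card_pos.mpr ⟨f, Finset.mem_filter.mpr ⟨hf, rfl, rfl⟩⟩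
      exact_mod_cast this
    -- the transversal in the class `B₀`
    have hex : ∀ j, ∃ f, f ∈ Fb B₀ j := by
      intro j
      have h2 : 0 < ((Fb B₀ j).card : ℤ) := by
        rw [hbj _ hB₀mem]; exact abs_pos.mpr hB₀
      have h3 : 0 < (Fb B₀ j).card := by exact_mod_cast h2
      exact Finset.card_pos.mp h3
    choose e he using hex
    have heF : ∀ j, e j ∈ F := fun j => (Finset.mem_filter.mp (he j)).1
    have heb : ∀ j, b (e j) = B₀ := fun j => (Finset.mem_filter.mp (he j)).2.1
    have hei : ∀ j, i (e j) = j := fun j => (Finset.mem_filter.mp (he j)).2.2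
    set F₁ : Finset α := Finset.univ.image e with hF₁
    have hF₁mem : ∀ f, f ∈ F₁ ↔ ∃ j, e j = f := by
      intro f; simp [hF₁]
    have hF₁e : ∀ f ∈ F₁, e (i f) = f := by
      intro f hf
      obtain ⟨j, rfl⟩ := (hF₁mem f).mp hf
      rw [hei]
    refine ⟨F₁, ?_, ?_, ?_, ?_⟩
    · intro f hf
      obtain ⟨j, rfl⟩ := (hF₁mem f).mp hf
      exact heF j
    · refine ⟨fun _ _ => Set.mem_univ _, ?_, ?_⟩
      · intro f hf f' hf' h
        rw [← hF₁e f hf, ← hF₁e f' hf', h]
      · intro j _
        exact ⟨e j, Finset.mem_coe.mpr ((hF₁mem _).mpr ⟨j, rfl⟩), hei j⟩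
    · refine ⟨fun _ _ => Set.mem_univ _, ?_, ?_⟩
      · intro y hy y' hy' h
        rw [Finset.mem_coe, Finset.mem_sdiff] at hy hy'
        by_contra hne
        have hy1 : y ≠ e (i y) := fun h' => hy.2 ((hF₁mem _).mpr ⟨_, h'.symm⟩)
        have hy2 : y' ≠ e (i y) := fun h' => hy'.2 ((hF₁mem _).mpr ⟨_, h'.symm⟩)
        have hsubset : ({e (i y), y, y'} : Finset α) ⊆ F.filter fun f => i f = i y := by
          intro g hg
          simp only [Finset.mem_insert, Finset.mem_singleton] at hg
          rw [Finset.mem_filter]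
          rcases hg with rfl | rfl | rfl
          · exact ⟨heF _, hei _⟩
          · exact ⟨hy.1, rfl⟩
          · exact ⟨hy'.1, h.symm⟩
        have hc := Finset.card_le_card hsubset
        have hc3 : ({e (i y), y, y'} : Finset α).card = 3 := by
          rw [Finset.card_eq_three]
          exact ⟨_, _, _, Ne.symm hy1, Ne.symm hy2, hne, rfl⟩
        have := hj2 (i y)
        omega
      · intro j _
        have hc : 1 < (F.filter fun f => i f = j).card := by
          have := hj2 j
          omega
        obtain ⟨y, hy, hne⟩ := Finset.exists_mem_ne hc (e j)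
        rw [Finset.mem_filter] at hy
        refine ⟨y, ?_, hy.2⟩
        rw [Finset.mem_coe, Finset.mem_sdiff]
        refine ⟨hy.1, fun hcon => hne ?_⟩
        rw [← hF₁e y hcon, hy.2]
    · intro f hf f' hf' hc
      have hblock : b f = b f' := by
        by_cases hf₁ : f ∈ F₁
        · have hf₁' := hc.mp hf₁
          obtain ⟨j, rfl⟩ := (hF₁mem f).mp hf₁
          obtain ⟨j', rfl⟩ := (hF₁mem f').mp hf₁'
          rw [heb, heb]
        · have hf₁' : f' ∉ F₁ := fun h => hf₁ (hc.mpr h)
          by_contra hne
          have hT : ∀ T : Finset β, T ⊆ 𝔅 → ∑ B ∈ T, |κ B| ≤ 2 := by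
            intro T hT
            rw [← hK]
            exact Finset.sum_le_sum_of_subset_of_nonneg hT fun B _ _ => abs_nonneg _
          have hmemb : b f ∈ 𝔅 := Finset.mem_image_of_mem _ hf
          have hmemb' : b f' ∈ 𝔅 := Finset.mem_image_of_mem _ hf'
          have hdouble : ∀ g ∈ F, g ∉ F₁ → b g = B₀ → 2 ≤ |κ B₀| := by
            intro g hg hgF hgb
            rw [← hbj _ hB₀mem (i g)]
            have hne2 : e (i g) ≠ g := fun h' => hgF ((hF₁mem _).mpr ⟨_, h'⟩)
            have : 1 < (Fb B₀ (i g)).card := by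
              rw [Finset.one_lt_card]
              exact ⟨e (i g), he _, g, Finset.mem_filter.mpr ⟨hg, hgb, rfl⟩, hne2⟩
            exact_mod_cast this
          have hB₀pos : 1 ≤ |κ B₀| := by
            have := abs_pos.mpr hB₀
            omega
          by_cases h1' : b f = B₀
          · have h2 := hdouble f hf hf₁ h1'
            have h3 : b f' ≠ B₀ := fun h => hne (h1'.trans h.symm)
            have h4 := hT {B₀, b f'} (by
              intro B hB
              simp only [Finset.mem_insert, Finset.mem_singleton] at hB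
              rcases hB with rfl | rfl
              · exact hB₀mem
              · exact hmemb')
            rw [Finset.sum_pair (Ne.symm h3)] at h4
            have := hκpos f' hf'
            omega
          · by_cases h2' : b f' = B₀
            · have h2 := hdouble f' hf' hf₁' h2'
              have h4 := hT {B₀, b f} (by
                intro B hB
                simp only [Finset.mem_insert, Finset.mem_singleton] at hB
                rcases hB with rfl | rfl
                · exact hB₀mem
                · exact hmemb)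
              rw [Finset.sum_pair (Ne.symm h1')] at h4
              have := hκpos f hf
              omega
            · have h4 := hT {B₀, b f, b f'} (by
                intro B hB
                simp only [Finset.mem_insert, Finset.mem_singleton] at hB
                rcases hB with rfl | rfl | rfl
                · exact hB₀mem
                · exact hmemb
                · exact hmemb')
              rw [Finset.sum_insert (by
                simp only [Finset.mem_insert, Finset.mem_singleton]
                push Not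
                exact ⟨Ne.symm h1', Ne.symm h2'⟩), Finset.sum_pair hne] at h4
              have := hκpos f hf
              have := hκpos f' hf'
              omega
      refine ⟨hblock, ?_⟩
      rw [hsign f hf, hsign f' hf', hblock]

end Vale.Agent.P043T
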