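import Vale.Agent.P043T.Eigen
import Vale.Agent.P043T.Combin

/-!
Classification of eigenleaves for tiles of size twice an odd prime.
-/

namespace Vale.Agent.P043T

open scoped BigOperators
open Finset

/-- Integer relation among powers of a primitive root of prime order. -/
lemma zmod_pow_relation (p : ℕ) [Fact p.Prime] {ω : ℂ} (hω : IsPrimitiveRoot ω p) (d : ZMod p → ℤ)
    (h : ∑ j : ZMod p, (d j : ℂ) * ω ^ j.val = 0) (j j' : ZMod p) : d j = d j' := by
  classical
  have hp : p.Prime := Fact.out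
  set Q : Polynomial ℤ := ∑ j : ZMod p, Polynomial.C (d j) * Polynomial.X ^ j.val with hQ
  have hval : ∀ j : ZMod p, j.val < p := fun j => ZMod.val_lt j
  have hcoef : ∀ j : ZMod p, Q.coeff j.val = d j := by
    intro j
    rw [hQ, Polynomial.finset_sum_coeff]
    simp only [Polynomial.coeff_C_mul, Polynomial.coeff_X_pow]
    rw [Finset.sum_eq_single j]
    · simp
    · intro b _ hb
      have : j.val ≠ b.val := fun h => hb (ZMod.val_injective p h).symm
      simp [this]
    · simp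
  have hdeg : Q.natDegree ≤ p - 1 := by
    rw [hQ]
    apply Polynomial.natDegree_sum_le_of_forall_le
    intro j _
    refine (Polynomial.natDegree_C_mul_X_pow_le _ _).trans ?_
    have := hval j
    omega
  have haeval : Polynomial.aeval ω Q = 0 := by
    rw [hQ, map_sum]
    simp only [map_mul, Polynomial.aeval_C, map_pow, Polynomial.aeval_X]
    simpa using h
  have hint : IsIntegral ℤ ω := hω.isIntegral hp.pos
  have hdvd : Polynomial.cyclotomic p ℤ ∣ Q := by
    rw [Polynomial.cyclotomic_eq_minpoly hω hp.pos]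
    exact minpoly.isIntegrallyClosed_dvd hint haeval
  obtain ⟨E, hE⟩ := hdvd
  have hmon : (Polynomial.cyclotomic p ℤ).Monic := Polynomial.cyclotomic.monic p ℤ
  have hcdeg : (Polynomial.cyclotomic p ℤ).natDegree = p - 1 := by
    rw [Polynomial.natDegree_cyclotomic, Nat.totient_prime hp]
  have hEdeg : E.natDegree = 0 := by
    by_cases hE0 : E = 0
    · simp [hE0]
    · have h1 := hmon.natDegree_mul' hE0
      rw [← hE, hcdeg] at h1
      omega
  obtain ⟨c, hc⟩ : ∃ c, E = Polynomial.C c := ⟨_, Polynomial.eq_C_of_natDegree_eq_zero hEdeg⟩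
  have hcoefc : ∀ j : ZMod p, d j = c := by
    intro j
    rw [← hcoef j, hE, hc, Polynomial.cyclotomic_prime, mul_comm, Polynomial.coeff_C_mul,
      Polynomial.finset_sum_coeff]
    have : ∑ b ∈ range p, (Polynomial.X ^ b : Polynomial ℤ).coeff j.val = 1 := by
      simp only [Polynomial.coeff_X_pow]
      rw [Finset.sum_eq_single j.val]
      · simp
      · intro b _ hb; simp [Ne.symm hb]
      · intro hcon; exact absurd (Finset.mem_range.mpr (hval j)) hcon
    rw [this, mul_one]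
  rw [hcoefc j, hcoefc j']

lemma pow_val_sub (p : ℕ) [Fact p.Prime] {ω : ℂ} (hω : ω ^ p = 1) (a b : ZMod p) :
    ω ^ (a - b).val * ω ^ b.val = ω ^ a.val := by
  rw [← pow_add, pow_eq_pow_mod _ hω, pow_eq_pow_mod a.val hω]
  congr 1
  have : (((a - b).val + b.val : ℕ) : ZMod p) = ((a.val : ℕ) : ZMod p) := by
    push_cast
    simp
  exact (ZMod.natCast_eq_natCast_iff _ _ _).mp this

variable {G : Type*} [AddCommGroup G]
variable {M : Type*} [AddCommGroup M] [Module (GA G) M]

/-- Type of antipodal pairs. -/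
def TypeP (F : Finset G) (g : M) : Prop :=
  ∃ τ : G → G, ∀ f ∈ F, τ f ∈ F ∧ τ (τ f) = f ∧ τ f ≠ f ∧ tau (τ f - f) • g = -g

/-- Type of two transversals. -/
def TypeG (p : ℕ) [Fact p.Prime] (ω : ℂ) (F : Finset G) (g : M) : Prop :=
  ∃ (F₁ : Finset G) (ψ : G → ZMod p), F₁ ⊆ F ∧ Set.BijOn ψ F₁ Set.univ ∧
    Set.BijOn ψ ((F : Set G) \ (F₁ : Set G)) Set.univ ∧
    ∀ f ∈ F, ∀ f' ∈ F, (f ∈ F₁ ↔ f' ∈ F₁) →
      tau (f - f') • g = (cc (ω ^ (ψ f - ψ f').val) : GA G) • g

lemma cc_smul_eq_zero {z : ℂ} {g : M} (hg : g ≠ 0) (h : (cc z : GA G) • g = 0) : z = 0 := by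
  by_contra hz
  apply hg
  have h2 : (cc z⁻¹ * cc z : GA G) • g = 0 := by rw [mul_smul, h, smul_zero]
  rw [cc_mul, inv_mul_cancel₀ hz, cc_one, one_smul] at h2
  exact h2

lemma tau_smul_inj (v : G) {m m' : M} (h : tau v • m = tau v • m') : m = m' := by
  have h2 := congrArg (fun x => tau (-v) • x) h
  simpa only [smul_smul, tau_neg_mul, one_smul] using h2

/-- The classification of eigenleaves. -/
theorem classify (p : ℕ) [Fact p.Prime] (hp : p ≠ 2) (F : Finset G) (hF : F.card = 2 * p)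
    {ζ : ℂ} (hζ : IsPrimitiveRoot ζ (2 * p)) (g : M) (hg : g ≠ 0) (hE : EigenLeaf F ζ g) :
    TypeP F g ∨ TypeG p (ζ ^ 2) F g := by
  classical
  have hpp : p.Prime := Fact.out
  have hp0 : 0 < p := hpp.pos
  have hodd : Odd p := hpp.odd_of_ne_two hp
  have h2p : 2 * p ≠ 0 := by omega
  set ω := ζ ^ 2 with hωdef
  have hω : IsPrimitiveRoot ω p := by
    have := hζ.pow (by omega) (show 2 * p = 2 * p from rfl)
    exact this
  have hωp : ω ^ p = 1 := hω.pow_eq_one
  have hζ0 : ζ ≠ 0 := hζ.ne_zero h2p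
  have hζp : ζ ^ p = -1 := by
    have h1 : (ζ ^ p) ^ 2 = 1 := by rw [← pow_mul, mul_comm]; exact hζ.pow_eq_one
    have h2 : ζ ^ p ≠ 1 := by
      intro h
      have := hζ.dvd_of_pow_eq_one _ h
      have := Nat.le_of_dvd hp0 this
      omega
    rw [sq] at h1
    rcases mul_self_eq_one_iff.mp h1 with h | h
    · exact absurd h h2
    · exact h
  -- every power of ζ is a sign times a power of ω
  have hconv : ∀ j : ℕ, ∃ (σ : ℤ) (i : ZMod p), (σ = 1 ∨ σ = -1) ∧ ζ ^ j = (σ : ℂ) * ω ^ i.val := by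
    intro j
    have hval : ∀ m : ℕ, ω ^ ((m : ZMod p)).val = ω ^ m := by
      intro m
      rw [ZMod.val_natCast, ← pow_eq_pow_mod _ hωp]
    rcases Nat.even_or_odd' j with ⟨m, rfl | rfl⟩
    · refine ⟨1, (m : ZMod p), Or.inl rfl, ?_⟩
      rw [hval, hωdef, ← pow_mul]; simp
    · obtain ⟨q, hq⟩ := hodd
      refine ⟨-1, ((m + q + 1 : ℕ) : ZMod p), Or.inr rfl, ?_⟩
      rw [hval, hωdef, ← pow_mul]
      have e : 2 * (m + q + 1) = (2 * m + 1) + p := by omega
      have e2 : ζ ^ (2 * (m + q + 1)) = ζ ^ (2 * m + 1) * ζ ^ p := by rw [e, pow_add]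
      rw [e2, hζp]
      push_cast
      ring
  obtain ⟨s, h1, h2⟩ := hE
  -- representatives
  let r : Quotient s → G := fun q => if h : ∃ f' ∈ F, Quotient.mk s f' = q then h.choose else 0
  let rep : G → G := fun f => r (Quotient.mk s f)
  have hrep1 : ∀ f ∈ F, rep f ∈ F ∧ s.r (rep f) f := by
    intro f hf
    have h : ∃ f' ∈ F, Quotient.mk s f' = Quotient.mk s f := ⟨f, hf, rfl⟩
    simp only [rep, r, dif_pos h]
    exact ⟨h.choose_spec.1, Quotient.exact h.choose_spec.2⟩
  have hrep2 : ∀ f f', s.r f f' → rep f = rep f' := by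
    intro f f' h
    have : Quotient.mk s f = Quotient.mk s f' := Quotient.sound h
    simp only [rep, this]
  have hrep3 : ∀ f ∈ F, ∀ f' ∈ F, rep f = rep f' → s.r f f' := by
    intro f hf f' hf' h
    have h3 := (hrep1 f hf).2
    have h4 := (hrep1 f' hf').2
    rw [h] at h3
    exact s.trans' (s.symm' h3) h4
  -- labels
  have hlab : ∀ f, f ∈ F → ∃ (σ : ℤ) (i : ZMod p), (σ = 1 ∨ σ = -1) ∧
      tau (f - rep f) • g = (cc ((σ : ℂ) * ω ^ i.val) : GA G) • g := by
    intro f hf
    obtain ⟨j, hj⟩ := h1 f hf (rep f) (hrep1 f hf).1 (s.symm' (hrep1 f hf).2)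
    obtain ⟨σ, i, hσ, he⟩ := hconv j
    exact ⟨σ, i, hσ, by rw [hj, he]⟩
  choose! sg idx hsg hlabel using hlab
  -- the class relations
  have hrel : ∀ f ∈ F, ∀ β, rep f = β →
      tau f • g = tau β • ((cc ((sg f : ℂ) * ω ^ (idx f).val) : GA G) • g) := by
    intro f hf β hβ
    rw [← hlabel f hf, ← hβ, smul_smul, ← tau_add]
    congr 2
    abel
  have hz : ∀ β, ∑ f ∈ F with rep f = β, (sg f : ℂ) * ω ^ (idx f).val = 0 := by
    intro β
    by_cases hβ : ∃ f₀ ∈ F, rep f₀ = β
    · obtain ⟨f₀, hf₀, rfl⟩ := hβ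
      have hsum := h2 f₀ hf₀
      have hfilter : F.filter (fun f => s.r f f₀) = F.filter (fun f => rep f = rep f₀) := by
        ext f
        simp only [Finset.mem_filter]
        constructor
        · rintro ⟨h3, h4⟩; exact ⟨h3, hrep2 _ _ h4⟩
        · rintro ⟨h3, h4⟩; exact ⟨h3, hrep3 _ h3 _ hf₀ h4⟩
      have h5 : ∑ f ∈ F with s.r f f₀, tau f • g
          = tau (rep f₀) • ((cc (∑ f ∈ F with rep f = rep f₀, (sg f : ℂ) * ω ^ (idx f).val) : GA G) • g) := by
        rw [hfilter, cc_sum, Finset.sum_smul, Finset.smul_sum]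
        refine Finset.sum_congr rfl fun f hf => ?_
        rw [Finset.mem_filter] at hf
        exact hrel f hf.1 _ hf.2
      rw [h5] at hsum
      have h6 : (cc (∑ f ∈ F with rep f = rep f₀, (sg f : ℂ) * ω ^ (idx f).val) : GA G) • g = 0 :=
        tau_smul_inj (rep f₀) (by rw [hsum, smul_zero])
      exact cc_smul_eq_zero hg h6
    · apply Finset.sum_eq_zero
      intro f hf
      rw [Finset.mem_filter] at hf
      exact absurd ⟨f, hf.1, hf.2⟩ hβ
  -- the sums by index
  have hκ : ∀ (B : G) (j j' : ZMod p),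
      ∑ f ∈ F with rep f = B ∧ idx f = j, sg f = ∑ f ∈ F with rep f = B ∧ idx f = j', sg f := by
    intro B j j'
    apply zmod_pow_relation p hω (fun j => ∑ f ∈ F with rep f = B ∧ idx f = j, sg f)
    have h3 := hz B
    rw [← h3]
    have h4 := Finset.sum_fiberwise (s := F.filter fun f => rep f = B) (g := idx)
      (f := fun f => (sg f : ℂ) * ω ^ (idx f).val)
    rw [← h4]
    refine Finset.sum_congr rfl fun j _ => ?_
    push_cast
    rw [Finset.sum_mul, Finset.filter_filter]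
    refine Finset.sum_congr rfl fun f hf => ?_
    rw [Finset.mem_filter] at hf
    rw [hf.2.2]
  have hsg' : ∀ f ∈ F, sg f = 1 ∨ sg f = -1 := hsg
  rcases combin p hp F hF rep sg idx hsg' hκ with ⟨τ, hτ⟩ | ⟨F₁, hsub, hb1, hb2, hcl⟩
  · left
    refine ⟨τ, fun f hf => ?_⟩
    obtain ⟨h3, h4, h5, h6, h7, h8⟩ := hτ f hf
    refine ⟨h3, h4, h5, ?_⟩
    apply tau_smul_inj (f - rep f)
    rw [smul_smul, ← tau_add, smul_neg, hlabel f hf]
    have e : f - rep f + (τ f - f) = τ f - rep f := by abel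
    rw [e, ← h6, hlabel _ h3, h7, h8]
    have : ((cc (((-sg f : ℤ) : ℂ) * ω ^ (idx f).val) : GA G)) = - cc ((sg f : ℂ) * ω ^ (idx f).val) := by
      have : (((-sg f : ℤ) : ℂ) * ω ^ (idx f).val) = - ((sg f : ℂ) * ω ^ (idx f).val) := by
        push_cast; ring
      rw [this]
      simp [cc]
    rw [this, neg_smul]
  · right
    refine ⟨F₁, idx, hsub, hb1, by simpa [Finset.coe_sdiff] using hb2, fun f hf f' hf' hc => ?_⟩
    obtain ⟨h3, h4⟩ := hcl f hf f' hf' hc
    apply tau_smul_inj (f' - rep f')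
    have e : f' - rep f' + (f - f') = f - rep f := by rw [h3]; abel
    rw [smul_smul, ← tau_add, e, hlabel f hf, smul_comm (tau (f' - rep f')) _ g, hlabel f' hf',
      smul_smul, cc_mul, h4]
    congr 2
    rw [mul_left_comm, pow_val_sub p hωp]

end Vale.Agent.P043T
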