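import Mathlib

/-!
Periodic tilings of the lattice by tiles of size twice an odd prime: basic definitions.
-/

namespace Vale.Agent.P043T

open scoped BigOperators
open Finset

/-- The lattice `ℤ^d`. -/
abbrev Lat (d : ℕ) := Fin d → ℤ

section basics
variable {G : Type*} [AddCommGroup G]

open Classical in
/-- Indicator of a set, as an integer valued function. -/
noncomputable def ind (A : Set G) (x : G) : ℤ := if x ∈ A then 1 else 0

/-- `A` tiles together with the dilate `r • F`: each point has exactly one representation. -/
def DilTile (A : Set G) (F : Finset G) (r : ℕ) : Prop :=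
  ∀ x, ∑ f ∈ F, ind A (x - r • f) = 1

/-- The usual definition of a tiling `A ⊕ F = G`. -/
def IsTiling (A : Set G) (F : Finset G) : Prop :=
  ∀ x, ∃! q : G × G, q.1 ∈ A ∧ q.2 ∈ F ∧ q.1 + q.2 = x

/-- A tiling invariant under a subgroup of finite index exists (for the lattice: `N • ℤ^d`). -/
def HasPeriodicTiling {d : ℕ} (F : Finset (Lat d)) : Prop :=
  ∃ (A : Set (Lat d)) (N : ℕ), 0 < N ∧ IsTiling A F ∧ ∀ x z, x ∈ A → x + N • z ∈ A

end basics

end Vale.Agent.P043T
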