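import Vale.Agent.P043T.Ext

/-!
Periodic tilings defined through the lowest digits of two homomorphisms to cyclic groups.
-/

namespace Vale.Agent.P043T

open scoped BigOperators
open Finset

lemma zmod2_cases : ∀ j : ZMod 2, j = 0 ∨ j = 1 := by decide
lemma zmod2_one_ne : (1 : ZMod 2) ≠ 0 := by decide
lemma zmod2_zero_ne : (0 : ZMod 2) ≠ 1 := by decide

/-- Lowest part of a residue modulo `q ^ (b+1)`. -/
def low (q b : ℕ) (z : ZMod (q ^ (b + 1))) : Prop := z.val < q ^ b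

lemma val_add_digit (q b : ℕ) [Fact q.Prime] (w : ZMod (q ^ (b + 1))) (k : ℕ) (hk : k < q)
    (hw : low q b w) :
    (w + (q ^ b : ZMod (q ^ (b + 1))) * (k : ZMod (q ^ (b + 1)))).val = w.val + q ^ b * k := by
  have hq : q.Prime := Fact.out
  haveI : NeZero (q ^ (b + 1)) := ⟨pow_ne_zero _ hq.ne_zero⟩
  have h1 : q ^ b * k + q ^ b ≤ q ^ (b + 1) := by
    rw [pow_succ]
    calc q ^ b * k + q ^ b = q ^ b * (k + 1) := by ring
      _ ≤ q ^ b * q := Nat.mul_le_mul_left _ hk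
  have h2 : q ^ b * k < q ^ (b + 1) := by
    have : 0 < q ^ b := pow_pos hq.pos _
    omega
  have e : (q ^ b : ZMod (q ^ (b + 1))) * (k : ZMod (q ^ (b + 1))) = ((q ^ b * k : ℕ) : ZMod (q ^ (b + 1))) := by
    push_cast; ring
  rw [e, ZMod.val_add_of_lt, ZMod.val_cast_of_lt h2]
  rw [ZMod.val_cast_of_lt h2]
  unfold low at hw
  omega

theorem digit_unique (q b : ℕ) [Fact q.Prime] (z : ZMod (q ^ (b + 1))) :
    ∃! j : ZMod q, low q b (z - (q ^ b : ZMod (q ^ (b + 1))) * ((j.val : ℕ) : ZMod (q ^ (b + 1)))) := by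
  have hq : q.Prime := Fact.out
  haveI : NeZero (q ^ (b + 1)) := ⟨pow_ne_zero _ hq.ne_zero⟩
  haveI : NeZero q := ⟨hq.ne_zero⟩
  have hpos : 0 < q ^ b := pow_pos hq.pos _
  have hzlt : z.val < q ^ (b + 1) := ZMod.val_lt z
  have hdivlt : z.val / q ^ b < q := by
    rw [Nat.div_lt_iff_lt_mul hpos, mul_comm, ← pow_succ]
    exact hzlt
  refine ⟨((z.val / q ^ b : ℕ) : ZMod q), ?_, ?_⟩
  · simp only [ZMod.val_cast_of_lt hdivlt]
    have e : z - (q ^ b : ZMod (q ^ (b + 1))) * ((z.val / q ^ b : ℕ) : ZMod (q ^ (b + 1)))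
        = ((z.val % q ^ b : ℕ) : ZMod (q ^ (b + 1))) := by
      have h1 : ((z.val : ℕ) : ZMod (q ^ (b + 1))) = z := ZMod.natCast_zmod_val z
      have h2 : z.val = z.val % q ^ b + q ^ b * (z.val / q ^ b) := (Nat.mod_add_div _ _).symm
      have h3 := congrArg (fun n : ℕ => (n : ZMod (q ^ (b + 1)))) h2
      simp only [h1] at h3
      push_cast at h3
      push_cast
      rw [sub_eq_iff_eq_add]
      exact h3
    rw [e]
    unfold low
    rw [ZMod.val_cast_of_lt]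
    · exact Nat.mod_lt _ hpos
    · calc z.val % q ^ b < q ^ b := Nat.mod_lt _ hpos
        _ < q ^ (b + 1) := by
          rw [pow_succ]
          nlinarith [hq.two_le]
  · intro j hj
    set w := z - (q ^ b : ZMod (q ^ (b + 1))) * ((j.val : ℕ) : ZMod (q ^ (b + 1))) with hw
    have h1 : z = w + (q ^ b : ZMod (q ^ (b + 1))) * ((j.val : ℕ) : ZMod (q ^ (b + 1))) := by
      rw [hw]; ring
    have h2 := val_add_digit q b w j.val (ZMod.val_lt j) hj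
    rw [← h1] at h2
    have h3 : z.val / q ^ b = j.val := by
      rw [h2, Nat.add_mul_div_left _ _ hpos, Nat.div_eq_of_lt hj, zero_add]
    apply ZMod.val_injective q
    rw [ZMod.val_cast_of_lt hdivlt, h3]

lemma isTiling_of_unique {d : ℕ} (A : Set (Lat d)) (F : Finset (Lat d))
    (h : ∀ x, ∃! f, f ∈ F ∧ x - f ∈ A) : IsTiling A F := by
  intro x
  obtain ⟨f, ⟨hf, hfA⟩, huniq⟩ := h x
  refine ⟨(x - f, f), ⟨hfA, hf, by simp⟩, ?_⟩
  rintro ⟨a, f'⟩ ⟨h1, h2, h3⟩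
  simp only at h1 h2 h3
  have e : x - f' = a := by rw [← h3]; abel
  have := huniq f' ⟨h2, by rw [e]; exact h1⟩
  subst this
  rw [← e]

theorem periodic_of_digits {d : ℕ} (F : Finset (Lat d)) (p : ℕ) [Fact p.Prime] (a b : ℕ)
    (ξ : Lat d →+ ZMod (2 ^ (a + 1))) (η : Lat d →+ ZMod (p ^ (b + 1)))
    (h : ∀ x, ∃! f, f ∈ F ∧ low 2 a (ξ (x - f)) ∧ low p b (η (x - f))) :
    HasPeriodicTiling F := by
  have hp : p.Prime := Fact.out
  refine ⟨{x | low 2 a (ξ x) ∧ low p b (η x)}, 2 ^ (a + 1) * p ^ (b + 1), ?_, ?_, ?_⟩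
  · have := pow_pos hp.pos (b + 1)
    positivity
  · apply isTiling_of_unique
    intro x
    obtain ⟨f, hf, hu⟩ := h x
    exact ⟨f, ⟨hf.1, hf.2⟩, fun f' hf' => hu f' ⟨hf'.1, hf'.2⟩⟩
  · rintro x z ⟨h1, h2⟩
    constructor
    · have : ξ (x + (2 ^ (a + 1) * p ^ (b + 1)) • z) = ξ x := by
        rw [map_add, map_nsmul, nsmul_eq_mul]
        have : ((2 ^ (a + 1) * p ^ (b + 1) : ℕ) : ZMod (2 ^ (a + 1))) = 0 := by
          rw [ZMod.natCast_eq_zero_iff]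
          exact dvd_mul_right _ _
        rw [this, zero_mul, add_zero]
      rw [this]; exact h1
    · have : η (x + (2 ^ (a + 1) * p ^ (b + 1)) • z) = η x := by
        rw [map_add, map_nsmul, nsmul_eq_mul]
        have : ((2 ^ (a + 1) * p ^ (b + 1) : ℕ) : ZMod (p ^ (b + 1))) = 0 := by
          rw [ZMod.natCast_eq_zero_iff]
          exact dvd_mul_left _ _
        rw [this, zero_mul, add_zero]
      rw [this]; exact h2

/-- Uniqueness inside one transversal. -/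
lemma unique_in_class {d : ℕ} (p : ℕ) [Fact p.Prime] (b : ℕ) (S : Set (Lat d)) (ψ : Lat d → ZMod p)
    (hψ : Set.BijOn ψ S Set.univ) (η : Lat d →+ ZMod (p ^ (b + 1)))
    (hη : ∀ f ∈ S, ∀ f' ∈ S,
      η (f - f') = (p ^ b : ZMod (p ^ (b + 1))) * (((ψ f - ψ f').val : ℕ) : ZMod (p ^ (b + 1))))
    (f₀ : Lat d) (hf₀ : f₀ ∈ S) (x : Lat d) :
    ∃! f, f ∈ S ∧ low p b (η (x - f)) := by
  have hform : ∀ f ∈ S, η (x - f) = η (x - f₀)
      - (p ^ b : ZMod (p ^ (b + 1))) * (((ψ f - ψ f₀).val : ℕ) : ZMod (p ^ (b + 1))) := by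
    intro f hf
    rw [← hη f hf f₀ hf₀, ← map_sub]
    congr 1
    abel
  obtain ⟨j, hj, huj⟩ := digit_unique p b (η (x - f₀))
  obtain ⟨f, hf, hfj⟩ := hψ.surjOn (Set.mem_univ (j + ψ f₀))
  refine ⟨f, ⟨hf, ?_⟩, ?_⟩
  · rw [hform f hf, hfj]
    simpa using hj
  · rintro f' ⟨hf', hlow⟩
    rw [hform f' hf'] at hlow
    have := huj _ hlow
    apply hψ.injOn hf' hf
    rw [hfj, ← this]
    ring

theorem periodic_of_pairs {d : ℕ} (p : ℕ) [Fact p.Prime] (F F₁ : Finset (Lat d))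
    (hsub : F₁ ⊆ F) (ψ : Lat d → ZMod p)
    (hb1 : Set.BijOn ψ F₁ Set.univ) (hb2 : Set.BijOn ψ ((F : Set (Lat d)) \ (F₁ : Set (Lat d))) Set.univ)
    (τ : Lat d → Lat d) (hτ : ∀ f ∈ F, τ f ∈ F ∧ τ (τ f) = f ∧ τ f ≠ f)
    (a b : ℕ) (ξ : Lat d →+ ZMod (2 ^ (a + 1))) (η : Lat d →+ ZMod (p ^ (b + 1)))
    (hξ : ∀ f ∈ F, ξ (τ f - f) = (2 ^ a : ZMod (2 ^ (a + 1))))
    (hη : ∀ f ∈ F, η (τ f - f) = 0)
    (hηψ : ∀ f ∈ F, ∀ f' ∈ F, (f ∈ F₁ ↔ f' ∈ F₁) →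
      η (f - f') = (p ^ b : ZMod (p ^ (b + 1))) * (((ψ f - ψ f').val : ℕ) : ZMod (p ^ (b + 1)))) :
    HasPeriodicTiling F := by
  classical
  have hp : p.Prime := Fact.out
  haveI : NeZero p := ⟨hp.ne_zero⟩
  apply periodic_of_digits F p a b ξ η
  intro x
  -- the classes
  have h1 : ∀ f ∈ (F₁ : Set (Lat d)), ∀ f' ∈ (F₁ : Set (Lat d)), η (f - f')
      = (p ^ b : ZMod (p ^ (b + 1))) * (((ψ f - ψ f').val : ℕ) : ZMod (p ^ (b + 1))) := by
    intro f hf f' hf'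
    exact hηψ f (hsub hf) f' (hsub hf') (by simp only [Finset.mem_coe] at hf hf'; tauto)
  have h2 : ∀ f ∈ ((F : Set (Lat d)) \ (F₁ : Set (Lat d))), ∀ f' ∈ ((F : Set (Lat d)) \ (F₁ : Set (Lat d))), η (f - f')
      = (p ^ b : ZMod (p ^ (b + 1))) * (((ψ f - ψ f').val : ℕ) : ZMod (p ^ (b + 1))) := by
    rintro f ⟨hf, hf1⟩ f' ⟨hf', hf1'⟩
    exact hηψ f hf f' hf' (by simp only [Finset.mem_coe] at hf1 hf1'; tauto)
  obtain ⟨f₀, hf₀, -⟩ := hb1.surjOn (Set.mem_univ (0 : ZMod p))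
  obtain ⟨g₀, hg₀, -⟩ := hb2.surjOn (Set.mem_univ (0 : ZMod p))
  obtain ⟨f₁, ⟨hf₁, hf₁low⟩, hf₁u⟩ := unique_in_class p b _ ψ hb1 η h1 f₀ hf₀ x
  obtain ⟨g₁, ⟨hg₁, hg₁low⟩, hg₁u⟩ := unique_in_class p b _ ψ hb2 η h2 g₀ hg₀ x
  have hf₁F : f₁ ∈ F := hsub hf₁
  -- the partner is in the other class
  have hcross : ∀ f ∈ F, f ∈ F₁ → τ f ∉ F₁ := by
    intro f hf hfF₁ hcon
    obtain ⟨h3, h4, h5⟩ := hτ f hf
    have h6 := hηψ (τ f) h3 f hf (by tauto)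
    rw [hη f hf] at h6
    -- the digit vanishes
    have hlt : (ψ (τ f) - ψ f).val < p := ZMod.val_lt _
    have h7 := val_add_digit p b 0 (ψ (τ f) - ψ f).val hlt (by
      unfold low
      have hz : ((0 : ZMod (p ^ (b + 1)))).val = 0 := by
        haveI : NeZero (p ^ (b + 1)) := ⟨pow_ne_zero _ hp.ne_zero⟩
        exact ZMod.val_zero
      rw [hz]
      exact pow_pos hp.pos _)
    rw [zero_add, ← h6] at h7
    haveI : NeZero (p ^ (b + 1)) := ⟨pow_ne_zero _ hp.ne_zero⟩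
    rw [ZMod.val_zero] at h7
    have h8 : (ψ (τ f) - ψ f).val = 0 := by
      have h9 : 0 + p ^ b * (ψ (τ f) - ψ f).val = 0 := by
        simpa using h7.symm
      rw [zero_add] at h9
      exact (mul_eq_zero.mp h9).resolve_left (pow_ne_zero _ hp.ne_zero)
    have h10 : ψ (τ f) = ψ f := by
      have := (ZMod.val_eq_zero _).mp h8
      exact sub_eq_zero.mp this
    exact h5 (hb1.injOn hcon hfF₁ h10)
  have hτf₁ := hτ f₁ hf₁F
  have hτmem : τ f₁ ∈ ((F : Set (Lat d)) \ (F₁ : Set (Lat d))) :=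
    ⟨hτf₁.1, hcross f₁ hf₁F hf₁⟩
  have hηsame : η (x - τ f₁) = η (x - f₁) := by
    have e : x - τ f₁ = (x - f₁) - (τ f₁ - f₁) := by abel
    rw [e, map_sub, hη f₁ hf₁F, sub_zero]
  have hg₁eq : g₁ = τ f₁ := (hg₁u (τ f₁) ⟨hτmem, by rw [hηsame]; exact hf₁low⟩).symm
  have hξrel : ξ (x - τ f₁) = ξ (x - f₁) - (2 ^ a : ZMod (2 ^ (a + 1))) := by
    have e : x - τ f₁ = (x - f₁) - (τ f₁ - f₁) := by abel
    rw [e, map_sub, hξ f₁ hf₁F]
  -- exactly one of the two is low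
  haveI : Fact (Nat.Prime 2) := ⟨Nat.prime_two⟩
  obtain ⟨j, hj, huj⟩ := digit_unique 2 a (ξ (x - f₁))
  have hlowF : ∀ f ∈ F, low p b (η (x - f)) → f = f₁ ∨ f = τ f₁ := by
    intro f hf hl
    by_cases hfF₁ : f ∈ F₁
    · left; exact hf₁u f ⟨hfF₁, hl⟩
    · right
      rw [← hg₁eq]
      exact hg₁u f ⟨⟨hf, hfF₁⟩, hl⟩
  have hcases : (low 2 a (ξ (x - f₁)) ∧ ¬ low 2 a (ξ (x - τ f₁))) ∨
      (¬ low 2 a (ξ (x - f₁)) ∧ low 2 a (ξ (x - τ f₁))) := by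
    have h0 : (0 : ZMod 2).val = 0 := rfl
    have h1' : (1 : ZMod 2).val = 1 := rfl
    have hj2 : ∀ j' : ZMod 2, j' = 0 ∨ j' = 1 := zmod2_cases
    have hlow0 : low 2 a (ξ (x - f₁)) ↔ (0 : ZMod 2) = j := by
      constructor
      · intro hl
        apply huj
        simpa [h0] using hl
      · rintro rfl
        simpa [h0] using hj
    have hlow1 : low 2 a (ξ (x - τ f₁)) ↔ (1 : ZMod 2) = j := by
      rw [hξrel]
      constructor
      · intro hl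
        apply huj
        simpa [h1'] using hl
      · rintro rfl
        simpa [h1'] using hj
    rcases hj2 j with rfl | rfl
    · left
      refine ⟨hlow0.mpr rfl, fun hcon => ?_⟩
      exact absurd (hlow1.mp hcon) zmod2_one_ne
    · right
      refine ⟨fun hcon => ?_, hlow1.mpr rfl⟩
      exact absurd (hlow0.mp hcon) zmod2_zero_ne
  rcases hcases with ⟨h3, h4⟩ | ⟨h3, h4⟩
  · refine ⟨f₁, ⟨hf₁F, h3, hf₁low⟩, ?_⟩
    rintro f ⟨hf, hξl, hηl⟩
    rcases hlowF f hf hηl with rfl | rfl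
    · rfl
    · exact absurd hξl h4
  · refine ⟨τ f₁, ⟨hτf₁.1, h4, by rw [hηsame]; exact hf₁low⟩, ?_⟩
    rintro f ⟨hf, hξl, hηl⟩
    rcases hlowF f hf hηl with rfl | rfl
    · exact absurd hξl h3
    · rfl

end Vale.Agent.P043T
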