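import Mathlib

/-!
The Frobenius congruence for convolutions with a finite set.
-/

namespace Vale.Agent.P043T

open scoped BigOperators
open Finset

section
variable {G ι : Type*} [AddCommGroup G]

/-- Translation of functions with values in a field. -/
def shQ (q : ℕ) (v : G) : (G → ZMod q) →ₗ[ZMod q] (G → ZMod q) where
  toFun h := fun x => h (x - v)
  map_add' _ _ := rfl
  map_smul' _ _ := rfl

/-- The multiplicative family of translations. -/
def shQHom (q : ℕ) : Multiplicative G →* Module.End (ZMod q) (G → ZMod q) where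
  toFun v := shQ q (Multiplicative.toAdd v)
  map_one' := by
    ext h x
    simp [shQ]
  map_mul' a b := by
    ext h x
    simp only [shQ, toAdd_mul, Module.End.mul_apply, LinearMap.coe_mk, AddHom.coe_mk]
    congr 1
    abel

/-- The action of the group algebra. -/
noncomputable def rhoQ (q : ℕ) : AddMonoidAlgebra (ZMod q) G →ₐ[ZMod q] Module.End (ZMod q) (G → ZMod q) :=
  AddMonoidAlgebra.lift (ZMod q) (Module.End (ZMod q) (G → ZMod q)) G (shQHom q)

lemma rhoQ_single (q : ℕ) (v : G) (h : G → ZMod q) (x : G) :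
    rhoQ q (AddMonoidAlgebra.single v 1 : AddMonoidAlgebra (ZMod q) G) h x = h (x - v) := by
  rw [rhoQ, AddMonoidAlgebra.lift_single]
  simp [shQHom, shQ]

theorem frobenius_sum (s : Finset ι) (v : ι → G) (a : G → ℤ) (c : ℤ)
    (h : ∀ x, ∑ i ∈ s, a (x - v i) = c) (q : ℕ) [Fact q.Prime] (k : ℕ) (x : G) :
    (∑ i ∈ s, a (x - q ^ k • v i)) ≡ c * (s.card : ℤ) ^ (q ^ k - 1) [ZMOD q] := by
  classical
  have hq : q.Prime := Fact.out
  set R := AddMonoidAlgebra (ZMod q) G with hR
  have : CharP R q := charP_of_injective_algebraMap (algebraMap (ZMod q) R).injective q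
  set P : R := ∑ i ∈ s, AddMonoidAlgebra.single (v i) 1 with hP
  set ab : G → ZMod q := fun y => (a y : ZMod q) with hab
  have hpow : P ^ (q ^ k) = ∑ i ∈ s, AddMonoidAlgebra.single (q ^ k • v i) 1 := by
    rw [hP, sum_pow_char_pow]
    refine Finset.sum_congr rfl fun i _ => ?_
    rw [AddMonoidAlgebra.single_pow, one_pow]
  have hact : ∀ (b : G → ZMod q) (y : G), rhoQ q P b y = ∑ i ∈ s, b (y - v i) := by
    intro b y
    rw [hP, map_sum, LinearMap.sum_apply, Finset.sum_apply]
    exact Finset.sum_congr rfl fun i _ => rhoQ_single q (v i) b y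
  have hconst : ∀ (z : ZMod q), rhoQ q P (fun _ => z) = fun _ => (s.card : ZMod q) * z := by
    intro z
    funext y
    rw [hact]
    simp
  have h1 : rhoQ q P ab = fun _ => (c : ZMod q) := by
    funext y
    rw [hact, hab]
    simp only
    rw [← h y]
    push_cast
    rfl
  have hiter : ∀ m : ℕ, rhoQ q (P ^ (m + 1)) ab = fun _ => (s.card : ZMod q) ^ m * (c : ZMod q) := by
    intro m
    induction m with
    | zero => simpa using h1
    | succ m ih =>
      rw [pow_succ', map_mul, Module.End.mul_apply, ih, hconst]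
      funext y
      ring
  have hm : q ^ k = (q ^ k - 1) + 1 := (Nat.sub_add_cancel (Nat.pos_of_ne_zero (pow_ne_zero _ hq.ne_zero))).symm
  have h2 : rhoQ q (P ^ (q ^ k)) ab x = (s.card : ZMod q) ^ (q ^ k - 1) * (c : ZMod q) := by
    have := hiter (q ^ k - 1)
    rw [← hm] at this
    rw [this]
  have h3 : rhoQ q (P ^ (q ^ k)) ab x = ∑ i ∈ s, ab (x - q ^ k • v i) := by
    rw [hpow, map_sum, LinearMap.sum_apply, Finset.sum_apply]
    exact Finset.sum_congr rfl fun i _ => rhoQ_single q _ ab x
  rw [← ZMod.intCast_eq_intCast_iff]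
  push_cast
  rw [← h3] at *
  rw [h2]
  ring

end

end Vale.Agent.P043T
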