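import Vale.Agent.P043T.Defs
import Vale.Agent.P043T.Frobenius

/-!
Passing to a limit of translates of a tiling, one gets a tiling which also tiles with
finitely many dilates of the tile, the dilation factors being coprime to the size of the tile.
-/

namespace Vale.Agent.P043T

open scoped BigOperators
open Finset Filter

variable {d : ℕ}

lemma ind_nonneg {G : Type*} (A : Set G) (x : G) : 0 ≤ ind A x := by
  classical
  unfold ind; split_ifs <;> norm_num

lemma ind_le_one {G : Type*} (A : Set G) (x : G) : ind A x ≤ 1 := by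
  classical
  unfold ind; split_ifs <;> norm_num

/-- Boxes. -/
noncomputable def box (d N : ℕ) : Finset (Lat d) := Fintype.piFinset fun _ => Finset.Icc (-(N : ℤ)) N

lemma mem_box {N : ℕ} {x : Lat d} : x ∈ box d N ↔ ∀ i, |x i| ≤ N := by
  simp [box, Fintype.mem_piFinset, abs_le]

lemma card_box (N : ℕ) : (box d N).card = (2 * N + 1) ^ d := by
  simp only [box, Fintype.card_piFinset, Finset.prod_const, Finset.card_univ, Fintype.card_fin,
    Int.card_Icc]
  congr 1
  omega

/-- Sum over a translated box. -/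
lemma sum_translate_le (a : Lat d → ℤ) (ha : ∀ x, 0 ≤ a x) (w : Lat d) (D : ℕ)
    (hw : ∀ i, |w i| ≤ D) (N : ℕ) :
    ∑ y ∈ box d N, a (y - w) ≤ ∑ y ∈ box d (N + D), a y := by
  classical
  have h1 : ∑ y ∈ box d N, a (y - w) = ∑ y ∈ (box d N).image (fun y => y - w), a y := by
    rw [Finset.sum_image]
    intro x _ y _ h
    simpa using h
  rw [h1]
  apply Finset.sum_le_sum_of_subset_of_nonneg
  · intro z hz
    rw [Finset.mem_image] at hz
    obtain ⟨y, hy, rfl⟩ := hz
    rw [mem_box] at hy ⊢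
    intro i
    have h2 := hy i
    have h3 := hw i
    simp only [Pi.sub_apply]
    push_cast
    calc |y i - w i| ≤ |y i| + |w i| := abs_sub _ _
      _ ≤ _ := add_le_add h2 h3
  · intro i _ _
    exact ha i

lemma sum_translate_ge (a : Lat d → ℤ) (ha : ∀ x, 0 ≤ a x) (w : Lat d) (D : ℕ)
    (hw : ∀ i, |w i| ≤ D) (N : ℕ) :
    ∑ y ∈ box d N, a y ≤ ∑ y ∈ box d (N + D), a (y - w) := by
  classical
  have h1 : ∑ y ∈ box d N, a y = ∑ y ∈ (box d N).image (fun y => y + w), a (y - w) := by
    rw [Finset.sum_image]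
    · refine Finset.sum_congr rfl fun y _ => ?_
      simp
    · intro x _ y _ h
      simpa using h
  rw [h1]
  apply Finset.sum_le_sum_of_subset_of_nonneg
  · intro z hz
    rw [Finset.mem_image] at hz
    obtain ⟨y, hy, rfl⟩ := hz
    rw [mem_box] at hy ⊢
    intro i
    have h2 := hy i
    have h3 := hw i
    simp only [Pi.add_apply]
    push_cast
    exact (abs_add_le _ _).trans (add_le_add h2 h3)
  · intro i _ _
    exact ha _

lemma pow_gap (d u k : ℕ) : (u + k) ^ d ≤ u ^ d + k * d * (u + k) ^ (d - 1) := by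
  induction d with
  | zero => simp
  | succ d ih =>
    have h1 : u ^ d ≤ (u + k) ^ d := Nat.pow_le_pow_left (Nat.le_add_right _ _) _
    have h2 : (u + k) * (u + k) ^ (d - 1) = (u + k) ^ d ∨ d = 0 := by
      rcases Nat.eq_zero_or_pos d with h | h
      · right; exact h
      · left
        rw [← pow_succ']
        congr 1
        omega
    have h3 : (u + k) * (k * d * (u + k) ^ (d - 1)) ≤ k * d * (u + k) ^ d := by
      rcases h2 with h2 | h2
      · calc (u + k) * (k * d * (u + k) ^ (d - 1)) = k * d * ((u + k) * (u + k) ^ (d - 1)) := by ring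
          _ ≤ _ := by rw [h2]
      · simp [h2]
    simp only [Nat.add_sub_cancel]
    calc (u + k) ^ (d + 1) = (u + k) * (u + k) ^ d := pow_succ' _ _
      _ ≤ (u + k) * (u ^ d + k * d * (u + k) ^ (d - 1)) := Nat.mul_le_mul_left _ ih
      _ = u * u ^ d + k * u ^ d + (u + k) * (k * d * (u + k) ^ (d - 1)) := by ring
      _ ≤ u ^ (d + 1) + k * (u + k) ^ d + k * d * (u + k) ^ d := by
          rw [pow_succ' u d]
          exact Nat.add_le_add (Nat.add_le_add_left (Nat.mul_le_mul_left _ h1) _) h3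
      _ = u ^ (d + 1) + k * (d + 1) * (u + k) ^ d := by ring

/-- Polynomial growth: there is a radius where the relative increase of the box is small. -/
lemma exists_radius (d c R E : ℕ) :
    ∃ N : ℕ, c * (2 * (N + R + E) + 1) ^ d < (2 * N + 1) ^ d + c * (2 * (N + R) + 1) ^ d := by
  set k := 2 * E with hk
  refine ⟨R + E + c * k * d * 2 ^ d, ?_⟩
  set N := R + E + c * k * d * 2 ^ d with hN
  set u := 2 * (N + R) + 1 with hu
  have h1 : 2 * (N + R + E) + 1 = u + k := by rw [hu, hk]; ring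
  rw [h1]
  have h2 := pow_gap d u k
  have h3 : u + k ≤ 2 * (2 * N + 1) := by
    rw [hu, hk]
    have : R + E ≤ N := by rw [hN]; omega
    omega
  rcases Nat.eq_zero_or_pos d with h0 | h0
  · subst h0
    simp
  · have h4 : (u + k) ^ (d - 1) ≤ 2 ^ (d - 1) * (2 * N + 1) ^ (d - 1) := by
      rw [← mul_pow]
      exact Nat.pow_le_pow_left h3 _
    have h5 : (2 * N + 1) ^ d = (2 * N + 1) * (2 * N + 1) ^ (d - 1) := by
      rw [← pow_succ']
      congr 1
      omega
    have h6 : 2 ^ (d - 1) ≤ 2 ^ d := Nat.pow_le_pow_right (by norm_num) (by omega)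
    have hpos : 0 < (2 * N + 1) ^ (d - 1) := by positivity
    have h7 : c * k * d * 2 ^ (d - 1) < 2 * N + 1 := by
      have : c * k * d * 2 ^ (d - 1) ≤ c * k * d * 2 ^ d := Nat.mul_le_mul_left _ h6
      rw [hN]
      omega
    calc c * (u + k) ^ d ≤ c * (u ^ d + k * d * (u + k) ^ (d - 1)) := Nat.mul_le_mul_left _ h2
      _ = c * k * d * (u + k) ^ (d - 1) + c * u ^ d := by ring
      _ ≤ c * k * d * (2 ^ (d - 1) * (2 * N + 1) ^ (d - 1)) + c * u ^ d :=
          Nat.add_le_add_right (Nat.mul_le_mul_left _ h4) _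
      _ = (c * k * d * 2 ^ (d - 1)) * (2 * N + 1) ^ (d - 1) + c * u ^ d := by ring
      _ < (2 * N + 1) * (2 * N + 1) ^ (d - 1) + c * u ^ d := by
          apply Nat.add_lt_add_right
          exact Nat.mul_lt_mul_of_pos_right h7 hpos
      _ = _ := by rw [h5]

lemma exists_bound (W : Finset (Lat d)) : ∃ D : ℕ, ∀ w ∈ W, ∀ i, |w i| ≤ (D : ℤ) := by
  refine ⟨∑ w ∈ W, ∑ i, (w i).natAbs, fun w hw i => ?_⟩
  have h1 : (w i).natAbs ≤ ∑ i, (w i).natAbs :=
    Finset.single_le_sum (f := fun i => (w i).natAbs) (fun _ _ => Nat.zero_le _) (Finset.mem_univ i)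
  have h2 : ∑ i, (w i).natAbs ≤ ∑ w ∈ W, ∑ i, (w i).natAbs :=
    Finset.single_le_sum (f := fun w : Lat d => ∑ i, (w i).natAbs) (fun _ _ => Nat.zero_le _) hw
  have h3 : |w i| = ((w i).natAbs : ℤ) := (Int.natCast_natAbs _).symm
  rw [h3]
  exact_mod_cast h1.trans h2

lemma dil_modEq (F : Finset (Lat d)) (A : Set (Lat d)) (g q : ℕ) [Fact q.Prime]
    (hq : ¬ q ∣ F.card) (hA : DilTile A F g) (x : Lat d) :
    (∑ f ∈ F, ind A (x - (q * g) • f)) ≡ 1 [ZMOD q] := by
  have hq' : q.Prime := Fact.out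
  have h1 := frobenius_sum F (fun f => g • f) (ind A) 1 hA q 1 x
  have h2 : ((F.card : ℤ)) ^ (q - 1) ≡ 1 [ZMOD q] := by
    apply Int.ModEq.pow_card_sub_one_eq_one hq'
    rw [isCoprime_comm, Prime.coprime_iff_not_dvd (Nat.prime_iff_prime_int.mp hq')]
    exact_mod_cast hq
  simp only [pow_one, one_mul] at h1
  have h3 : ∀ f ∈ F, ind A (x - q • g • f) = ind A (x - (q * g) • f) := by
    intro f _
    rw [mul_smul]
  rw [Finset.sum_congr rfl h3] at h1
  exact h1.trans h2

lemma dil_ge (F : Finset (Lat d)) (A : Set (Lat d)) (g q : ℕ) [Fact q.Prime]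
    (hq : ¬ q ∣ F.card) (hA : DilTile A F g) (x : Lat d) :
    1 ≤ ∑ f ∈ F, ind A (x - (q * g) • f) := by
  have hq' : q.Prime := Fact.out
  have h0 : 0 ≤ ∑ f ∈ F, ind A (x - (q * g) • f) :=
    Finset.sum_nonneg fun _ _ => ind_nonneg _ _
  have h1 := dil_modEq F A g q hq hA x
  by_contra hlt
  have h2 : ∑ f ∈ F, ind A (x - (q * g) • f) = 0 := by omega
  rw [h2] at h1
  have h3 : (q : ℤ) ∣ 1 - 0 := Int.ModEq.dvd h1
  have h4 : (q : ℤ) ∣ 1 := by simpa using h3
  have h5 : q ∣ 1 := by exact_mod_cast h4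
  exact hq'.one_lt.ne' (Nat.dvd_one.mp h5)

lemma count_bound (F : Finset (Lat d)) (A : Set (Lat d)) (g q : ℕ) [Fact q.Prime]
    (hq : ¬ q ∣ F.card) (hA : DilTile A F g) (D : ℕ)
    (hD1 : ∀ f ∈ F, ∀ i, |(g • f) i| ≤ (D : ℤ))
    (hD2 : ∀ f ∈ F, ∀ i, |((q * g) • f) i| ≤ (D : ℤ)) (M : ℕ) :
    ((box d M).filter (fun x => ∑ f ∈ F, ind A (x - (q * g) • f) ≠ 1)).card + (box d M).card
      ≤ (box d (M + 2 * D)).card := by
  classical
  set T : ℕ → ℤ := fun N => ∑ y ∈ box d N, ind A y with hT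
  have ha : ∀ N, (F.card : ℤ) * T N ≤ (box d (N + D)).card := by
    intro N
    have h1 : ∑ x ∈ box d (N + D), ∑ f ∈ F, ind A (x - g • f) = (box d (N + D)).card := by
      rw [Finset.sum_congr rfl (fun x _ => hA x)]
      simp
    rw [← h1, Finset.sum_comm, ← nsmul_eq_mul, ← Finset.sum_const]
    exact Finset.sum_le_sum fun f hf => sum_translate_ge (ind A) (ind_nonneg A) _ D (hD1 f hf) N
  have hb : ∑ x ∈ box d M, ∑ f ∈ F, ind A (x - (q * g) • f) ≤ (box d (M + 2 * D)).card := by
    have h1 : ∑ x ∈ box d M, ∑ f ∈ F, ind A (x - (q * g) • f) ≤ (F.card : ℤ) * T (M + D) := by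
      rw [Finset.sum_comm, ← nsmul_eq_mul, ← Finset.sum_const]
      exact Finset.sum_le_sum fun f hf => sum_translate_le (ind A) (ind_nonneg A) _ D (hD2 f hf) M
    have h2 := ha (M + D)
    have h3 : M + D + D = M + 2 * D := by ring
    rw [h3] at h2
    exact h1.trans h2
  have hc : ((((box d M).filter (fun x => ∑ f ∈ F, ind A (x - (q * g) • f) ≠ 1)).card : ℤ)
      + (box d M).card) ≤ ∑ x ∈ box d M, ∑ f ∈ F, ind A (x - (q * g) • f) := by
    have h1 : (((box d M).filter (fun x => ∑ f ∈ F, ind A (x - (q * g) • f) ≠ 1)).card : ℤ)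
        = ∑ x ∈ box d M, if ∑ f ∈ F, ind A (x - (q * g) • f) ≠ 1 then (1 : ℤ) else 0 := by
      rw [Finset.card_filter]
      push_cast
      rfl
    have h2 : ((box d M).card : ℤ) = ∑ _x ∈ box d M, (1 : ℤ) := by simp
    rw [h1, h2, ← Finset.sum_add_distrib]
    refine Finset.sum_le_sum fun x _ => ?_
    have h3 := dil_ge F A g q hq hA x
    split_ifs with h4
    · have h5 := h3
      omega
    · omega
  have := hc.trans hb
  exact_mod_cast this

lemma exists_window (F : Finset (Lat d)) (A : Set (Lat d)) (K : Finset ℕ) (q : ℕ) [Fact q.Prime]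
    (hq : ¬ q ∣ F.card) (hA : ∀ g ∈ K, DilTile A F g) (R : ℕ) :
    ∃ t : Lat d, ∀ w ∈ box d R, ∀ g ∈ K, ∑ f ∈ F, ind A (t + w - (q * g) • f) = 1 := by
  classical
  obtain ⟨D, hD⟩ := exists_bound (d := d)
    (((K ×ˢ F).image fun p => p.1 • p.2) ∪ ((K ×ˢ F).image fun p => (q * p.1) • p.2))
  have hD1 : ∀ g ∈ K, ∀ f ∈ F, ∀ i, |(g • f) i| ≤ (D : ℤ) := by
    intro g hg f hf i
    apply hD
    rw [Finset.mem_union]
    left
    exact Finset.mem_image.mpr ⟨(g, f), Finset.mem_product.mpr ⟨hg, hf⟩, rfl⟩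
  have hD2 : ∀ g ∈ K, ∀ f ∈ F, ∀ i, |((q * g) • f) i| ≤ (D : ℤ) := by
    intro g hg f hf i
    apply hD
    rw [Finset.mem_union]
    right
    exact Finset.mem_image.mpr ⟨(g, f), Finset.mem_product.mpr ⟨hg, hf⟩, rfl⟩
  by_contra hcon
  push_neg at hcon
  obtain ⟨N, hN⟩ := exists_radius d ((box d R).card * K.card) R (2 * D)
  set V := (box d (N + R)).card with hV
  set U := (box d (N + R + 2 * D)).card with hU
  have hcount : ∀ g ∈ K, ((box d (N + R)).filter
      (fun x => ∑ f ∈ F, ind A (x - (q * g) • f) ≠ 1)).card ≤ U - V := by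
    intro g hg
    have := count_bound F A g q hq (hA g hg) D (hD1 g hg) (hD2 g hg) (N + R)
    omega
  have hsub : box d N ⊆ (box d R).biUnion fun w => K.biUnion fun g =>
      ((box d (N + R)).filter (fun x => ∑ f ∈ F, ind A (x - (q * g) • f) ≠ 1)).image
        (fun y => y - w) := by
    intro t ht
    obtain ⟨w, hw, g, hg, h1⟩ := hcon t
    rw [Finset.mem_biUnion]
    refine ⟨w, hw, ?_⟩
    rw [Finset.mem_biUnion]
    refine ⟨g, hg, ?_⟩
    rw [Finset.mem_image]
    refine ⟨t + w, ?_, by simp⟩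
    rw [Finset.mem_filter]
    refine ⟨?_, h1⟩
    rw [mem_box] at ht hw ⊢
    intro i
    have h2 := ht i
    have h3 := hw i
    simp only [Pi.add_apply]
    push_cast
    exact (abs_add_le _ _).trans (add_le_add h2 h3)
  have hcard : (box d N).card ≤ (box d R).card * K.card * (U - V) := by
    refine (Finset.card_le_card hsub).trans ?_
    rw [mul_assoc]
    refine Finset.card_biUnion_le_card_mul _ _ _ fun w _ => ?_
    refine Finset.card_biUnion_le_card_mul _ _ _ fun g hg => ?_
    exact Finset.card_image_le.trans (hcount g hg)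
  rw [card_box] at hcard
  have hVU : V ≤ U := by
    rw [hV, hU, card_box, card_box]
    exact Nat.pow_le_pow_left (by omega) _
  rw [← card_box, ← card_box, ← card_box, ← hV, ← hU, card_box] at hN
  rw [← card_box] at hN
  set c := (box d R).card * K.card with hc
  have h4 : c * U = c * (U - V) + c * V := by
    rw [← mul_add]
    congr 1
    omega
  rw [card_box] at hN
  rw [h4] at hN
  omega

lemma exists_limit (F : Finset (Lat d)) (A : Set (Lat d)) (t : ℕ → Lat d) (K : Finset ℕ)
    (hw : ∀ R, ∀ w ∈ box d R, ∀ k ∈ K, ∑ f ∈ F, ind A (t R + w - k • f) = 1) :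
    ∃ A' : Set (Lat d), ∀ k ∈ K, DilTile A' F k := by
  classical
  set U : Ultrafilter ℕ := hyperfilter ℕ with hU
  set A' : Set (Lat d) := {x | ∀ᶠ R in (U : Filter ℕ), x + t R ∈ A} with hA'
  have key : ∀ y, ∀ᶠ R in (U : Filter ℕ), ind A' y = ind A (y + t R) := by
    intro y
    by_cases hy : y ∈ A'
    · have hy' : ∀ᶠ R in (U : Filter ℕ), y + t R ∈ A := hy
      filter_upwards [hy'] with R hR
      simp [ind, hy, hR]
    · have hy' : ∀ᶠ R in (U : Filter ℕ), ¬ y + t R ∈ A := Ultrafilter.eventually_not.mpr hy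
      filter_upwards [hy'] with R hR
      simp [ind, hy, hR]
  refine ⟨A', fun k hk x => ?_⟩
  have h1 : ∀ᶠ R in (U : Filter ℕ), ∀ f ∈ F, ind A' (x - k • f) = ind A (x - k • f + t R) :=
    (Filter.eventually_all_finset F).mpr fun f _ => key _
  obtain ⟨M, hM⟩ := exists_bound (d := d) {x}
  have h2 : ∀ᶠ R in (U : Filter ℕ), M ≤ R :=
    (Nat.hyperfilter_le_atTop) (Filter.eventually_ge_atTop M)
  obtain ⟨R, hR1, hR2⟩ := (h1.and h2).exists
  have hx : x ∈ box d R := by
    rw [mem_box]
    intro i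
    have h3 := hM x (Finset.mem_singleton_self _) i
    have h4 : (M : ℤ) ≤ R := by exact_mod_cast hR2
    exact h3.trans h4
  have h5 := hw R x hx k hk
  rw [← h5]
  refine Finset.sum_congr rfl fun f hf => ?_
  rw [hR1 f hf]
  congr 1
  abel

/-- One prime step. -/
lemma exists_step (F : Finset (Lat d)) (K : Finset ℕ) (q : ℕ) [Fact q.Prime]
    (hq : ¬ q ∣ F.card) (A : Set (Lat d)) (hA : ∀ g ∈ K, DilTile A F g) :
    ∃ A' : Set (Lat d), (∀ g ∈ K, DilTile A' F g) ∧ ∀ g ∈ K, DilTile A' F (q * g) := by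
  classical
  have hwin := exists_window F A K q hq hA
  choose t ht using hwin
  obtain ⟨A', hA'⟩ := exists_limit F A t (K ∪ K.image (fun g => q * g)) (by
    intro R w hw k hk
    rw [Finset.mem_union, Finset.mem_image] at hk
    rcases hk with hk | ⟨g, hg, rfl⟩
    · exact hA k hk _
    · exact ht R w hw g hg)
  refine ⟨A', fun g hg => hA' g (Finset.mem_union_left _ hg), fun g hg => hA' _ ?_⟩
  exact Finset.mem_union_right _ (Finset.mem_image.mpr ⟨g, hg, rfl⟩)

/-- Any dilation factor coprime to the size of the tile. -/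
lemma exists_mult (F : Finset (Lat d)) (r : ℕ) (hr : 0 < r) (hco : Nat.Coprime r F.card) :
    ∀ (K : Finset ℕ) (A : Set (Lat d)), (∀ g ∈ K, DilTile A F g) →
    ∃ A' : Set (Lat d), (∀ g ∈ K, DilTile A' F g) ∧ ∀ g ∈ K, DilTile A' F (r * g) := by
  classical
  induction r using Nat.strong_induction_on with
  | _ r ih =>
    intro K A hA
    rcases eq_or_ne r 1 with rfl | hr1
    · exact ⟨A, hA, by simpa using hA⟩
    · have hq : r.minFac.Prime := Nat.minFac_prime hr1
      haveI : Fact r.minFac.Prime := ⟨hq⟩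
      obtain ⟨r', hr'⟩ := Nat.minFac_dvd r
      have hr'pos : 0 < r' := by
        rcases Nat.eq_zero_or_pos r' with h | h
        · rw [h] at hr'; omega
        · exact h
      have hlt : r' < r := by
        rw [hr']
        conv_lhs => rw [← one_mul r']
        exact Nat.mul_lt_mul_of_pos_right hq.one_lt hr'pos
      have hco' : Nat.Coprime r' F.card := Nat.Coprime.coprime_dvd_left ⟨r.minFac, by
        rw [mul_comm]; exact hr'⟩ hco
      have hqn : ¬ r.minFac ∣ F.card := by
        intro h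
        have := Nat.Coprime.coprime_dvd_left (Nat.minFac_dvd r) hco
        have h2 := Nat.eq_one_of_dvd_coprimes this (dvd_refl _) h
        exact hq.one_lt.ne' h2
      obtain ⟨A₁, hA₁, hA₁'⟩ := ih r' hlt hr'pos hco' K A hA
      obtain ⟨A₂, hA₂, hA₂'⟩ := exists_step F (K ∪ K.image (fun g => r' * g)) r.minFac hqn A₁ (by
        intro g hg
        rw [Finset.mem_union, Finset.mem_image] at hg
        rcases hg with hg | ⟨g', hg', rfl⟩
        · exact hA₁ g hg
        · exact hA₁' g' hg')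
      refine ⟨A₂, fun g hg => hA₂ g (Finset.mem_union_left _ hg), fun g hg => ?_⟩
      have h := hA₂' (r' * g) (Finset.mem_union_right _ (Finset.mem_image.mpr ⟨g, hg, rfl⟩))
      have h2 : r * g = r.minFac * (r' * g) := by
        rw [← mul_assoc, ← hr']
      rw [h2]
      exact h

/-- Main result of this file: a tiling can be replaced with one that also tiles under
finitely many dilations coprime to the size of the tile. -/
theorem exists_dilTile (F : Finset (Lat d)) (A : Set (Lat d)) (hA : DilTile A F 1)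
    (R : Finset ℕ) (hR : ∀ r ∈ R, 0 < r ∧ Nat.Coprime r F.card) :
    ∃ A' : Set (Lat d), DilTile A' F 1 ∧ ∀ r ∈ R, DilTile A' F r := by
  classical
  induction R using Finset.induction_on with
  | empty => exact ⟨A, hA, by simp⟩
  | insert r R hr ih =>
    obtain ⟨A₁, h1, h2⟩ := ih (fun s hs => hR s (Finset.mem_insert_of_mem hs))
    obtain ⟨hrpos, hrco⟩ := hR r (Finset.mem_insert_self _ _)
    obtain ⟨A₂, h3, h4⟩ := exists_mult F r hrpos hrco (insert 1 R) A₁ (by
      intro g hg
      rw [Finset.mem_insert] at hg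
      rcases hg with rfl | hg
      · exact h1
      · exact h2 g hg)
    refine ⟨A₂, h3 1 (Finset.mem_insert_self _ _), fun s hs => ?_⟩
    rw [Finset.mem_insert] at hs
    rcases hs with rfl | hs
    · have := h4 1 (Finset.mem_insert_self _ _)
      simpa using this
    · exact h3 s (Finset.mem_insert_of_mem hs)

end Vale.Agent.P043T
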