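import Vale.Agent.P043T.Leaf

/-!
Decomposition of a leaf into joint eigenvectors of the finite order translations.
-/

namespace Vale.Agent.P043T

open scoped BigOperators
open Finset

variable {G : Type*} [AddCommGroup G]

/-- Scalars in the group algebra. -/
noncomputable def cc (z : ℂ) : GA G := AddMonoidAlgebra.single 0 z

lemma cc_mul (z w : ℂ) : (cc z * cc w : GA G) = cc (z * w) := by
  simp [cc, AddMonoidAlgebra.single_mul_single]

lemma cc_add (z w : ℂ) : (cc (z + w) : GA G) = cc z + cc w := by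
  simp [cc, AddMonoidAlgebra.single_add]

lemma cc_one : (cc 1 : GA G) = 1 := rfl

lemma cc_zero : (cc 0 : GA G) = 0 := by simp [cc]

lemma cc_sum {ι : Type*} (s : Finset ι) (z : ι → ℂ) : (cc (∑ i ∈ s, z i) : GA G) = ∑ i ∈ s, cc (z i) := by
  classical
  induction s using Finset.induction_on with
  | empty => simp [cc_zero]
  | insert a s ha ih => rw [Finset.sum_insert ha, Finset.sum_insert ha, cc_add, ih]

variable {M : Type*} [AddCommGroup M] [Module (GA G) M]

/-- The eigenprojector. -/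
noncomputable def Yp (N : ℕ) (ζ : ℂ) (v : G) (j : ℕ) : GA G :=
  cc (N : ℂ)⁻¹ * ∑ l ∈ range N, (cc (((ζ ^ j)⁻¹) ^ l) * tau (l • v))

lemma geom_zero {x : ℂ} {N : ℕ} (hx : x ^ N = 1) (hx1 : x ≠ 1) : ∑ j ∈ range N, x ^ j = 0 := by
  have h := mul_neg_geom_sum x N
  rw [hx, sub_self] at h
  exact (mul_eq_zero.mp h).resolve_left (sub_ne_zero.mpr (Ne.symm hx1))

lemma Yp_sum {N : ℕ} (hN : 0 < N) {ζ : ℂ} (hζ : IsPrimitiveRoot ζ N) (v : G) :
    ∑ j ∈ range N, Yp N ζ v j = 1 := by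
  unfold Yp
  rw [← Finset.mul_sum]
  have h1 : ∑ j ∈ range N, ∑ l ∈ range N, (cc (((ζ ^ j)⁻¹) ^ l) * tau (l • v))
      = ∑ l ∈ range N, (cc (∑ j ∈ range N, ((ζ ^ j)⁻¹) ^ l) * tau (l • v)) := by
    rw [Finset.sum_comm]
    refine Finset.sum_congr rfl fun l _ => ?_
    rw [cc_sum, Finset.sum_mul]
  rw [h1]
  have h2 : ∀ l ∈ range N, (cc (∑ j ∈ range N, ((ζ ^ j)⁻¹) ^ l) * tau (l • v) : GA G)
      = if l = 0 then cc (N : ℂ) else 0 := by
    intro l hl
    split_ifs with h0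
    · subst h0
      simp [tau_zero]
    · have hx : ∀ j, ((ζ ^ j)⁻¹) ^ l = (((ζ ^ l)⁻¹)) ^ j := by
        intro j
        rw [inv_pow, inv_pow, ← pow_mul, ← pow_mul, mul_comm]
      have h3 : ∑ j ∈ range N, ((ζ ^ j)⁻¹) ^ l = 0 := by
        simp_rw [hx]
        apply geom_zero
        · rw [inv_pow, ← pow_mul, mul_comm, pow_mul, hζ.pow_eq_one, one_pow, inv_one]
        · intro hh
          have : ζ ^ l = 1 := by simpa using congrArg (·⁻¹) hh
          have hd := hζ.dvd_of_pow_eq_one _ this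
          have := Nat.le_of_dvd (Nat.pos_of_ne_zero h0) hd
          have := Finset.mem_range.mp hl
          omega
      rw [h3, cc_zero, zero_mul]
  rw [Finset.sum_congr rfl h2, Finset.sum_ite_eq' (range N) 0, if_pos (Finset.mem_range.mpr hN),
    cc_mul, inv_mul_cancel₀ (by exact_mod_cast hN.ne'), cc_one]

lemma Yp_eigen {N : ℕ} {ζ : ℂ} (hζ : IsPrimitiveRoot ζ N) (hN : 0 < N) (v : G) (j : ℕ)
    {k : M} (hk : tau (N • v) • k = k) :
    tau v • (Yp N ζ v j • k) = (cc (ζ ^ j) : GA G) • (Yp N ζ v j • k) := by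
  have hz : ζ ^ j ≠ 0 := pow_ne_zero _ (hζ.ne_zero hN.ne')
  set c := (ζ ^ j)⁻¹ with hc
  have hcN : c ^ N = 1 := by
    rw [hc, inv_pow, ← pow_mul, mul_comm, pow_mul, hζ.pow_eq_one, one_pow, inv_one]
  have hzc : ζ ^ j * c = 1 := by rw [hc]; exact mul_inv_cancel₀ hz
  let A : ℕ → GA G := fun l => cc (ζ ^ j * c ^ l) * tau (l • v)
  have h1 : tau v * ∑ l ∈ range N, (cc (c ^ l) * tau (l • v)) = ∑ l ∈ range N, A (l + 1) := by
    rw [Finset.mul_sum]
    refine Finset.sum_congr rfl fun l _ => ?_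
    simp only [A]
    have : ζ ^ j * c ^ (l + 1) = c ^ l := by rw [pow_succ, mul_comm (c ^ l), ← mul_assoc, hzc, one_mul]
    rw [this, succ_nsmul, tau_add]
    ring
  have h2 : (cc (ζ ^ j) : GA G) * ∑ l ∈ range N, (cc (c ^ l) * tau (l • v)) = ∑ l ∈ range N, A l := by
    rw [Finset.mul_sum]
    refine Finset.sum_congr rfl fun l _ => ?_
    simp only [A]
    rw [← mul_assoc, cc_mul]
  have h3 : A N • k = A 0 • k := by
    simp only [A]
    rw [mul_smul, hk, hcN]
    simp [tau_zero]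
  have h4 : (∑ l ∈ range N, A (l + 1)) • k = (∑ l ∈ range N, A l) • k := by
    have e1 := Finset.sum_range_succ (fun l => A l) N
    have e2 := Finset.sum_range_succ' (fun l => A l) N
    have e3 : (∑ l ∈ range N, A (l + 1)) + A 0 = (∑ l ∈ range N, A l) + A N := by
      rw [← e1, e2]
    have e4 := congrArg (fun x : GA G => x • k) e3
    simp only [add_smul] at e4
    rw [h3] at e4
    exact add_right_cancel e4
  unfold Yp
  calc tau v • ((cc (N : ℂ)⁻¹ * ∑ l ∈ range N, (cc (c ^ l) * tau (l • v))) • k)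
      = cc (N : ℂ)⁻¹ • ((tau v * ∑ l ∈ range N, (cc (c ^ l) * tau (l • v))) • k) := by
        rw [← mul_smul, ← mul_smul, mul_left_comm]
    _ = cc (N : ℂ)⁻¹ • (((cc (ζ ^ j) : GA G) * ∑ l ∈ range N, (cc (c ^ l) * tau (l • v))) • k) := by
        rw [h1, h2, h4]
    _ = (cc (ζ ^ j) : GA G) • ((cc (N : ℂ)⁻¹ * ∑ l ∈ range N, (cc (c ^ l) * tau (l • v))) • k) := by
        rw [← mul_smul, ← mul_smul, mul_left_comm]

/-- Joint eigenvector statement for a list of finite order translations. -/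
lemma eigen_list {N : ℕ} (hN : 0 < N) {ζ : ℂ} (hζ : IsPrimitiveRoot ζ N) (k : M)
    (l : List G) (hl : ∀ v ∈ l, tau (N • v) • k = k) :
    k ∈ AddSubmonoid.closure {g : M | ∃ W : GA G, g = W • k ∧
      ∀ v ∈ l, ∃ j : ℕ, tau v • g = (cc (ζ ^ j) : GA G) • g} := by
  induction l with
  | nil =>
    apply AddSubmonoid.subset_closure
    exact ⟨1, by simp, by simp⟩
  | cons v l ih =>
    have ih' := ih (fun w hw => hl w (List.mem_cons_of_mem _ hw))
    refine (AddSubmonoid.closure_le.mpr ?_) ih'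
    rintro g ⟨W, rfl, hW⟩
    have hsum : W • k = ∑ j ∈ range N, Yp N ζ v j • (W • k) := by
      rw [← Finset.sum_smul, Yp_sum hN hζ, one_smul]
    show W • k ∈ AddSubmonoid.closure _
    rw [hsum]
    refine sum_mem fun j _ => AddSubmonoid.subset_closure ?_
    refine ⟨Yp N ζ v j * W, mul_smul _ _ _ |>.symm, ?_⟩
    intro w hw
    rcases List.mem_cons.mp hw with rfl | hw'
    · refine ⟨j, Yp_eigen hζ hN _ j ?_⟩
      rw [smul_comm, hl _ List.mem_cons_self]
    · obtain ⟨i, hi⟩ := hW w hw'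
      refine ⟨i, ?_⟩
      rw [smul_comm, hi, smul_comm]

open Classical in
/-- A joint eigenvector in a leaf. -/
def EigenLeaf (F : Finset G) (ζ : ℂ) (g : M) : Prop :=
  ∃ s : Setoid G, (∀ f ∈ F, ∀ f' ∈ F, s.r f f' → ∃ j : ℕ, tau (f - f') • g = (cc (ζ ^ j) : GA G) • g) ∧
    ∀ f₀ ∈ F, ∑ f ∈ F with s.r f f₀, tau f • g = 0

/-- A leaf is a finite sum of eigenleaves. -/
theorem eigen_decomp (F : Finset G) {N : ℕ} (hN : 0 < N) {ζ : ℂ} (hζ : IsPrimitiveRoot ζ N)
    (k : M) (hk : Leaf F N k) :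
    k ∈ AddSubmonoid.closure {g : M | EigenLeaf F ζ g} := by
  classical
  obtain ⟨s, h1, h2⟩ := hk
  set l : List G := (((F ×ˢ F).filter fun e => s.r e.1 e.2).toList).map fun e => e.1 - e.2 with hl
  have hmem : ∀ f ∈ F, ∀ f' ∈ F, s.r f f' → f - f' ∈ l := by
    intro f hf f' hf' hr
    rw [hl, List.mem_map]
    refine ⟨(f, f'), ?_, rfl⟩
    rw [Finset.mem_toList, Finset.mem_filter, Finset.mem_product]
    exact ⟨⟨hf, hf'⟩, hr⟩
  have hl' : ∀ v ∈ l, tau (N • v) • k = k := by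
    intro v hv
    rw [hl, List.mem_map] at hv
    obtain ⟨e, he, rfl⟩ := hv
    rw [Finset.mem_toList, Finset.mem_filter, Finset.mem_product] at he
    exact h1 _ he.1.1 _ he.1.2 he.2
  refine (AddSubmonoid.closure_le.mpr ?_) (eigen_list hN hζ k l hl')
  rintro g ⟨W, rfl, hW⟩
  apply AddSubmonoid.subset_closure
  refine ⟨s, ?_, ?_⟩
  · intro f hf f' hf' hr
    exact hW _ (hmem f hf f' hf' hr)
  · intro f₀ hf₀
    have := h2 f₀ hf₀
    have h3 : ∑ f ∈ F with s.r f f₀, tau f • (W • k) = W • ∑ f ∈ F with s.r f f₀, tau f • k := by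
      rw [Finset.smul_sum]
      refine Finset.sum_congr rfl fun f _ => ?_
      rw [smul_comm]
    rw [h3]
    convert smul_zero W using 2

end Vale.Agent.P043T
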