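import Vale.Agent.P043T.Leaf
import Vale.Agent.P043T.Eigen

/-!
Bounded functions as a module over the group algebra, and ergodic projections defined through a
limit along an ultrafilter.
-/

namespace Vale.Agent.P043T

open scoped BigOperators
open Finset Filter Topology

variable {G : Type*} [AddCommGroup G]

/-- Bounded complex functions. -/
def BddFn (G : Type*) [AddCommGroup G] : Submodule ℂ (G → ℂ) where
  carrier := {h | ∃ C : ℝ, ∀ x, ‖h x‖ ≤ C}
  add_mem' := by
    rintro a b ⟨C, hC⟩ ⟨D, hD⟩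
    exact ⟨C + D, fun x => (norm_add_le _ _).trans (add_le_add (hC x) (hD x))⟩
  zero_mem' := ⟨0, fun x => by simp⟩
  smul_mem' := by
    rintro c a ⟨C, hC⟩
    refine ⟨‖c‖ * C, fun x => ?_⟩
    rw [Pi.smul_apply, norm_smul]
    exact mul_le_mul_of_nonneg_left (hC x) (norm_nonneg _)

/-- The translation on bounded functions. -/
def shL (v : G) : BddFn G →ₗ[ℂ] BddFn G where
  toFun h := ⟨fun x => h.1 (x - v), by
    obtain ⟨C, hC⟩ := h.2
    exact ⟨C, fun x => hC _⟩⟩
  map_add' a b := rfl
  map_smul' c a := rfl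

/-- The multiplicative family of translations. -/
def shHom : Multiplicative G →* Module.End ℂ (BddFn G) where
  toFun v := shL (Multiplicative.toAdd v)
  map_one' := by
    ext h x
    simp [shL]
  map_mul' a b := by
    ext h x
    simp only [shL, toAdd_mul, Module.End.mul_apply, LinearMap.coe_mk, AddHom.coe_mk]
    congr 1
    abel

/-- The action of the group algebra. -/
noncomputable def rho : GA G →ₐ[ℂ] Module.End ℂ (BddFn G) :=
  AddMonoidAlgebra.lift ℂ (Module.End ℂ (BddFn G)) G shHom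

noncomputable instance instModuleBdd : Module (GA G) (BddFn G) :=
  Module.compHom (BddFn G) (rho (G := G)).toRingHom

lemma smul_def (W : GA G) (h : BddFn G) : W • h = rho W h := rfl

theorem single_smul_apply (v : G) (z : ℂ) (h : BddFn G) (x : G) :
    ((AddMonoidAlgebra.single v z : GA G) • h : BddFn G).1 x = z * h.1 (x - v) := by
  rw [smul_def, rho, AddMonoidAlgebra.lift_single]
  simp [shHom, shL]

theorem tau_smul_apply (v : G) (h : BddFn G) (x : G) :
    (tau v • h : BddFn G).1 x = h.1 (x - v) := by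
  simpa [tau] using single_smul_apply v 1 h x

theorem cc_smul_apply (z : ℂ) (h : BddFn G) (x : G) :
    ((cc z : GA G) • h : BddFn G).1 x = z * h.1 x := by
  simpa [cc] using single_smul_apply 0 z h x

/-- Ultrafilter limit. -/
noncomputable def limU (u : ℕ → ℂ) : ℂ := limUnder (hyperfilter ℕ : Filter ℕ) u

lemma tendsto_limU {u : ℕ → ℂ} {C : ℝ} (hu : ∀ n, ‖u n‖ ≤ C) :
    Tendsto u (hyperfilter ℕ : Filter ℕ) (𝓝 (limU u)) := by
  have hc : IsCompact (Metric.closedBall (0 : ℂ) C) := isCompact_closedBall _ _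
  have hmem : (Ultrafilter.map u (hyperfilter ℕ) : Filter ℂ) ≤ 𝓟 (Metric.closedBall (0 : ℂ) C) := by
    rw [le_principal_iff, Ultrafilter.coe_map, Filter.mem_map]
    apply Filter.mem_of_superset Filter.univ_mem
    intro n _
    simpa using hu n
  obtain ⟨x, _, hx⟩ := hc.ultrafilter_le_nhds _ hmem
  exact tendsto_nhds_limUnder ⟨x, hx⟩

/-- Cesàro average along a direction. -/
noncomputable def avg (h : G → ℂ) (v x : G) (n : ℕ) : ℂ :=
  ((n : ℂ) + 1)⁻¹ * ∑ j ∈ range (n + 1), h (x - j • v)

lemma norm_avg_le {h : G → ℂ} {C : ℝ} (hC : ∀ x, ‖h x‖ ≤ C) (v x : G) (n : ℕ) :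
    ‖avg h v x n‖ ≤ C := by
  unfold avg
  have hn : (0 : ℝ) < (n : ℝ) + 1 := by positivity
  rw [norm_mul, norm_inv]
  have h1 : ‖(n : ℂ) + 1‖ = (n : ℝ) + 1 := by
    have : (n : ℂ) + 1 = ((n + 1 : ℕ) : ℂ) := by push_cast; ring
    rw [this, Complex.norm_natCast]; push_cast; ring
  rw [h1]
  have h2 : ‖∑ j ∈ range (n + 1), h (x - j • v)‖ ≤ ((n : ℝ) + 1) * C := by
    calc _ ≤ ∑ j ∈ range (n + 1), ‖h (x - j • v)‖ := norm_sum_le _ _
      _ ≤ ∑ _j ∈ range (n + 1), C := Finset.sum_le_sum fun j _ => hC _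
      _ = ((n : ℝ) + 1) * C := by simp
  rw [inv_mul_le_iff₀ hn]
  exact h2

lemma tendsto_avg {h : G → ℂ} {C : ℝ} (hC : ∀ x, ‖h x‖ ≤ C) (v x : G) :
    Tendsto (avg h v x) (hyperfilter ℕ : Filter ℕ) (𝓝 (limU (avg h v x))) :=
  tendsto_limU (norm_avg_le hC v x)

/-- Ergodic projection on functions. -/
noncomputable def ergF (v : G) (h : G → ℂ) (x : G) : ℂ := limU (avg h v x)

lemma ergF_bdd {h : G → ℂ} {C : ℝ} (hC : ∀ x, ‖h x‖ ≤ C) (v x : G) : ‖ergF v h x‖ ≤ C :=
  le_of_tendsto (tendsto_avg hC v x).norm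
    (Eventually.of_forall fun n => norm_avg_le hC v x n)

/-- The ergodic projection as a linear map. -/
noncomputable def ergL (v : G) : BddFn G →ₗ[ℂ] BddFn G where
  toFun h := ⟨ergF v h.1, by
    obtain ⟨C, hC⟩ := h.2
    exact ⟨C, fun x => ergF_bdd hC v x⟩⟩
  map_add' a b := by
    obtain ⟨C, hC⟩ := a.2
    obtain ⟨D, hD⟩ := b.2
    obtain ⟨E, hE⟩ := (a + b).2
    ext x
    show ergF v (a.1 + b.1) x = ergF v a.1 x + ergF v b.1 x
    have h1 := tendsto_avg hC v x
    have h2 := tendsto_avg hD v x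
    have h3 := tendsto_avg hE v x
    have h4 : avg (a + b : BddFn G).1 v x = fun n => avg a.1 v x n + avg b.1 v x n := by
      funext n
      simp only [avg, Submodule.coe_add, Pi.add_apply, Finset.sum_add_distrib, mul_add]
    have h5 : Tendsto (avg (a + b : BddFn G).1 v x) (hyperfilter ℕ : Filter ℕ)
        (𝓝 (ergF v a.1 x + ergF v b.1 x)) := by
      rw [h4]; exact h1.add h2
    exact tendsto_nhds_unique h3 h5
  map_smul' c a := by
    obtain ⟨C, hC⟩ := a.2
    obtain ⟨E, hE⟩ := (c • a).2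
    ext x
    show ergF v (c • a.1) x = c * ergF v a.1 x
    have h1 := tendsto_avg hC v x
    have h3 := tendsto_avg hE v x
    have h4 : avg (c • a : BddFn G).1 v x = fun n => c * avg a.1 v x n := by
      funext n
      simp only [avg, Submodule.coe_smul, Pi.smul_apply, smul_eq_mul, ← Finset.mul_sum]
      ring
    have h5 : Tendsto (avg (c • a : BddFn G).1 v x) (hyperfilter ℕ : Filter ℕ)
        (𝓝 (c * ergF v a.1 x)) := by
      rw [h4]; exact h1.const_mul c
    exact tendsto_nhds_unique h3 h5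

lemma ergL_apply (v : G) (h : BddFn G) (x : G) : (ergL v h).1 x = limU (avg h.1 v x) := rfl

lemma ergL_sh (v w : G) (h : BddFn G) : ergL v (shL w h) = shL w (ergL v h) := by
  ext x
  show limU (avg (fun y => h.1 (y - w)) v x) = limU (avg h.1 v (x - w))
  congr 1
  funext n
  simp only [avg]
  congr 1
  refine Finset.sum_congr rfl fun j _ => ?_
  congr 1
  abel

lemma ergL_rho (v : G) (W : GA G) (h : BddFn G) : ergL v (rho W h) = rho W (ergL v h) := by
  induction W using AddMonoidAlgebra.induction_linear with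
  | zero => simp
  | add a b ha hb => simp only [map_add, LinearMap.add_apply, ha, hb]
  | single w z =>
    have e : ∀ m : BddFn G, rho (AddMonoidAlgebra.single w z : GA G) m = z • shL w m := by
      intro m
      rw [rho, AddMonoidAlgebra.lift_single]
      rfl
    rw [e, e, map_smul, ergL_sh]

/-- The ergodic projection as a map of modules over the group algebra. -/
noncomputable def ergR (v : G) : BddFn G →ₗ[GA G] BddFn G where
  toFun := ergL v
  map_add' := (ergL v).map_add
  map_smul' W h := ergL_rho v W h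

lemma ergR_apply (v : G) (h : BddFn G) : ergR v h = ergL v h := rfl

theorem ergR_inv (v : G) (h : BddFn G) : tau v • ergR v h = ergR v h := by
  obtain ⟨C, hC⟩ := h.2
  ext x
  rw [tau_smul_apply]
  show limU (avg h.1 v (x - v)) = limU (avg h.1 v x)
  have h1 := tendsto_avg hC v (x - v)
  have h2 := tendsto_avg hC v x
  -- the difference of the two averages tends to zero
  have hdiff : ∀ n, avg h.1 v (x - v) n - avg h.1 v x n
      = ((n : ℂ) + 1)⁻¹ * (h.1 (x - (n + 1) • v) - h.1 x) := by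
    intro n
    simp only [avg]
    rw [← mul_sub]
    congr 1
    have e : ∀ j, h.1 (x - v - j • v) = h.1 (x - (j + 1) • v) := by
      intro j; congr 1; rw [succ_nsmul]; abel
    simp_rw [e]
    rw [Finset.sum_range_succ (fun j => h.1 (x - (j + 1) • v)) n,
      Finset.sum_range_succ' (fun j => h.1 (x - j • v)) n]
    simp only [zero_smul, sub_zero]
    ring
  have h3 : Tendsto (fun n : ℕ => ((n : ℂ) + 1)⁻¹ * (h.1 (x - (n + 1) • v) - h.1 x)) atTop (𝓝 0) := by
    rw [tendsto_zero_iff_norm_tendsto_zero]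
    have hb : ∀ n : ℕ, ‖((n : ℂ) + 1)⁻¹ * (h.1 (x - (n + 1) • v) - h.1 x)‖ ≤ (2 * C) * ((n : ℝ) + 1)⁻¹ := by
      intro n
      rw [norm_mul, norm_inv]
      have h1 : ‖(n : ℂ) + 1‖ = (n : ℝ) + 1 := by
        have : (n : ℂ) + 1 = ((n + 1 : ℕ) : ℂ) := by push_cast; ring
        rw [this, Complex.norm_natCast]; push_cast; ring
      rw [h1, mul_comm]
      refine mul_le_mul_of_nonneg_right ?_ (by positivity)
      calc _ ≤ ‖h.1 (x - (n + 1) • v)‖ + ‖h.1 x‖ := norm_sub_le _ _
        _ ≤ C + C := add_le_add (hC _) (hC _)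
        _ = 2 * C := by ring
    have hlim : Tendsto (fun n : ℕ => (2 * C) * ((n : ℝ) + 1)⁻¹) atTop (𝓝 0) := by
      have := tendsto_one_div_add_atTop_nhds_zero_nat (𝕜 := ℝ)
      simpa [one_div] using this.const_mul (2 * C)
    exact squeeze_zero (fun n => norm_nonneg _) hb hlim
  have h4 : Tendsto (fun n => avg h.1 v (x - v) n - avg h.1 v x n) (hyperfilter ℕ : Filter ℕ) (𝓝 0) := by
    simp_rw [hdiff]
    exact h3.mono_left Nat.hyperfilter_le_atTop
  have h5 := h1.sub h2
  have h6 := tendsto_nhds_unique h5 h4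
  exact sub_eq_zero.mp h6

theorem ergR_fix (v : G) (h : BddFn G) (hv : tau v • h = h) : ergR v h = h := by
  obtain ⟨C, hC⟩ := h.2
  ext x
  show limU (avg h.1 v x) = h.1 x
  have hx : ∀ y, h.1 (y - v) = h.1 y := by
    intro y
    have := congrArg (fun m : BddFn G => m.1 y) hv
    simpa [tau_smul_apply] using this
  have hj : ∀ j : ℕ, h.1 (x - j • v) = h.1 x := by
    intro j
    induction j with
    | zero => simp
    | succ j ih =>
      rw [succ_nsmul, ← ih, ← sub_sub, hx]
  have h1 := tendsto_avg hC v x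
  have h2 : avg h.1 v x = fun _ => h.1 x := by
    funext n
    simp only [avg, hj, Finset.sum_const, Finset.card_range, nsmul_eq_mul]
    have : ((n : ℂ) + 1) ≠ 0 := by
      have : ((n + 1 : ℕ) : ℂ) ≠ 0 := by exact_mod_cast Nat.succ_ne_zero n
      simpa using this
    push_cast
    field_simp
  rw [h2] at h1 ⊢
  exact tendsto_nhds_unique h1 tendsto_const_nhds

end Vale.Agent.P043T
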