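import Vale.Agent.P043T.Defs

/-!
Extension of homomorphisms from a subgroup of the lattice to prime power cyclic groups,
and the homomorphism of eigenvalues of a nonzero joint eigenfunction.
-/

namespace Vale.Agent.P043T

open scoped BigOperators
open Finset

lemma exists_circle_extension {d : ℕ} (L : AddSubgroup (Lat d)) (φ₀ : L →+ AddCircle (1 : ℚ)) :
    ∃ φ : Lat d →+ AddCircle (1 : ℚ), ∀ ℓ : L, φ ℓ = φ₀ ℓ := by
  let f : L →ₗ[ℤ] Lat d := L.subtype.toIntLinearMap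
  obtain ⟨c, hc⟩ := CharacterModule.dual_surjective_of_injective f Subtype.val_injective φ₀
  exact ⟨c, fun ℓ => DFunLike.congr_fun hc ℓ⟩

/-- The inclusion of `ZMod q` in the circle. -/
noncomputable def toCirc (q : ℕ) : ZMod q →+ AddCircle (1 : ℚ) :=
  ZMod.lift q ⟨zmultiplesHom _ (((1 : ℚ) / q : ℚ) : AddCircle (1 : ℚ)), by
    simp only [zmultiplesHom_apply]
    by_cases hq : q = 0
    · simp [hq]
    · have hq' : (q : ℚ) ≠ 0 := by exact_mod_cast hq
      have : ((q : ℤ) • (((1 : ℚ) / q : ℚ) : AddCircle (1 : ℚ)))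
          = (((q : ℤ) • ((1 : ℚ) / q) : ℚ) : AddCircle (1 : ℚ)) := (AddCircle.coe_zsmul (1 : ℚ)).symm
      rw [this]
      have h2 : ((q : ℤ) • ((1 : ℚ) / q) : ℚ) = 1 := by
        rw [zsmul_eq_mul]; push_cast; field_simp
      rw [h2]
      exact AddCircle.coe_period 1⟩

lemma toCirc_apply (q : ℕ) [NeZero q] (j : ZMod q) :
    toCirc q j = (((j.val : ℚ) / q : ℚ) : AddCircle (1 : ℚ)) := by
  have e : j = ((j.val : ℤ) : ZMod q) := by simp
  conv_lhs => rw [e]
  rw [toCirc, ZMod.lift_coe]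
  simp only [zmultiplesHom_apply]
  rw [← AddCircle.coe_zsmul]
  congr 1
  rw [zsmul_eq_mul]; push_cast; ring

theorem exists_hom_extension {d : ℕ} (q : ℕ) [Fact q.Prime] (L : AddSubgroup (Lat d))
    (h : L →+ ZMod q) :
    ∃ (b : ℕ) (η : Lat d →+ ZMod (q ^ (b + 1))), ∀ ℓ : L,
      η ℓ = (q ^ b : ZMod (q ^ (b + 1))) * (((h ℓ).val : ℕ) : ZMod (q ^ (b + 1))) := by
  classical
  have hq : q.Prime := Fact.out
  have : NeZero q := ⟨hq.ne_zero⟩
  obtain ⟨φ, hφ⟩ := exists_circle_extension L ((toCirc q).comp h)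
  -- rational representatives
  have hrep : ∀ i : Fin d, ∃ r : ℚ, φ (Pi.single i 1) = (r : AddCircle (1 : ℚ)) :=
    fun i => QuotientAddGroup.mk_surjective _ |>.imp fun r hr => hr.symm
  choose r hr using hrep
  -- the linear form
  have hφx : ∀ x : Lat d, φ x = ((∑ i, (x i : ℚ) * r i : ℚ) : AddCircle (1 : ℚ)) := by
    intro x
    have e : x = ∑ i, x i • (Pi.single i 1 : Lat d) := by
      funext j
      simp [Finset.sum_apply, Pi.single_apply]
    conv_lhs => rw [e]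
    rw [map_sum]
    have : ((∑ i, (x i : ℚ) * r i : ℚ) : AddCircle (1 : ℚ))
        = ∑ i, x i • ((r i : ℚ) : AddCircle (1 : ℚ)) := by
      induction (Finset.univ : Finset (Fin d)) using Finset.induction_on with
      | empty => simp
      | insert a s ha ih =>
        rw [Finset.sum_insert ha, Finset.sum_insert ha, AddCircle.coe_add, ih, ← AddCircle.coe_zsmul,
          zsmul_eq_mul]
    rw [this]
    refine Finset.sum_congr rfl fun i _ => ?_
    rw [map_zsmul, hr]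
  -- common denominator
  set M₀ : ℕ := ∏ i, (r i).den with hM₀
  have hM₀ne : M₀ ≠ 0 := Finset.prod_ne_zero_iff.mpr fun i _ => (r i).den_nz
  have hint : ∀ i, ∃ c : ℤ, (c : ℚ) = (M₀ : ℚ) * r i := by
    intro i
    have hd : (r i).den ∣ M₀ := Finset.dvd_prod_of_mem _ (Finset.mem_univ i)
    obtain ⟨m, hm⟩ := hd
    refine ⟨m * (r i).num, ?_⟩
    have hden : ((r i).den : ℚ) * r i = (r i).num := Rat.den_mul_eq_num (r i)
    rw [hm]
    push_cast
    rw [← hden]
    ring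
  choose c hc using hint
  obtain ⟨e, M', hnd, hfac⟩ := Nat.exists_eq_pow_mul_and_not_dvd hM₀ne q hq.ne_one
  have hcop : Nat.Coprime M' (q ^ (e + 1)) :=
    Nat.Coprime.pow_right _ (((Nat.Prime.coprime_iff_not_dvd hq).mpr hnd).symm)
  set t : ZMod (q ^ (e + 1)) := (M' : ZMod (q ^ (e + 1)))⁻¹ with ht
  have htM : t * (M' : ZMod (q ^ (e + 1))) = 1 := by
    rw [mul_comm, ht]
    exact ZMod.coe_mul_inv_eq_one M' hcop
  let η : Lat d →+ ZMod (q ^ (e + 1)) := AddMonoidHom.mk'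
    (fun x => t * ∑ i, ((x i : ℤ) : ZMod (q ^ (e + 1))) * ((q : ZMod (q ^ (e + 1))) * (c i : ZMod (q ^ (e + 1))))) (by
      intro x y
      simp only [Pi.add_apply, Int.cast_add, add_mul, Finset.sum_add_distrib, mul_add])
  refine ⟨e, η, fun ℓ => ?_⟩
  -- the relation for elements of the subgroup
  have h1 := hφ ℓ
  rw [hφx, AddMonoidHom.comp_apply, toCirc_apply] at h1
  have h2 : (((∑ i, ((ℓ : Lat d) i : ℚ) * r i) - ((h ℓ).val : ℚ) / q : ℚ) : AddCircle (1 : ℚ)) = 0 := by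
    rw [sub_eq_add_neg, AddCircle.coe_add, h1]
    rw [← AddCircle.coe_add]
    simp
  obtain ⟨n, hn⟩ := (AddCircle.coe_eq_zero_iff (1 : ℚ)).mp h2
  rw [zsmul_eq_mul, mul_one] at hn
  have hqQ : (q : ℚ) ≠ 0 := by exact_mod_cast hq.ne_zero
  have hsum : (∑ i, ((ℓ : Lat d) i : ℤ) * ((q : ℤ) * c i) : ℤ)
      = (q : ℤ) * (M₀ : ℤ) * n + (M₀ : ℤ) * ((h ℓ).val : ℤ) := by
    have : ((∑ i, ((ℓ : Lat d) i : ℤ) * ((q : ℤ) * c i) : ℤ) : ℚ)
        = (((q : ℤ) * (M₀ : ℤ) * n + (M₀ : ℤ) * ((h ℓ).val : ℤ) : ℤ) : ℚ) := by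
      push_cast
      have e1 : ∀ i, ((ℓ : Lat d) i : ℚ) * ((q : ℚ) * (c i : ℚ))
          = (q : ℚ) * (M₀ : ℚ) * (((ℓ : Lat d) i : ℚ) * r i) := by
        intro i; rw [hc]; ring
      simp_rw [e1]
      rw [← Finset.mul_sum]
      have e2 : ∑ i, ((ℓ : Lat d) i : ℚ) * r i = (n : ℚ) + ((h ℓ).val : ℚ) / q := by
        rw [hn]; ring
      rw [e2]
      field_simp
    exact_mod_cast this
  have hcast := congrArg (fun z : ℤ => (z : ZMod (q ^ (e + 1)))) hsum
  push_cast at hcast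
  have hzero : ((q : ZMod (q ^ (e + 1)))) * ((M₀ : ZMod (q ^ (e + 1)))) = 0 := by
    rw [hfac]
    push_cast
    have : ((q ^ (e + 1) : ℕ) : ZMod (q ^ (e + 1))) = 0 := ZMod.natCast_self _
    push_cast at this
    calc (q : ZMod (q ^ (e + 1))) * ((q : ZMod (q ^ (e + 1))) ^ e * (M' : ZMod (q ^ (e + 1))))
        = ((q : ZMod (q ^ (e + 1))) ^ (e + 1)) * (M' : ZMod (q ^ (e + 1))) := by ring
      _ = 0 := by rw [this, zero_mul]
  rw [hzero, zero_mul, zero_add] at hcast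
  show t * ∑ i, (((ℓ : Lat d) i : ℤ) : ZMod (q ^ (e + 1))) * ((q : ZMod (q ^ (e + 1))) * (c i : ZMod (q ^ (e + 1))))
    = _
  rw [hcast, hfac]
  push_cast
  calc t * (((q : ZMod (q ^ (e + 1))) ^ e * (M' : ZMod (q ^ (e + 1)))) * ((h ℓ).val : ZMod (q ^ (e + 1))))
      = (t * (M' : ZMod (q ^ (e + 1)))) * ((q : ZMod (q ^ (e + 1))) ^ e * ((h ℓ).val : ZMod (q ^ (e + 1)))) := by ring
    _ = _ := by rw [htM, one_mul]

/-- Eigenvalue homomorphism of a nonzero function that is a joint eigenfunction of translations. -/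
theorem hom_of_eigen {d : ℕ} (q : ℕ) [Fact q.Prime] {ζ : ℂ} (hζ : IsPrimitiveRoot ζ q)
    (S : Set (Lat d)) (g : Lat d → ℂ) (hg : g ≠ 0)
    (hS : ∀ v ∈ S, ∃ j : ℕ, ∀ x, g (x - v) = ζ ^ j * g x) :
    ∃ h : AddSubgroup.closure S →+ ZMod q, ∀ (ℓ : AddSubgroup.closure S) (x : Lat d),
      g (x - ℓ) = ζ ^ (h ℓ).val * g x := by
  classical
  have hq : q.Prime := Fact.out
  have : NeZero q := ⟨hq.ne_zero⟩
  obtain ⟨x₀, hx₀⟩ : ∃ x₀, g x₀ ≠ 0 := by
    by_contra hcon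
    push Not at hcon
    exact hg (funext hcon)
  have hζq : ζ ^ q = 1 := hζ.pow_eq_one
  -- all elements of the closure are eigenvectors
  have hall : ∀ ℓ ∈ AddSubgroup.closure S, ∃ j : ℕ, ∀ x, g (x - ℓ) = ζ ^ j * g x := by
    intro ℓ hℓ
    induction hℓ using AddSubgroup.closure_induction with
    | mem v hv => exact hS v hv
    | zero => exact ⟨0, fun x => by simp⟩
    | add a b _ _ ha hb =>
      obtain ⟨i, hi⟩ := ha
      obtain ⟨j, hj⟩ := hb
      refine ⟨i + j, fun x => ?_⟩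
      have e : x - (a + b) = x - a - b := by abel
      rw [e, hj, hi, pow_add]; ring
    | neg a _ ha =>
      obtain ⟨i, hi⟩ := ha
      -- the inverse eigenvalue is a power of the root again
      refine ⟨(q - i % q), fun x => ?_⟩
      have h1 := hi (x + a)
      have e : x + a - a = x := by abel
      rw [e] at h1
      have e2 : x - -a = x + a := by abel
      rw [e2, h1, ← mul_assoc]
      have hiq : i % q < q := Nat.mod_lt _ hq.pos
      have : ζ ^ (q - i % q) * ζ ^ i = 1 := by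
        rw [pow_eq_pow_mod i hζq, ← pow_add, Nat.sub_add_cancel hiq.le, hζq]
      rw [this, one_mul]
  -- uniqueness of the exponent modulo q
  have huniq : ∀ (i j : ℕ), ζ ^ i * g x₀ = ζ ^ j * g x₀ → ((i : ZMod q) = (j : ZMod q)) := by
    intro i j hij
    have h1 : ζ ^ i = ζ ^ j := mul_right_cancel₀ hx₀ hij
    rw [ZMod.natCast_eq_natCast_iff]
    have h2 : ζ ^ (i % q) = ζ ^ (j % q) := by
      rw [← pow_eq_pow_mod i hζq, ← pow_eq_pow_mod j hζq]; exact h1
    exact hζ.pow_inj (Nat.mod_lt _ hq.pos) (Nat.mod_lt _ hq.pos) h2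
  let exJ : AddSubgroup.closure S → ℕ := fun ℓ => (hall ℓ ℓ.2).choose
  have hexJ : ∀ (ℓ : AddSubgroup.closure S) x, g (x - ℓ) = ζ ^ (exJ ℓ) * g x :=
    fun ℓ => (hall ℓ ℓ.2).choose_spec
  let h : AddSubgroup.closure S →+ ZMod q := AddMonoidHom.mk' (fun ℓ => (exJ ℓ : ZMod q)) (by
    intro a b
    have h1 := hexJ (a + b) x₀
    have e : x₀ - ((a + b : AddSubgroup.closure S) : Lat d) = x₀ - a - b := by
      push_cast; abel
    rw [e, hexJ b, hexJ a] at h1
    have h2 := huniq (exJ a + exJ b) (exJ (a + b)) (by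
      rw [pow_add, ← h1]; ring)
    push_cast at h2
    exact h2.symm)
  refine ⟨h, fun ℓ x => ?_⟩
  rw [hexJ]
  congr 1
  show ζ ^ exJ ℓ = ζ ^ ((exJ ℓ : ZMod q)).val
  rw [ZMod.val_natCast, ← pow_eq_pow_mod _ hζq]

end Vale.Agent.P043T
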