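import Mathlib

/-!
Fourier inversion on a finite group of odd order and congruences modulo two.
-/

namespace Vale.Agent.P043T

open scoped BigOperators
open Finset

theorem isIntegral_inv_one_add {z : ℂ} {Ω : ℕ} (hΩ : Odd Ω) (hz : z ^ Ω = 1) (hz1 : z ≠ 1) :
    IsIntegral ℤ (1 + z)⁻¹ := by
  obtain ⟨m, hm⟩ := hΩ
  have hzint : IsIntegral ℤ z := by
    apply IsIntegral.of_pow (n := Ω) (by omega)
    rw [hz]; exact isIntegral_one
  have hsum : ∑ j ∈ range Ω, z ^ j = 0 := by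
    have h := mul_neg_geom_sum z Ω
    rw [hz, sub_self] at h
    exact (mul_eq_zero.mp h).resolve_left (sub_ne_zero.mpr (Ne.symm hz1))
  have hprod : (1 + z) * ∑ j ∈ range (m + 1), z ^ (2 * j) = 1 := by
    have h1 : (1 + z) * ∑ j ∈ range (m + 1), z ^ (2 * j) = ∑ j ∈ range (2 * (m + 1)), z ^ j := by
      clear hsum hz hm
      induction m with
      | zero => simp [Finset.sum_range_succ]
      | succ m ih =>
        rw [Finset.sum_range_succ, mul_add, ih]
        have e : 2 * (m + 1 + 1) = 2 * (m + 1) + 1 + 1 := by ring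
        rw [e, Finset.sum_range_succ, Finset.sum_range_succ]
        ring
    have e : 2 * (m + 1) = Ω + 1 := by omega
    rw [h1, e, Finset.sum_range_succ, hsum, hz, zero_add]
  have hinv : (1 + z)⁻¹ = ∑ j ∈ range (m + 1), z ^ (2 * j) := by
    exact inv_eq_of_mul_eq_one_right hprod
  rw [hinv]
  exact IsIntegral.sum _ fun j _ => hzint.pow _

theorem parity_const {d Ω : ℕ} [NeZero Ω] (hΩ : Odd Ω) (b : (Fin d → ZMod Ω) → ℤ)
    (h : ∀ ψ : AddChar (Fin d → ZMod Ω) ℂ, ψ ≠ 1 →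
      IsIntegral ℤ ((∑ q, (b q : ℂ) * ψ q) / 2)) (q q' : Fin d → ZMod Ω) :
    (2 : ℤ) ∣ b q - b q' := by
  classical
  set N : ℕ := Fintype.card (Fin d → ZMod Ω) with hN
  have hNodd : Odd N := by
    rw [hN]
    simp only [Fintype.card_pi, Finset.prod_const, ZMod.card, Finset.card_univ, Fintype.card_fin]
    exact hΩ.pow
  -- roots of unity
  have hroot : ∀ (ψ : AddChar (Fin d → ZMod Ω) ℂ) (x : Fin d → ZMod Ω), IsIntegral ℤ (ψ x) := by
    intro ψ x
    have hpos : 0 < Ω := hΩ.pos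
    apply IsIntegral.of_pow hpos
    rw [← AddChar.map_nsmul_eq_pow]
    have : Ω • x = 0 := by
      funext i
      rw [Pi.smul_apply, Pi.zero_apply, nsmul_eq_mul, ZMod.natCast_self, zero_mul]
    rw [this, AddChar.map_zero_eq_one]
    exact isIntegral_one
  -- inversion
  have hinv : ∀ x : (Fin d → ZMod Ω), (N : ℂ) * (b x : ℂ) = ∑ ψ : AddChar (Fin d → ZMod Ω) ℂ, (∑ y, (b y : ℂ) * ψ y) * ψ (-x) := by
    intro x
    have h1 : ∑ ψ : AddChar (Fin d → ZMod Ω) ℂ, (∑ y, (b y : ℂ) * ψ y) * ψ (-x)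
        = ∑ y, (b y : ℂ) * ∑ ψ : AddChar (Fin d → ZMod Ω) ℂ, ψ (y - x) := by
      simp_rw [Finset.sum_mul, Finset.mul_sum]
      rw [Finset.sum_comm]
      refine Finset.sum_congr rfl fun y _ => Finset.sum_congr rfl fun ψ _ => ?_
      rw [sub_eq_add_neg, AddChar.map_add_eq_mul, mul_assoc]
    rw [h1]
    have h2 : ∀ y, (b y : ℂ) * ∑ ψ : AddChar (Fin d → ZMod Ω) ℂ, ψ (y - x)
        = if y = x then (b y : ℂ) * (N : ℂ) else 0 := by
      intro y
      rw [AddChar.sum_apply_eq_ite]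
      by_cases hy : y = x
      · simp [hy, hN]
      · simp [hy, sub_eq_zero]
    simp_rw [h2]
    rw [Finset.sum_ite_eq' Finset.univ x, if_pos (Finset.mem_univ x), mul_comm]
  -- the difference
  have hdiff : ((N : ℂ) * ((b q : ℂ) - (b q' : ℂ))) / 2
      = ∑ ψ ∈ Finset.univ.erase (1 : AddChar (Fin d → ZMod Ω) ℂ),
          ((∑ y, (b y : ℂ) * ψ y) / 2) * (ψ (-q) - ψ (-q')) := by
    have h1 : ∀ ψ : AddChar (Fin d → ZMod Ω) ℂ, ((∑ y, (b y : ℂ) * ψ y) / 2) * (ψ (-q) - ψ (-q'))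
        = ((∑ y, (b y : ℂ) * ψ y) * ψ (-q) - (∑ y, (b y : ℂ) * ψ y) * ψ (-q')) / 2 := by
      intro ψ; ring
    have h2 : ∑ ψ : AddChar (Fin d → ZMod Ω) ℂ, ((∑ y, (b y : ℂ) * ψ y) / 2) * (ψ (-q) - ψ (-q'))
        = ((N : ℂ) * ((b q : ℂ) - (b q' : ℂ))) / 2 := by
      simp_rw [h1]
      rw [← Finset.sum_div, Finset.sum_sub_distrib, ← hinv, ← hinv]
      ring
    rw [← h2, ← Finset.add_sum_erase _ _ (Finset.mem_univ (1 : AddChar (Fin d → ZMod Ω) ℂ))]
    simp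
  have hint : IsIntegral ℤ (((N : ℂ) * ((b q : ℂ) - (b q' : ℂ))) / 2) := by
    rw [hdiff]
    refine IsIntegral.sum _ fun ψ hψ => ?_
    have hne : ψ ≠ 1 := (Finset.mem_erase.mp hψ).1
    exact (h ψ hne).mul ((hroot ψ _).sub (hroot ψ _))
  -- a rational algebraic integer is an integer
  set r : ℚ := ((N : ℚ) * ((b q : ℚ) - (b q' : ℚ))) / 2 with hr
  have hrC : algebraMap ℚ ℂ r = ((N : ℂ) * ((b q : ℂ) - (b q' : ℂ))) / 2 := by
    rw [hr]; simp
  have hrint : IsIntegral ℤ r := by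
    have := hint
    rw [← hrC] at this
    exact (isIntegral_algebraMap_iff (algebraMap ℚ ℂ).injective).mp this
  obtain ⟨y, hy⟩ := IsIntegrallyClosed.isIntegral_iff.mp hrint
  have hy' : ((2 * y : ℤ) : ℚ) = ((N * (b q - b q') : ℤ) : ℚ) := by
    have : (y : ℚ) = r := by simpa using hy
    push_cast
    rw [this, hr]
    ring
  have hy2 : 2 * y = (N : ℤ) * (b q - b q') := by exact_mod_cast hy'
  have hdvd : (2 : ℤ) ∣ (N : ℤ) * (b q - b q') := ⟨y, hy2.symm⟩
  have hcop : IsCoprime (2 : ℤ) (N : ℤ) := by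
    have : Nat.Coprime 2 N := Nat.coprime_two_left.mpr hNodd
    exact_mod_cast Nat.isCoprime_iff_coprime.mpr this
  exact hcop.dvd_of_dvd_mul_left hdvd

end Vale.Agent.P043T
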