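import Vale.Agent.P043T.Defs
import Vale.Agent.P043T.Ergodic
import Vale.Agent.P043T.Parity

/-!
Characters of the finite quotient `(ℤ / Ω)^d`, periodic functions on the lattice, and products
of the elements `1 + τ_v` of the group algebra.
-/

namespace Vale.Agent.P043T

open scoped BigOperators
open Finset

variable {d Ω : ℕ}

/-- Reduction modulo `Ω`. -/
def piH (d Ω : ℕ) : Lat d →+ (Fin d → ZMod Ω) where
  toFun x i := (x i : ZMod Ω)
  map_zero' := by ext i; simp
  map_add' x y := by ext i; simp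

lemma piH_apply (x : Lat d) (i : Fin d) : piH d Ω x i = (x i : ZMod Ω) := rfl

/-- The standard lift. -/
def liftQ (q : Fin d → ZMod Ω) : Lat d := fun i => ((q i).val : ℤ)

lemma pi_liftQ [NeZero Ω] (q : Fin d → ZMod Ω) : piH d Ω (liftQ q) = q := by
  ext i
  simp [piH, liftQ]

lemma exists_of_pi_eq {x y : Lat d} (h : piH d Ω x = piH d Ω y) : ∃ z : Lat d, y = x - Ω • z := by
  have h1 : ∀ i, ∃ z : ℤ, y i = x i - Ω * z := by
    intro i
    have h2 : ((x i : ℤ) : ZMod Ω) = ((y i : ℤ) : ZMod Ω) := congrFun h i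
    rw [ZMod.intCast_eq_intCast_iff_dvd_sub] at h2
    obtain ⟨z, hz⟩ := h2
    exact ⟨-z, by linarith⟩
  choose z hz using h1
  refine ⟨z, ?_⟩
  ext i
  rw [hz i]
  simp

/-- Periodicity of a function. -/
def Per (Ω : ℕ) {β : Type*} (h : Lat d → β) : Prop := ∀ x z, h (x - Ω • z) = h x

lemma per_congr {β : Type*} {h : Lat d → β} (hp : Per Ω h) {x y : Lat d}
    (hxy : piH d Ω x = piH d Ω y) : h x = h y := by
  obtain ⟨z, rfl⟩ := exists_of_pi_eq hxy
  exact (hp x z).symm

lemma per_shift {β : Type*} {h : Lat d → β} (hp : Per Ω h) (v : Lat d) : Per Ω fun x => h (x - v) := by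
  intro x z
  have e : x - Ω • z - v = x - v - Ω • z := by abel
  show h (x - Ω • z - v) = h (x - v)
  rw [e, hp]

/-- The transform of a function on the lattice with respect to a character of the quotient. -/
noncomputable def fhat [NeZero Ω] (ψ : AddChar (Fin d → ZMod Ω) ℂ) (h : Lat d → ℂ) : ℂ :=
  ∑ q, h (liftQ q) * ψ q

section
variable [NeZero Ω]

lemma fhat_add (ψ : AddChar (Fin d → ZMod Ω) ℂ) (h k : Lat d → ℂ) :
    fhat ψ (fun x => h x + k x) = fhat ψ h + fhat ψ k := by
  unfold fhat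
  rw [← Finset.sum_add_distrib]
  exact Finset.sum_congr rfl fun q _ => by ring

lemma fhat_shift (ψ : AddChar (Fin d → ZMod Ω) ℂ) {h : Lat d → ℂ} (hp : Per Ω h) (v : Lat d) :
    fhat ψ (fun x => h (x - v)) = ψ (piH d Ω v) * fhat ψ h := by
  unfold fhat
  rw [← Equiv.sum_comp (Equiv.addRight (piH d Ω v)), Finset.mul_sum]
  refine Finset.sum_congr rfl fun q _ => ?_
  have h1 : piH d Ω (liftQ (q + piH d Ω v) - v) = piH d Ω (liftQ q) := by
    rw [map_sub, pi_liftQ, pi_liftQ]
    abel
  simp only [Equiv.coe_addRight]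
  rw [per_congr hp h1, AddChar.map_add_eq_mul]
  ring

lemma sum_shift {h : Lat d → ℤ} (hp : Per Ω h) (v : Lat d) :
    ∑ q : Fin d → ZMod Ω, h (liftQ q - v) = ∑ q : Fin d → ZMod Ω, h (liftQ q) := by
  rw [← Equiv.sum_comp (Equiv.addRight (piH d Ω v))]
  refine Finset.sum_congr rfl fun q _ => ?_
  have h1 : piH d Ω (liftQ (q + piH d Ω v) - v) = piH d Ω (liftQ q) := by
    rw [map_sub, pi_liftQ, pi_liftQ]
    abel
  simp only [Equiv.coe_addRight]
  exact per_congr hp h1

omit [NeZero Ω] in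
lemma char_pow (ψ : AddChar (Fin d → ZMod Ω) ℂ) (x : Fin d → ZMod Ω) : ψ x ^ Ω = 1 := by
  rw [← AddChar.map_nsmul_eq_pow]
  have : Ω • x = 0 := by
    funext i
    rw [Pi.smul_apply, Pi.zero_apply, nsmul_eq_mul, ZMod.natCast_self, zero_mul]
  rw [this, AddChar.map_zero_eq_one]

lemma fhat_int (hpos : 0 < Ω) (ψ : AddChar (Fin d → ZMod Ω) ℂ) (z : Lat d → ℤ) :
    IsIntegral ℤ (fhat ψ fun x => (z x : ℂ)) := by
  unfold fhat
  refine IsIntegral.sum _ fun q _ => ?_
  refine IsIntegral.mul ?_ ?_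
  · exact isIntegral_algebraMap (R := ℤ) (A := ℂ) (x := z (liftQ q))
  · apply IsIntegral.of_pow hpos
    rw [char_pow]
    exact isIntegral_one

/-- The constant function has vanishing transform for nontrivial characters. -/
lemma fhat_const {ψ : AddChar (Fin d → ZMod Ω) ℂ} (hψ : ψ ≠ 1) (c : ℂ) :
    fhat ψ (fun _ => c) = 0 := by
  unfold fhat
  rw [← Finset.mul_sum, AddChar.sum_eq_zero_of_ne_one hψ, mul_zero]

end

/-- Products of the elements `1 + τ_v`. -/
noncomputable def prodD : List (Lat d) → GA (Lat d)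
  | [] => 1
  | v :: l => (1 + tau v) * prodD l

lemma prodD_append (l l' : List (Lat d)) : prodD (l ++ l') = prodD l * prodD l' := by
  induction l with
  | nil => simp [prodD]
  | cons v l ih => simp only [List.cons_append, prodD, ih, mul_assoc]

/-- The corresponding scalar. -/
noncomputable def prodY (χ : Lat d → ℂ) : List (Lat d) → ℂ
  | [] => 1
  | v :: l => (1 + χ v) * prodY χ l

lemma bdd_add_tau (h : BddFn (Lat d)) (v : Lat d) (x : Lat d) :
    (((1 + tau v : GA (Lat d)) • h : BddFn (Lat d))).1 x = h.1 x + h.1 (x - v) := by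
  rw [add_smul, one_smul]
  show (h + tau v • h : BddFn (Lat d)).1 x = _
  rw [Submodule.coe_add, Pi.add_apply, tau_smul_apply]

lemma per_prodD (l : List (Lat d)) (h : BddFn (Lat d)) (hp : Per Ω h.1) :
    Per Ω (prodD l • h).1 := by
  induction l with
  | nil =>
    simpa [prodD] using hp
  | cons v l ih =>
    simp only [prodD]
    rw [mul_smul]
    intro x z
    rw [bdd_add_tau, bdd_add_tau, ih x z]
    have e : x - Ω • z - v = x - v - Ω • z := by abel
    rw [e, ih]

lemma fhat_prodD [NeZero Ω] (ψ : AddChar (Fin d → ZMod Ω) ℂ) (l : List (Lat d)) (h : BddFn (Lat d))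
    (hp : Per Ω h.1) :
    fhat ψ (prodD l • h).1 = prodY (fun v => ψ (piH d Ω v)) l * fhat ψ h.1 := by
  induction l with
  | nil =>
    simp [prodD, prodY]
  | cons v l ih =>
    simp only [prodD, prodY]
    rw [mul_smul]
    have h1 := per_prodD l h hp
    have h2 : ((1 + tau v : GA (Lat d)) • prodD l • h : BddFn (Lat d)).1
        = fun x => (prodD l • h : BddFn (Lat d)).1 x + (prodD l • h : BddFn (Lat d)).1 (x - v) := by
      funext x
      exact bdd_add_tau _ _ _
    rw [h2, fhat_add, fhat_shift ψ h1, ih]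
    ring

lemma intVal_prodD (l : List (Lat d)) (h : BddFn (Lat d)) (hz : ∃ z : Lat d → ℤ, ∀ x, h.1 x = z x) :
    ∃ z : Lat d → ℤ, ∀ x, (prodD l • h : BddFn (Lat d)).1 x = z x := by
  induction l with
  | nil =>
    simpa [prodD] using hz
  | cons v l ih =>
    obtain ⟨z, hz'⟩ := ih
    refine ⟨fun x => z x + z (x - v), fun x => ?_⟩
    simp only [prodD]
    rw [mul_smul, bdd_add_tau, hz', hz']
    push_cast
    rfl

lemma prodY_ne_zero (hΩ : Odd Ω) (ψ : AddChar (Fin d → ZMod Ω) ℂ) (l : List (Lat d)) :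
    prodY (fun v => ψ (piH d Ω v)) l ≠ 0 := by
  induction l with
  | nil => simp [prodY]
  | cons v l ih =>
    simp only [prodY]
    refine mul_ne_zero ?_ ih
    intro h
    have h1 : ψ (piH d Ω v) = -1 := by linear_combination h
    have h2 := char_pow ψ (piH d Ω v)
    rw [h1, hΩ.neg_one_pow] at h2
    norm_num at h2

lemma prodY_inv_int (hΩ : Odd Ω) (ψ : AddChar (Fin d → ZMod Ω) ℂ) (l : List (Lat d))
    (hl : ∀ v ∈ l, ψ (piH d Ω v) ≠ 1) :
    IsIntegral ℤ (prodY (fun v => ψ (piH d Ω v)) l)⁻¹ := by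
  induction l with
  | nil =>
    simp only [prodY, inv_one]
    exact isIntegral_one
  | cons v l ih =>
    simp only [prodY, mul_inv]
    refine IsIntegral.mul ?_ (ih fun w hw => hl w (List.mem_cons_of_mem _ hw))
    exact isIntegral_inv_one_add hΩ (char_pow ψ _) (hl v List.mem_cons_self)

end Vale.Agent.P043T
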