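import Vale.Agent.P043T.Pieces

/-!
Integrality of half of the transform of the periodic part of a dilated tiling.
-/

namespace Vale.Agent.P043T

open scoped BigOperators
open Finset

variable {d Ω : ℕ}

lemma fhat_mul [NeZero Ω] (ψ : AddChar (Fin d → ZMod Ω) ℂ) (z : ℂ) (h : Lat d → ℂ) :
    fhat ψ (fun x => z * h x) = z * fhat ψ h := by
  unfold fhat
  rw [Finset.mul_sum]
  exact Finset.sum_congr rfl fun q _ => by ring

/-- A homomorphism detecting the pairs of an involution. -/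
lemma exists_xi (F : Finset (Lat d)) (τ : Lat d → Lat d) (g : BF d) (hg : g ≠ 0)
    (hτ : ∀ f ∈ F, tau (τ f - f) • g = -g) :
    ∃ (a : ℕ) (ξ : Lat d →+ ZMod (2 ^ (a + 1))), ∀ f ∈ F, ξ (τ f - f) = (2 ^ a : ZMod (2 ^ (a + 1))) := by
  classical
  haveI : Fact (Nat.Prime 2) := ⟨Nat.prime_two⟩
  have hζ : IsPrimitiveRoot (-1 : ℂ) 2 := IsPrimitiveRoot.neg_one 0 (by norm_num)
  have hg' := ne_zero_val hg
  have hev : ∀ f ∈ F, ∀ x, g.1 (x - (τ f - f)) = - g.1 x := by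
    intro f hf x
    have h2 : (tau (τ f - f) • g : BF d).1 x = (-g : BF d).1 x := by rw [hτ f hf]
    rw [tau_smul_apply] at h2
    exact h2
  obtain ⟨h, hh⟩ := hom_of_eigen 2 hζ {v : Lat d | ∃ f ∈ F, v = τ f - f} g.1 hg' (by
    rintro v ⟨f, hf, rfl⟩
    exact ⟨1, fun x => by rw [hev f hf]; ring⟩)
  obtain ⟨x₀, hx₀⟩ : ∃ x₀, g.1 x₀ ≠ 0 := by
    by_contra hcon
    push Not at hcon
    exact hg' (funext hcon)
  obtain ⟨a, ξ, hξ⟩ := exists_hom_extension 2 _ h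
  refine ⟨a, ξ, fun f hf => ?_⟩
  let ℓ : AddSubgroup.closure {v : Lat d | ∃ f ∈ F, v = τ f - f} :=
    ⟨τ f - f, AddSubgroup.subset_closure ⟨f, hf, rfl⟩⟩
  have h1 := hξ ℓ
  have h2 := hh ℓ x₀
  have h3 : g.1 (x₀ - (τ f - f)) = - g.1 x₀ := hev f hf x₀
  have h4 : (ℓ : Lat d) = τ f - f := rfl
  rw [h4, h3] at h2
  have h5 : h ℓ = 1 := by
    rcases zmod2_cases (h ℓ) with h6 | h6
    · exfalso
      rw [h6] at h2
      have h7 : (0 : ZMod 2).val = 0 := rfl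
      rw [h7, pow_zero, one_mul] at h2
      apply hx₀
      linear_combination (-1 / 2 : ℂ) * h2
    · exact h6
  rw [h4] at h1
  rw [h1, h5]
  have h8 : (1 : ZMod 2).val = 1 := rfl
  rw [h8]
  simp

/-- A homomorphism from a character. -/
lemma exists_eta (p : ℕ) [Fact p.Prime] [NeZero Ω] (F F₁ : Finset (Lat d)) (φ : Lat d → ZMod p)
    (τ : Lat d → Lat d) (ψ : AddChar (Fin d → ZMod Ω) ℂ) {ω : ℂ} (hω : IsPrimitiveRoot ω p)
    (h1 : ∀ f ∈ F, ψ (piH d Ω (τ f - f)) = 1)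
    (h2 : ∀ f ∈ F, ∀ f' ∈ F, (f ∈ F₁ ↔ f' ∈ F₁) → ψ (piH d Ω (f - f')) = ω ^ (φ f - φ f').val) :
    ∃ (b : ℕ) (η : Lat d →+ ZMod (p ^ (b + 1))), (∀ f ∈ F, η (τ f - f) = 0) ∧
      ∀ f ∈ F, ∀ f' ∈ F, (f ∈ F₁ ↔ f' ∈ F₁) →
        η (f - f') = (p ^ b : ZMod (p ^ (b + 1))) * (((φ f - φ f').val : ℕ) : ZMod (p ^ (b + 1))) := by
  classical
  have hpp : p.Prime := Fact.out
  haveI : NeZero p := ⟨hpp.ne_zero⟩
  let χ : Lat d → ℂ := fun x => ψ (piH d Ω (-x))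
  have hχ0 : χ 0 = 1 := by
    simp [χ, AddChar.map_zero_eq_one]
  have hχ : χ ≠ 0 := by
    intro h
    have := congrFun h 0
    rw [hχ0] at this
    simp at this
  have hshift : ∀ v x, χ (x - v) = ψ (piH d Ω v) * χ x := by
    intro v x
    have e : -(x - v) = v + -x := by abel
    simp only [χ]
    rw [e, map_add, AddChar.map_add_eq_mul]
  set S : Set (Lat d) := {v : Lat d | (∃ f ∈ F, v = τ f - f) ∨
    ∃ f ∈ F, ∃ f' ∈ F, (f ∈ F₁ ↔ f' ∈ F₁) ∧ v = f - f'} with hS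
  obtain ⟨h, hh⟩ := hom_of_eigen p hω S χ hχ (by
    rintro v (⟨f, hf, rfl⟩ | ⟨f, hf, f', hf', hc, rfl⟩)
    · exact ⟨0, fun x => by rw [hshift, h1 f hf]; simp⟩
    · exact ⟨(φ f - φ f').val, fun x => by rw [hshift, h2 f hf f' hf' hc]⟩)
  have hval : ∀ ℓ : AddSubgroup.closure S, ψ (piH d Ω ℓ) = ω ^ (h ℓ).val := by
    intro ℓ
    have h3 := hh ℓ 0
    rw [hshift, hχ0, mul_one, mul_one] at h3
    exact h3
  obtain ⟨b, η, hη⟩ := exists_hom_extension p _ h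
  refine ⟨b, η, fun f hf => ?_, fun f hf f' hf' hc => ?_⟩
  · let ℓ : AddSubgroup.closure S := ⟨τ f - f, AddSubgroup.subset_closure (Or.inl ⟨f, hf, rfl⟩)⟩
    have h3 := hval ℓ
    have h4 : (ℓ : Lat d) = τ f - f := rfl
    rw [h4, h1 f hf] at h3
    have h5 : (h ℓ).val = 0 := by
      have h6 : ω ^ 0 = ω ^ (h ℓ).val := by rw [pow_zero]; exact h3
      exact (hω.pow_inj hpp.pos (ZMod.val_lt _) h6).symm
    have h7 := hη ℓ
    rw [h4, h5] at h7
    rw [h7]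
    simp
  · let ℓ : AddSubgroup.closure S :=
      ⟨f - f', AddSubgroup.subset_closure (Or.inr ⟨f, hf, f', hf', hc, rfl⟩)⟩
    have h3 := hval ℓ
    have h4 : (ℓ : Lat d) = f - f' := rfl
    rw [h4, h2 f hf f' hf' hc] at h3
    have h5 : (h ℓ).val = (φ f - φ f').val :=
      (hω.pow_inj (ZMod.val_lt _) (ZMod.val_lt _) h3).symm
    have h7 := hη ℓ
    rw [h4, h5] at h7
    exact h7

/-- If a character does not vanish on a piece with two transversals then it is nontrivial on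
some of the pairs of every involution. -/
lemma good_of_nonzero (p : ℕ) [Fact p.Prime] [NeZero Ω] (F : Finset (Lat d)) (hnp : ¬ HasPeriodicTiling F)
    {ω : ℂ} (hω : IsPrimitiveRoot ω p) (ψ : AddChar (Fin d → ZMod Ω) ℂ)
    (g : BF d) (hg : g ∈ SG p ω F) (hper : Per Ω g.1) (hne : fhat ψ g.1 ≠ 0)
    (g' : BF d) (hg' : g' ∈ SP F) :
    ∃ v, tau v • g' = -g' ∧ ψ (piH d Ω v) ≠ 1 := by
  classical
  obtain ⟨_, F₁, φ, hsub, hb1, hb2, hcl⟩ := hg
  obtain ⟨hg'0, τ, hτ⟩ := hg'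
  by_contra hcon
  push Not at hcon
  have h1 : ∀ f ∈ F, ψ (piH d Ω (τ f - f)) = 1 := fun f hf => hcon _ (hτ f hf).2.2.2
  have h2 : ∀ f ∈ F, ∀ f' ∈ F, (f ∈ F₁ ↔ f' ∈ F₁) → ψ (piH d Ω (f - f')) = ω ^ (φ f - φ f').val := by
    intro f hf f' hf' hc
    have e1 := fhat_shift ψ hper (f - f')
    have e2 : (fun x => g.1 (x - (f - f'))) = fun x => ω ^ (φ f - φ f').val * g.1 x :=
      funext (eigen_apply g _ _ (hcl f hf f' hf' hc))
    rw [e2, fhat_mul] at e1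
    exact (mul_right_cancel₀ hne e1).symm
  obtain ⟨a, ξ, hξ⟩ := exists_xi F τ g' hg'0 (fun f hf => (hτ f hf).2.2.2)
  obtain ⟨b, η, hη1, hη2⟩ := exists_eta p F F₁ φ τ ψ hω h1 h2
  exact hnp (periodic_of_pairs p F F₁ hsub φ hb1 hb2 τ (fun f hf => ⟨(hτ f hf).1, (hτ f hf).2.1, (hτ f hf).2.2.1⟩)
    a b ξ η hξ hη1 hη2)

lemma exists_annih [NeZero Ω] (F : Finset (Lat d)) (ψ : AddChar (Fin d → ZMod Ω) ℂ)
    (hgood : ∀ g ∈ SP F, ∃ v, tau v • g = -g ∧ ψ (piH d Ω v) ≠ 1) (w : BF d)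
    (hw : w ∈ AddSubmonoid.closure (SP F)) :
    ∃ l : List (Lat d), (∀ v ∈ l, ψ (piH d Ω v) ≠ 1) ∧ prodD l • w = 0 := by
  induction hw using AddSubmonoid.closure_induction with
  | mem g hg =>
    obtain ⟨v, hv, hv'⟩ := hgood g hg
    refine ⟨[v], by simpa using hv', ?_⟩
    simp only [prodD, mul_one]
    rw [add_smul, one_smul, hv, add_neg_cancel]
  | zero => exact ⟨[], by simp, smul_zero _⟩
  | add a b _ _ ha hb =>
    obtain ⟨l₁, h₁, h₁'⟩ := ha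
    obtain ⟨l₂, h₂, h₂'⟩ := hb
    refine ⟨l₁ ++ l₂, ?_, ?_⟩
    · intro v hv
      rcases List.mem_append.mp hv with hv | hv
      · exact h₁ v hv
      · exact h₂ v hv
    · have e1 : (prodD l₁ * prodD l₂) • a = 0 := by rw [mul_comm, mul_smul, h₁', smul_zero]
      have e2 : (prodD l₁ * prodD l₂) • b = 0 := by rw [mul_smul, h₂', smul_zero]
      rw [prodD_append, smul_add, e1, e2, add_zero]

lemma fhat_zero_closure [NeZero Ω] (p : ℕ) [Fact p.Prime] (ω : ℂ) (F : Finset (Lat d))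
    (ψ : AddChar (Fin d → ZMod Ω) ℂ) (h : ∀ g ∈ SG p ω F, fhat ψ g.1 = 0) (u : BF d)
    (hu : u ∈ AddSubmonoid.closure (SG p ω F)) : fhat ψ u.1 = 0 := by
  induction hu using AddSubmonoid.closure_induction with
  | mem g hg => exact h g hg
  | zero =>
    unfold fhat
    exact Finset.sum_eq_zero fun q _ => by rw [zero_apply, zero_mul]
  | add a b _ _ ha hb =>
    have : (a + b).1 = fun x => a.1 x + b.1 x := rfl
    rw [this, fhat_add, ha, hb, add_zero]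

/-- The complexified indicator. -/
noncomputable def aC (A : Set (Lat d)) : BF d :=
  ⟨fun x => ((ind A x : ℤ) : ℂ), ⟨1, fun x => by
    classical
    have h : ((ind A x : ℤ) : ℂ) = 1 ∨ ((ind A x : ℤ) : ℂ) = 0 := by
      unfold ind
      split_ifs <;> simp
    show ‖((ind A x : ℤ) : ℂ)‖ ≤ 1
    rcases h with h | h <;> rw [h] <;> simp⟩⟩

lemma aC_apply (A : Set (Lat d)) (x : Lat d) : (aC A).1 x = ((ind A x : ℤ) : ℂ) := rfl

/-- Main integrality statement. -/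
theorem integrality (p : ℕ) [Fact p.Prime] [NeZero Ω] (hΩ : Odd Ω) (F : Finset (Lat d))
    (hnp : ¬ HasPeriodicTiling F) {ω : ℂ} (hω : IsPrimitiveRoot ω p)
    (hper : ∀ g ∈ SG p ω F, Per Ω g.1) (A : Set (Lat d)) (Bz : Lat d → ℤ) (u w : BF d) (c : ℂ)
    (hu : u ∈ AddSubmonoid.closure (SG p ω F)) (hw : w ∈ AddSubmonoid.closure (SP F))
    (hBu : ∀ x, (Bz x : ℂ) = c + (u.1 x + u.1 x))
    (hBw : ∀ x, (Bz x : ℂ) = (aC A).1 x + (aC A).1 x - (w.1 x + w.1 x))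
    (ψ : AddChar (Fin d → ZMod Ω) ℂ) (hψ : ψ ≠ 1) :
    IsIntegral ℤ ((∑ q, ((Bz (liftQ q) : ℤ) : ℂ) * ψ q) / 2) := by
  classical
  have hsum : (∑ q, ((Bz (liftQ q) : ℤ) : ℂ) * ψ q) = fhat ψ fun x => (Bz x : ℂ) := rfl
  rw [hsum]
  by_cases hB : fhat ψ (fun x => (Bz x : ℂ)) = 0
  · rw [hB, zero_div]
    exact isIntegral_zero
  -- the part with two transversals
  have hB2 : fhat ψ (fun x => (Bz x : ℂ)) = fhat ψ u.1 + fhat ψ u.1 := by
    have e : (fun x => (Bz x : ℂ)) = fun x => (fun _ => c) x + (fun y => u.1 y + u.1 y) x :=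
      funext hBu
    rw [e, fhat_add, fhat_add, fhat_const hψ, zero_add]
  have hu0 : fhat ψ u.1 ≠ 0 := by
    intro h
    rw [hB2, h, add_zero] at hB
    exact hB rfl
  obtain ⟨g, hg, hg0⟩ : ∃ g ∈ SG p ω F, fhat ψ g.1 ≠ 0 := by
    by_contra hcon
    push Not at hcon
    exact hu0 (fhat_zero_closure p ω F ψ hcon u hu)
  have hgood := fun g' hg' => good_of_nonzero p F hnp hω ψ g hg (hper g hg) hg0 g' hg'
  obtain ⟨l, hl, hl'⟩ := exists_annih F ψ hgood w hw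
  -- the function
  set Bc : BF d := aC A + aC A - (w + w) with hBc
  have hBcv : ∀ x, Bc.1 x = (Bz x : ℂ) := by
    intro x
    rw [hBw x]
    rfl
  have hperB : Per Ω Bc.1 := by
    intro x z
    rw [hBcv, hBcv, hBu, hBu]
    have := per_closure p ω F Ω hper u hu x z
    rw [this]
  have h1 := fhat_prodD ψ l Bc hperB
  have h2 : Bc.1 = fun x => (Bz x : ℂ) := funext hBcv
  rw [h2] at h1
  obtain ⟨z, hz⟩ := intVal_prodD l (aC A) ⟨ind A, aC_apply A⟩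
  have h3 : (prodD l • Bc).1 = fun x => (z x : ℂ) + (z x : ℂ) := by
    rw [hBc, smul_sub, smul_add, smul_add, hl', add_zero, sub_zero]
    funext x
    rw [add_apply, hz]
  rw [h3, fhat_add] at h1
  have hY := prodY_ne_zero hΩ ψ l
  have h4 : fhat ψ (fun x => (Bz x : ℂ)) / 2 =
      (prodY (fun v => ψ (piH d Ω v)) l)⁻¹ * fhat ψ (fun x => (z x : ℂ)) := by
    field_simp
    linear_combination -h1
  rw [h4]
  exact (prodY_inv_int hΩ ψ l hl).mul (fhat_int hΩ.pos ψ z)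

end Vale.Agent.P043T
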