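import Mathlib

/-!
Abstract algebra of the decomposition of a solution of the dilated tile equations into pieces:
modules over the group algebra with ergodic projections.
-/

namespace Vale.Agent.P043T

open scoped BigOperators
open Finset

variable {G : Type*} [AddCommGroup G]

/-- The group algebra. -/
abbrev GA (G : Type*) [AddCommGroup G] := AddMonoidAlgebra ℂ G

/-- Translation as an element of the group algebra. -/
noncomputable def tau (v : G) : GA G := AddMonoidAlgebra.single v 1

lemma tau_zero : tau (0 : G) = 1 := rfl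

lemma tau_add (v w : G) : tau (v + w) = tau v * tau w := by
  simp [tau, AddMonoidAlgebra.single_mul_single]

lemma tau_neg_mul (v : G) : tau (-v) * tau v = 1 := by
  rw [← tau_add]; simp [tau_zero]

lemma tau_nsmul (n : ℕ) (v : G) : tau (n • v) = tau v ^ n := by
  induction n with
  | zero => simp [tau_zero]
  | succ n ih => rw [succ_nsmul, tau_add, ih, pow_succ]

variable {M : Type*} [AddCommGroup M] [Module (GA G) M]

/-- The system of equations from the dilates `1 + N t`, `t ≤ T`. -/
def Eqn (F : Finset G) (N T : ℕ) (k : M) : Prop :=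
  ∀ t ≤ T, ∑ f ∈ F, tau ((1 + N * t) • f) • k = 0

/-- Invariance of `k` under the translation by `N • (f - f')`. -/
def Rel (N : ℕ) (k : M) (f f' : G) : Prop := tau (N • (f - f')) • k = k

lemma rel_refl (N : ℕ) (k : M) (f : G) : Rel N k f f := by
  simp [Rel, tau_zero]

lemma rel_symm {N : ℕ} {k : M} {f f' : G} (h : Rel (G := G) N k f f') : Rel (G := G) N k f' f := by
  unfold Rel at *
  have e : f' - f = -(f - f') := by abel
  rw [e, smul_neg]
  calc tau (-(N • (f - f'))) • k = tau (-(N • (f - f'))) • (tau (N • (f - f')) • k) := by rw [h]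
    _ = k := by rw [smul_smul, tau_neg_mul, one_smul]

lemma rel_trans {N : ℕ} {k : M} {f f' f'' : G} (h : Rel (G := G) N k f f') (h' : Rel (G := G) N k f' f'') :
    Rel (G := G) N k f f'' := by
  unfold Rel at *
  have e : f - f'' = (f - f') + (f' - f'') := by abel
  rw [e, smul_add, tau_add, mul_smul, h', h]

/-- The setoid of a vector. -/
def relSetoid (N : ℕ) (k : M) : Setoid G where
  r := Rel N k
  iseqv := ⟨rel_refl N k, rel_symm, rel_trans⟩

open Classical in
/-- A leaf: a setoid such that inside a class the vector is invariant under `N`-fold differences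
and the sum of translates over each class vanishes. -/
def Leaf (F : Finset G) (N : ℕ) (k : M) : Prop :=
  ∃ s : Setoid G, (∀ f ∈ F, ∀ f' ∈ F, s.r f f' → Rel N k f f') ∧
    ∀ f₀ ∈ F, ∑ f ∈ F with s.r f f₀, tau f • k = 0

section elimination

open Classical

variable (F : Finset G) (N : ℕ)

/-- The product over a list. -/
noncomputable def prodL (X : GA G) (l : List G) : GA G :=
  (l.map fun c => X - tau (N • c)).prod

/-- Vandermonde elimination. -/
lemma elim (k : M) (l : List G) (t : ℕ) (T : ℕ) (hE : Eqn F N T k) (ht : t + l.length ≤ T) :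
    ∑ f ∈ F, (prodL N (tau (N • f)) l * tau ((N * t) • f) * tau f) • k = 0 := by
  induction l generalizing t with
  | nil =>
    have := hE t (by simpa using ht)
    simp only [prodL, List.map_nil, List.prod_nil, one_mul]
    rw [← this]
    refine Finset.sum_congr rfl fun f _ => ?_
    rw [← tau_add]
    congr 2
    rw [add_comm 1, add_nsmul, one_nsmul]
  | cons c l ih =>
    have h1 := ih (t + 1) (by simp at ht; omega)
    have h2 := ih t (by simp at ht; omega)
    have key : ∀ f ∈ F, (prodL N (tau (N • f)) (c :: l) * tau ((N * t) • f) * tau f) • k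
        = (prodL N (tau (N • f)) l * tau ((N * (t + 1)) • f) * tau f) • k
          - tau (N • c) • ((prodL N (tau (N • f)) l * tau ((N * t) • f) * tau f) • k) := by
      intro f _
      rw [← mul_smul, ← sub_smul]
      congr 1
      have : tau ((N * (t + 1)) • f) = tau (N • f) * tau ((N * t) • f) := by
        rw [← tau_add, ← add_nsmul]; congr 2; ring
      rw [this]
      simp only [prodL, List.map_cons, List.prod_cons]
      ring
    rw [Finset.sum_congr rfl key, Finset.sum_sub_distrib, ← Finset.smul_sum, h1, h2, smul_zero,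
      sub_zero]

/-- On `k` the element `X` may be replaced by `Y` if they act in the same way on `k`. -/
lemma prodL_congr (k : M) (X Y : GA G) (h : X • k = Y • k) (l : List G) :
    prodL N X l • k = prodL N Y l • k := by
  induction l with
  | nil => simp [prodL]
  | cons c l ih =>
    simp only [prodL, List.map_cons, List.prod_cons] at ih ⊢
    set AX := (List.map (fun c => X - tau (N • c)) l).prod
    set AY := (List.map (fun c => Y - tau (N • c)) l).prod
    calc ((X - tau (N • c)) * AX) • k = (X - tau (N • c)) • (AX • k) := by rw [mul_smul]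
      _ = (X - tau (N • c)) • (AY • k) := by rw [ih]
      _ = (AY * (X - tau (N • c))) • k := by rw [← mul_smul, mul_comm]
      _ = AY • (X • k - tau (N • c) • k) := by rw [mul_smul, sub_smul]
      _ = AY • (Y • k - tau (N • c) • k) := by rw [h]
      _ = ((Y - tau (N • c)) * AY) • k := by rw [mul_comm, mul_smul, sub_smul]

lemma prodL_eq_zero {X : GA G} {c : G} {l : List G} (hc : c ∈ l) (hX : X = tau (N • c)) :
    prodL N X l = 0 := by
  unfold prodL
  apply List.prod_eq_zero
  rw [List.mem_map]
  exact ⟨c, hc, by rw [hX, sub_self]⟩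

lemma tau_smul_of_rel {k : M} {f f₀ : G} (h : Rel (G := G) N k f f₀) :
    tau (N • f) • k = tau (N • f₀) • k := by
  have e : N • f = N • f₀ + N • (f - f₀) := by rw [← smul_add]; congr 1; abel
  rw [e, tau_add, mul_smul, h]

/-- Elimination of all other classes. -/
lemma block_annih (k : M) (T : ℕ) (hE : Eqn F N T k) (hT : F.card ≤ T) (f₀ : G) :
    prodL N (tau (N • f₀)) (F.filter fun f => ¬ Rel N k f f₀).toList •
      (∑ f ∈ F with Rel N k f f₀, tau f • k) = 0 := by
  set l := (F.filter fun f => ¬ Rel N k f f₀).toList with hl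
  have hlen : 0 + l.length ≤ T := by
    have : l.length = (F.filter fun f => ¬ Rel N k f f₀).card := by simp [hl]
    have h2 : (F.filter fun f => ¬ Rel N k f f₀).card ≤ F.card := Finset.card_filter_le _ _
    omega
  have h := elim F N k l 0 T hE hlen
  rw [Finset.smul_sum]
  rw [← h, Finset.sum_filter]
  refine Finset.sum_congr rfl fun f hf => ?_
  by_cases hr : Rel N k f f₀
  · rw [if_pos hr]
    have h3 : prodL N (tau (N • f)) l • k = prodL N (tau (N • f₀)) l • k :=
      prodL_congr N k _ _ (tau_smul_of_rel N hr) l
    have h4 : tau ((N * 0) • f) = (1 : GA G) := by simp [tau_zero]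
    rw [h4, mul_one, mul_comm, mul_smul, h3, smul_comm]
  · rw [if_neg hr]
    have hc : f ∈ l := by rw [hl, Finset.mem_toList, Finset.mem_filter]; exact ⟨hf, hr⟩
    rw [prodL_eq_zero N hc rfl]
    simp

/-- Factorisation of the product into a unit and the `V - 1` factors. -/
lemma prodL_factor (f₀ : G) (l : List G) :
    ∃ U U' : GA G, U' * U = 1 ∧
      prodL N (tau (N • f₀)) l = U * (l.map fun c => tau (N • (f₀ - c)) - 1).prod := by
  induction l with
  | nil => exact ⟨1, 1, by simp, by simp [prodL]⟩
  | cons c l ih =>
    obtain ⟨U, U', h1, h2⟩ := ih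
    refine ⟨tau (N • c) * U, tau (-(N • c)) * U', ?_, ?_⟩
    · calc tau (-(N • c)) * U' * (tau (N • c) * U)
          = (tau (-(N • c)) * tau (N • c)) * (U' * U) := by ring
        _ = 1 := by rw [tau_neg_mul, h1, one_mul]
    · simp only [prodL, List.map_cons, List.prod_cons] at h2 ⊢
      rw [h2]
      have : tau (N • f₀) = tau (N • c) * tau (N • (f₀ - c)) := by
        rw [← tau_add, ← smul_add]; congr 2; abel
      rw [this]
      ring

variable (P : G → M →ₗ[GA G] M)

/-- The vector of a pair. -/
def vv (e : G × G) : G := N • (e.1 - e.2)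

/-- Iterated complementary projections. -/
noncomputable def Rl : List (G × G) → (M →ₗ[GA G] M)
  | [] => LinearMap.id
  | e :: l => (Rl l).comp (LinearMap.id - P (vv N e))

lemma peel (hP2 : ∀ (v : G) (m : M), tau v • m = m → P v m = m) (l : List (G × G)) (g : M)
    (D : Finset (G × G)) (hD : ∀ e ∈ D, e ∈ l)
    (h : (∏ e ∈ D, (tau (vv N e) - 1)) • g = 0) : Rl N P l g = 0 := by
  induction l generalizing g D with
  | nil =>
    have : D = ∅ := by
      apply Finset.eq_empty_of_forall_notMem
      intro e he
      simpa using hD e he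
    subst this
    simpa [Rl] using h
  | cons e l ih =>
    simp only [Rl, LinearMap.comp_apply, LinearMap.sub_apply, LinearMap.id_apply]
    by_cases he : e ∈ D
    · apply ih (g - P (vv N e) g) (D.erase e)
      · intro e' he'
        rw [Finset.mem_erase] at he'
        rcases List.mem_cons.mp (hD e' he'.2) with h1 | h1
        · exact absurd h1 he'.1
        · exact h1
      · set b := (∏ e' ∈ D.erase e, (tau (vv N e') - 1)) • g with hb
        have h1 : (tau (vv N e) - 1) • b = 0 := by
          rw [hb, ← mul_smul, Finset.mul_prod_erase D (fun e' => tau (vv N e') - 1) he]; exact h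
        have h2 : tau (vv N e) • b = b := by
          rw [sub_smul, one_smul, sub_eq_zero] at h1; exact h1
        have h3 := hP2 _ _ h2
        rw [smul_sub, ← map_smul, ← hb, h3, sub_self]
    · apply ih (g - P (vv N e) g) D
      · intro e' he'
        rcases List.mem_cons.mp (hD e' he') with h1 | h1
        · exact absurd (h1 ▸ he') he
        · exact h1
      · rw [smul_sub, ← map_smul, h, map_zero, sub_zero]

lemma split_list (S : AddSubmonoid M) (pred : M → Prop)
    (hpred : ∀ (L : M →ₗ[GA G] M) (m : M), pred m → pred (L m)) (l : List (G × G))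
    (hl : ∀ e ∈ l, ∀ m, pred m → P (vv N e) m ∈ S) (k : M) (hk : pred k) :
    ∃ s ∈ S, k = s + Rl N P l k := by
  induction l generalizing k with
  | nil => exact ⟨0, S.zero_mem, by simp [Rl]⟩
  | cons e l ih =>
    have h1 := hl e (List.mem_cons_self) k hk
    have hk' : pred (k - P (vv N e) k) := hpred (LinearMap.id - P (vv N e)) k hk
    obtain ⟨s, hs, h2⟩ := ih (fun e' he' => hl e' (List.mem_cons_of_mem _ he')) _ hk'
    refine ⟨P (vv N e) k + s, S.add_mem h1 hs, ?_⟩
    simp only [Rl, LinearMap.comp_apply, LinearMap.sub_apply, LinearMap.id_apply]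
    rw [add_assoc, ← h2]
    abel

/-- The decomposition into leaves. -/
theorem leaf_decomp (F : Finset G) (N T : ℕ) (hT : F.card ≤ T)
    (hP1 : ∀ (v : G) (m : M), tau v • P v m = P v m) (hP2 : ∀ (v : G) (m : M), tau v • m = m → P v m = m)
    (k : M) (hk : Eqn F N T k) :
    k ∈ AddSubmonoid.closure {k' : M | Eqn F N T k' ∧ Leaf F N k'} := by
  set S := AddSubmonoid.closure {k' : M | Eqn F N T k' ∧ Leaf F N k'} with hS
  -- the measure
  let μ : M → ℕ := fun k => ((F ×ˢ F).filter fun e => ¬ Rel N k e.1 e.2).card
  suffices H : ∀ n, ∀ k : M, μ k = n → Eqn F N T k → k ∈ S from H _ k rfl hk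
  intro n
  induction n using Nat.strong_induction_on with
  | _ n IH =>
    intro k hμ hk
    let pred : M → Prop := fun m => (∀ v : G, tau v • k = k → tau v • m = m) ∧ Eqn F N T m
    have hpred : ∀ (L : M →ₗ[GA G] M) (m : M), pred m → pred (L m) := by
      intro L m hm
      refine ⟨fun v hv => ?_, fun t ht => ?_⟩
      · rw [← map_smul, hm.1 v hv]
      · have := hm.2 t ht
        simp only [← map_smul]
        rw [← map_sum, this, map_zero]
    set l := ((F ×ˢ F).filter fun e => ¬ Rel N k e.1 e.2).toList with hl
    have hmeml : ∀ e, e ∈ l ↔ e ∈ F ×ˢ F ∧ ¬ Rel N k e.1 e.2 := by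
      intro e; rw [hl, Finset.mem_toList, Finset.mem_filter]
    have hpiece : ∀ e ∈ l, ∀ m, pred m → P (vv N e) m ∈ S := by
      intro e he m hm
      have hp := hpred (P (vv N e)) m hm
      have hlt : μ (P (vv N e) m) < n := by
        rw [← hμ]
        apply Finset.card_lt_card
        rw [Finset.ssubset_iff_of_subset]
        · refine ⟨e, (Finset.mem_filter.mpr ⟨((hmeml e).mp he).1, ((hmeml e).mp he).2⟩), ?_⟩
          intro hcon
          exact (Finset.mem_filter.mp hcon).2 (hP1 _ _)
        · intro e' he'
          rw [Finset.mem_filter] at he' ⊢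
          refine ⟨he'.1, fun hr => he'.2 ?_⟩
          exact hp.1 _ hr
      exact IH _ hlt _ rfl hp.2
    obtain ⟨s, hs, hsplit⟩ := split_list N P S pred hpred l hpiece k ⟨fun _ h => h, hk⟩
    rw [hsplit]
    refine S.add_mem hs (AddSubmonoid.subset_closure ?_)
    refine ⟨(hpred (Rl N P l) k ⟨fun _ h => h, hk⟩).2, relSetoid N k, ?_, ?_⟩
    · intro f _ f' _ hr
      exact (hpred (Rl N P l) k ⟨fun _ h => h, hk⟩).1 _ hr
    · intro f₀ hf₀
      have hsum : (∑ f ∈ F with (relSetoid (G := G) N k).r f f₀, tau f • (Rl N P l k))
          = Rl N P l (∑ f ∈ F with Rel N k f f₀, tau f • k) := by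
        rw [map_sum]
        refine Finset.sum_congr ?_ fun f _ => (map_smul _ _ _).symm
        rfl
      rw [hsum]
      have hann := block_annih F N k T hk hT f₀
      obtain ⟨U, U', hU, hfac⟩ := prodL_factor N f₀ (F.filter fun f => ¬ Rel N k f f₀).toList
      rw [hfac, mul_smul] at hann
      have hann2 : ((List.map (fun c => tau (N • (f₀ - c)) - 1)
          (F.filter fun f => ¬ Rel N k f f₀).toList).prod) •
            (∑ f ∈ F with Rel N k f f₀, tau f • k) = 0 := by
        have h9 : (U' * U) • (((List.map (fun c => tau (N • (f₀ - c)) - 1)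
            (F.filter fun f => ¬ Rel N k f f₀).toList).prod) •
              (∑ f ∈ F with Rel N k f f₀, tau f • k)) = 0 := by
          rw [mul_smul, hann, smul_zero]
        rwa [hU, one_smul] at h9
      apply peel N P hP2 l _ ((F.filter fun f => ¬ Rel N k f f₀).image fun c => (f₀, c))
      · intro e he
        rw [Finset.mem_image] at he
        obtain ⟨c, hc, rfl⟩ := he
        rw [Finset.mem_filter] at hc
        rw [hmeml]
        refine ⟨Finset.mem_product.mpr ⟨hf₀, hc.1⟩, fun hr => hc.2 (rel_symm hr)⟩
      · rw [Finset.prod_image (by intro a _ b _ h; simpa using h)]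
        convert hann2 using 2
        rw [← Finset.prod_map_toList]
        rfl

end elimination

end Vale.Agent.P043T
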