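import Vale.Agent.P043T.Integrality

/-!
Assembly: a tile of size twice an odd prime, whose differences generate the lattice,
has a periodic tiling.
-/

namespace Vale.Agent.P043T

open scoped BigOperators
open Finset

variable {d : ℕ}

lemma dilTile_of_isTiling {G : Type*} [AddCommGroup G] (A : Set G) (F : Finset G) (h : IsTiling A F) :
    DilTile A F 1 := by
  classical
  intro x
  obtain ⟨⟨a, f⟩, ⟨ha, hf, hx⟩, hu⟩ := h x
  simp only at ha hf hx
  rw [Finset.sum_eq_single f]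
  · have : x - 1 • f = a := by rw [← hx]; simp
    rw [this]
    simp [ind, ha]
  · intro b hb hbf
    have h1 : x - b ∉ A := by
      intro h2
      have h3 := hu (x - b, b) ⟨h2, hb, by simp⟩
      exact hbf (congrArg Prod.snd h3)
    simp [ind, h1]
  · intro hf'
    exact absurd hf hf'

lemma final_count (p Ω : ℕ) (hp3 : 3 ≤ p) [NeZero Ω] (hΩ : Odd Ω) (F : Finset (Lat d))
    (hF : F.card = 2 * p) (Bz : Lat d → ℤ) (hnn : ∀ x, 0 ≤ Bz x) (hper : Per Ω Bz)
    (hsum : ∀ x, ∑ f ∈ F, Bz (x - f) = 2)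
    (hpar : ∀ q q' : Fin d → ZMod Ω, (2 : ℤ) ∣ Bz (liftQ q) - Bz (liftQ q')) : False := by
  classical
  set S : ℤ := ∑ q : Fin d → ZMod Ω, Bz (liftQ q) with hS
  set n : ℕ := Fintype.card (Fin d → ZMod Ω) with hn
  have hnodd : Odd n := by
    rw [hn]
    simp only [Fintype.card_pi, Finset.prod_const, ZMod.card, Finset.card_univ, Fintype.card_fin]
    exact hΩ.pow
  have h1 : ∑ q : Fin d → ZMod Ω, ∑ f ∈ F, Bz (liftQ q - f) = 2 * (n : ℤ) := by
    rw [Finset.sum_congr rfl fun q _ => hsum (liftQ q)]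
    simp [hn, mul_comm]
  have h2 : ∑ q : Fin d → ZMod Ω, ∑ f ∈ F, Bz (liftQ q - f) = 2 * (p : ℤ) * S := by
    rw [Finset.sum_comm, Finset.sum_congr rfl fun f _ => sum_shift hper f]
    simp [hF, hS, Finset.sum_const]
  have h3 : (p : ℤ) * S = n := by
    have : 2 * ((p : ℤ) * S) = 2 * (n : ℤ) := by rw [← h1, h2]; ring
    omega
  have hcase := Int.even_or_odd (Bz (liftQ (0 : Fin d → ZMod Ω)))
  rcases hcase with h4 | h4
  · have h5 : (2 : ℤ) ∣ S := by
      refine Finset.dvd_sum fun q _ => ?_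
      have h6 := hpar q 0
      have h7 : (2 : ℤ) ∣ Bz (liftQ (0 : Fin d → ZMod Ω)) := even_iff_two_dvd.mp h4
      have e : Bz (liftQ q) = (Bz (liftQ q) - Bz (liftQ (0 : Fin d → ZMod Ω))) + Bz (liftQ (0 : Fin d → ZMod Ω)) := by ring
      rw [e]
      exact dvd_add h6 h7
    have h6 : (2 : ℤ) ∣ (n : ℤ) := by
      rw [← h3]
      exact Dvd.dvd.mul_left h5 _
    have h7 : 2 ∣ n := by exact_mod_cast h6
    obtain ⟨m, hm⟩ := hnodd
    omega
  · have h5 : ∀ q : Fin d → ZMod Ω, 1 ≤ Bz (liftQ q) := by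
      intro q
      have h6 := hpar q 0
      have h7 := hnn (liftQ q)
      obtain ⟨m, hm⟩ := h4
      obtain ⟨m', hm'⟩ := h6
      omega
    have h6 : (n : ℤ) ≤ S := by
      calc (n : ℤ) = ∑ _q : Fin d → ZMod Ω, (1 : ℤ) := by simp [hn]
        _ ≤ S := Finset.sum_le_sum fun q _ => h5 q
    have hnpos : 0 < n := hnodd.pos
    have h7 : (3 : ℤ) * n ≤ (p : ℤ) * S := by
      have h8 : (3 : ℤ) ≤ p := by exact_mod_cast hp3
      have h9 : (0 : ℤ) ≤ n := by positivity
      nlinarith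
    have h8 : (0 : ℤ) < n := by exact_mod_cast hnpos
    omega

lemma frob_dvd (p : ℕ) [Fact p.Prime] (F : Finset (Lat d)) (hF : F.card = 2 * p) (A : Set (Lat d))
    (r k : ℕ) (hA : DilTile A F r) (hk : 0 < k) (x : Lat d) :
    (p : ℤ) ∣ ∑ f ∈ F, ind A (x - (p ^ k * r) • f) := by
  have hpp : p.Prime := Fact.out
  have h1 := frobenius_sum F (fun f => r • f) (ind A) 1 hA p k x
  have h2 : 0 < p ^ k - 1 := by
    have : 2 ≤ p ^ k := by
      calc 2 ≤ p := hpp.two_le
        _ = p ^ 1 := (pow_one p).symm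
        _ ≤ p ^ k := Nat.pow_le_pow_right hpp.pos hk
    omega
  have h3 : (p : ℤ) ∣ 1 * ((F.card : ℤ)) ^ (p ^ k - 1) := by
    rw [one_mul, hF]
    apply dvd_pow _ (by omega)
    push_cast
    exact Dvd.intro_left _ rfl
  have h4 : ∑ f ∈ F, ind A (x - (p ^ k * r) • f) = ∑ f ∈ F, ind A (x - p ^ k • r • f) := by
    refine Finset.sum_congr rfl fun f _ => ?_
    rw [mul_smul]
  rw [h4]
  exact (Int.ModEq.dvd_iff h1).mpr h3

/-- The constant function. -/
noncomputable def constC (c : ℂ) : BF d := ⟨fun _ => c, ⟨‖c‖, fun _ => le_refl _⟩⟩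

/-- The main theorem for tilings with dilates, in the form with generating differences. -/
theorem periodic_gen (p : ℕ) [Fact p.Prime] (hp : p ≠ 2) (F : Finset (Lat d)) (hF : F.card = 2 * p)
    (hgen : AddSubgroup.closure {v : Lat d | ∃ f ∈ F, ∃ f' ∈ F, v = f - f'} = ⊤)
    (A : Set (Lat d)) (hA : DilTile A F 1) : HasPeriodicTiling F := by
  classical
  by_contra hnp
  have hpp : p.Prime := Fact.out
  have hp3 : 3 ≤ p := by
    have := hpp.two_le
    omega
  have hpodd : Odd p := hpp.odd_of_ne_two hp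
  have hppos : 0 < p := hpp.pos
  obtain ⟨M, hMo, hM⟩ := exists_M F
  set Ω := p * M with hΩdef
  have hΩodd : Odd Ω := hpodd.mul hMo
  have hΩ0 : Ω ≠ 0 := hΩodd.pos.ne'
  haveI : NeZero Ω := ⟨hΩ0⟩
  obtain ⟨k, Ω₀, hΩ₀, hk⟩ := Nat.exists_eq_pow_mul_and_not_dvd hΩ0 p hpp.ne_one
  have hkpos : 0 < k := by
    rcases Nat.eq_zero_or_pos k with h0 | h0
    · exfalso
      apply hΩ₀
      rw [h0, pow_zero, one_mul] at hk
      rw [← hk]
      exact Dvd.intro _ rfl
    · exact h0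
  have hΩ₀odd : Odd Ω₀ := by
    rw [hk] at hΩodd
    exact (Nat.odd_mul.mp hΩodd).2
  have hΩ₀pos : 0 < Ω₀ := hΩ₀odd.pos
  have hΩ₀co : Nat.Coprime Ω₀ F.card := by
    rw [hF]
    apply Nat.Coprime.mul_right
    · exact Nat.coprime_two_right.mpr hΩ₀odd
    · exact ((Nat.Prime.coprime_iff_not_dvd hpp).mpr hΩ₀).symm
  obtain ⟨A', h1, hR⟩ := exists_dilTile F A hA
    ((range (2 * p + 1)).image (fun t => 1 + 2 * p * t) ∪ {Ω₀}) (by
      intro r hr
      rw [Finset.mem_union, Finset.mem_image, Finset.mem_singleton] at hr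
      rcases hr with ⟨t, _, rfl⟩ | rfl
      · refine ⟨by omega, ?_⟩
        rw [hF]
        simp
      · exact ⟨hΩ₀pos, hΩ₀co⟩)
  have hr : ∀ t ≤ 2 * p, DilTile A' F (1 + 2 * p * t) := by
    intro t ht
    apply hR
    rw [Finset.mem_union, Finset.mem_image]
    left
    exact ⟨t, Finset.mem_range.mpr (by omega), rfl⟩
  have hΩ₀t : DilTile A' F Ω₀ := by
    apply hR
    rw [Finset.mem_union]
    right
    exact Finset.mem_singleton_self _
  -- roots of unity
  have h2p : 2 * p ≠ 0 := by omega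
  have hζ : IsPrimitiveRoot (Complex.exp (2 * Real.pi * Complex.I / ((2 * p : ℕ) : ℂ))) (2 * p) :=
    Complex.isPrimitiveRoot_exp (2 * p) h2p
  set ζ := Complex.exp (2 * Real.pi * Complex.I / ((2 * p : ℕ) : ℂ)) with hζdef
  have hω : IsPrimitiveRoot (ζ ^ 2) p := hζ.pow (by omega) rfl
  set ω := ζ ^ 2 with hωdef
  -- the function and its decomposition
  set c : ℂ := ((2 * p : ℕ) : ℂ)⁻¹ with hc
  have hc1 : ((2 * p : ℕ) : ℂ) * c = 1 := by
    rw [hc]
    exact mul_inv_cancel₀ (by exact_mod_cast h2p)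
  have hcard : ((F.card : ℕ) : ℂ) = ((2 * p : ℕ) : ℂ) := by rw [hF]
  set k0 : BF d := aC A' - constC c with hk0
  have hk0v : ∀ x, k0.1 x = ((ind A' x : ℤ) : ℂ) - c := fun x => rfl
  have hEq : Eqn F (2 * p) (2 * p) k0 := by
    intro t ht
    apply BF_ext
    intro x
    rw [sum_tau_apply, zero_apply]
    simp only [hk0v]
    rw [Finset.sum_sub_distrib, Finset.sum_const, nsmul_eq_mul, hcard, hc1]
    have h3 := hr t ht x
    have h4 : ∑ f ∈ F, ((ind A' (x - (1 + 2 * p * t) • f) : ℤ) : ℂ) = 1 := by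
      have := congrArg (fun z : ℤ => (z : ℂ)) h3
      simpa using this
    rw [h4, sub_self]
  obtain ⟨u, w, hu, hw, hkuw⟩ := exists_pieces p hp F hF hζ k0 hEq
  have hper : ∀ g ∈ SG p ω F, Per Ω g.1 := fun g hg => per_of_typeG p F hgen hnp hω M hM g hg
  have huper := per_closure p ω F Ω hper u hu
  have hkv : ∀ y, ((ind A' y : ℤ) : ℂ) - c = u.1 y + w.1 y := by
    intro y
    rw [← hk0v, hkuw]
    rfl
  -- the integer function
  have hdvd : ∀ x, (p : ℤ) ∣ ∑ f ∈ F, ind A' (x - Ω • f) := by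
    intro x
    rw [hk]
    exact frob_dvd p F hF A' Ω₀ k hΩ₀t hkpos x
  choose Bz hBz using hdvd
  have hpC : (p : ℂ) ≠ 0 := by exact_mod_cast hppos.ne'
  have hLam : ∀ x, (p : ℂ) * (Bz x : ℂ) - 1 = ((2 * p : ℕ) : ℂ) * u.1 x := by
    intro x
    have h3 : ∑ f ∈ F, (((ind A' (x - Ω • f) : ℤ) : ℂ) - c) = (p : ℂ) * (Bz x : ℂ) - 1 := by
      rw [Finset.sum_sub_distrib, Finset.sum_const, nsmul_eq_mul, hcard, hc1]
      have h4 := congrArg (fun z : ℤ => (z : ℂ)) (hBz x)
      simp only [Int.cast_sum, Int.cast_mul, Int.cast_natCast] at h4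
      rw [h4]
    have h4 : ∑ f ∈ F, (((ind A' (x - Ω • f) : ℤ) : ℂ) - c) = ((2 * p : ℕ) : ℂ) * u.1 x := by
      rw [Finset.sum_congr rfl fun f _ => hkv (x - Ω • f), Finset.sum_add_distrib,
        lambda_P F Ω hΩodd w hw x, add_zero, Finset.sum_congr rfl fun f _ => huper x f,
        Finset.sum_const, nsmul_eq_mul, hcard]
    rw [← h3, h4]
  have hBu : ∀ x, (Bz x : ℂ) = (p : ℂ)⁻¹ + (u.1 x + u.1 x) := by
    intro x
    have h3 := hLam x
    push_cast at h3
    field_simp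
    linear_combination h3
  have hc2 : c + c = (p : ℂ)⁻¹ := by
    rw [hc]
    push_cast
    field_simp
    norm_num
  have hBw : ∀ x, (Bz x : ℂ) = (aC A').1 x + (aC A').1 x - (w.1 x + w.1 x) := by
    intro x
    rw [hBu, aC_apply, ← hc2]
    linear_combination (-2 : ℂ) * hkv x
  have hparity := parity_const hΩodd (fun q => Bz (liftQ q)) (fun ψ hψ =>
    integrality p hΩodd F hnp hω hper A' Bz u w _ hu hw hBu hBw ψ hψ)
  have hperz : Per Ω Bz := by
    intro x z
    have h3 : ((Bz (x - Ω • z) : ℤ) : ℂ) = (Bz x : ℂ) := by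
      rw [hBu, hBu, huper x z]
    exact_mod_cast h3
  have hnn : ∀ x, 0 ≤ Bz x := by
    intro x
    have h3 : 0 ≤ ∑ f ∈ F, ind A' (x - Ω • f) := Finset.sum_nonneg fun _ _ => ind_nonneg _ _
    rw [hBz x] at h3
    have h4 : (0 : ℤ) < p := by exact_mod_cast hppos
    exact nonneg_of_mul_nonneg_right h3 h4
  have hsum : ∀ x, ∑ f ∈ F, Bz (x - f) = 2 := by
    intro x
    have h3 : (p : ℤ) * ∑ f ∈ F, Bz (x - f) = 2 * p := by
      rw [Finset.mul_sum, Finset.sum_congr rfl fun f _ => (hBz (x - f)).symm, Finset.sum_comm]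
      have h4 : ∀ f' ∈ F, ∑ f ∈ F, ind A' (x - f - Ω • f') = 1 := by
        intro f' _
        have h5 := h1 (x - Ω • f')
        rw [← h5]
        refine Finset.sum_congr rfl fun f _ => ?_
        congr 1
        rw [one_smul]
        abel
      rw [Finset.sum_congr rfl h4, Finset.sum_const, hF]
      simp
    have h4 : (p : ℤ) ≠ 0 := by exact_mod_cast hppos.ne'
    have h5 : (p : ℤ) * ∑ f ∈ F, Bz (x - f) = (p : ℤ) * 2 := by rw [h3]; ring
    exact mul_left_cancel₀ h4 h5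
  exact final_count p Ω hp3 hΩodd F hF Bz hnn hperz hsum hparity

/-- The main theorem, in the form with generating differences. -/
theorem periodic_of_tile (p : ℕ) [Fact p.Prime] (hp : p ≠ 2) (F : Finset (Lat d)) (hF : F.card = 2 * p)
    (hgen : AddSubgroup.closure {v : Lat d | ∃ f ∈ F, ∃ f' ∈ F, v = f - f'} = ⊤)
    (hA : ∃ A, IsTiling A F) : HasPeriodicTiling F := by
  obtain ⟨A, hA⟩ := hA
  exact periodic_gen p hp F hF hgen A (dilTile_of_isTiling A F hA)

end Vale.Agent.P043T
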