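import Vale.Agent.P043T.Digits

/-!
The case of two transversals whose difference has no odd multiple in the lattice of inner differences.
-/

namespace Vale.Agent.P043T

open scoped BigOperators
open Finset

/-- The subgroup generated by differences inside the two classes of a splitting of `F`. -/
def splitLattice {d : ℕ} (F F₁ : Finset (Lat d)) : AddSubgroup (Lat d) :=
  AddSubgroup.closure {v | ∃ f ∈ F, ∃ f' ∈ F, (f ∈ F₁ ↔ f' ∈ F₁) ∧ v = f - f'}

/-- Some odd multiple of every difference across the two classes lies in the split lattice. -/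
def OddIndex {d : ℕ} (F F₁ : Finset (Lat d)) : Prop :=
  ∃ m : ℕ, Odd m ∧ ∀ f₁ ∈ F₁, ∀ f₂ ∈ F, f₂ ∉ F₁ → m • (f₂ - f₁) ∈ splitLattice F F₁

lemma z2_one_add : (1 : ZMod (2 ^ (0 + 1))) + 1 = 0 := by decide
lemma z2_zero_add : (0 : ZMod (2 ^ (0 + 1))) + 0 = 0 := by decide
lemma low_zero : low 2 0 (0 : ZMod (2 ^ (0 + 1))) := by unfold low; decide
lemma not_low_one : ¬ low 2 0 (1 : ZMod (2 ^ (0 + 1))) := by unfold low; decide

theorem periodic_of_not_oddIndex {d : ℕ} (F F₁ : Finset (Lat d))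
    (hgen : AddSubgroup.closure {v : Lat d | ∃ f ∈ F, ∃ f' ∈ F, v = f - f'} = ⊤)
    (p : ℕ) [Fact p.Prime] (hsub : F₁ ⊆ F) (ψ : Lat d → ZMod p)
    (hb1 : Set.BijOn ψ F₁ Set.univ)
    (hb2 : Set.BijOn ψ ((F : Set (Lat d)) \ (F₁ : Set (Lat d))) Set.univ)
    (h : splitLattice F F₁ →+ ZMod p)
    (hh : ∀ f ∈ F, ∀ f' ∈ F, (f ∈ F₁ ↔ f' ∈ F₁) → ∀ ℓ : splitLattice F F₁,
      (ℓ : Lat d) = f - f' → h ℓ = ψ f - ψ f')
    (hodd : ¬ OddIndex F F₁) : HasPeriodicTiling F := by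
  classical
  have hp : p.Prime := Fact.out
  haveI : NeZero p := ⟨hp.ne_zero⟩
  let L := splitLattice F F₁
  have hmemL : ∀ f ∈ F, ∀ f' ∈ F, (f ∈ F₁ ↔ f' ∈ F₁) → f - f' ∈ L := fun f hf f' hf' hc =>
    AddSubgroup.subset_closure ⟨f, hf, f', hf', hc, rfl⟩
  obtain ⟨f₁, hf₁, -⟩ := hb1.surjOn (Set.mem_univ (0 : ZMod p))
  obtain ⟨f₂, ⟨hf₂F, hf₂⟩, -⟩ := hb2.surjOn (Set.mem_univ (0 : ZMod p))
  have hf₁' : f₁ ∈ F₁ := hf₁
  have hf₂' : f₂ ∉ F₁ := hf₂
  have hf₁F : f₁ ∈ F := hsub hf₁'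
  have hf₂F' : f₂ ∈ F := hf₂F
  set v := f₂ - f₁ with hv
  have hnoodd : ∀ m : ℕ, Odd m → m • v ∉ L := by
    intro m hm hcon
    apply hodd
    refine ⟨m, hm, fun g₁ hg₁ g₂ hg₂ hg₂' => ?_⟩
    have e : m • (g₂ - g₁) = m • v + m • (g₂ - f₂) - m • (g₁ - f₁) := by
      rw [hv, ← smul_add, ← smul_sub]; congr 1; abel
    rw [e]
    refine L.sub_mem (L.add_mem hcon (L.nsmul_mem (hmemL _ hg₂ _ hf₂F' ?_) m))
      (L.nsmul_mem (hmemL _ (hsub hg₁) _ hf₁F ?_) m)
    · tauto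
    · tauto
  have hspan : ∀ x : Lat d, ∃ ℓ ∈ L, ∃ k : ℤ, x = ℓ + k • v := by
    intro x
    have hx : x ∈ AddSubgroup.closure {v : Lat d | ∃ f ∈ F, ∃ f' ∈ F, v = f - f'} := by
      rw [hgen]; exact AddSubgroup.mem_top x
    induction hx using AddSubgroup.closure_induction with
    | mem y hy =>
      obtain ⟨f, hf, f', hf', rfl⟩ := hy
      by_cases h1 : f ∈ F₁ <;> by_cases h2 : f' ∈ F₁
      · exact ⟨_, hmemL f hf f' hf' (by tauto), 0, by simp⟩
      · refine ⟨(f - f₁) - (f' - f₂), L.sub_mem (hmemL f hf f₁ hf₁F (by tauto))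
          (hmemL f' hf' f₂ hf₂F' (by tauto)), -1, ?_⟩
        rw [hv]; simp only [neg_smul, one_smul]; abel
      · refine ⟨(f - f₂) - (f' - f₁), L.sub_mem (hmemL f hf f₂ hf₂F' (by tauto))
          (hmemL f' hf' f₁ hf₁F (by tauto)), 1, ?_⟩
        rw [hv]; simp only [one_smul]; abel
      · exact ⟨_, hmemL f hf f' hf' (by tauto), 0, by simp⟩
    | zero => exact ⟨0, L.zero_mem, 0, by simp⟩
    | add a b _ _ ha hb =>
      obtain ⟨ℓ₁, h1, k₁, rfl⟩ := ha
      obtain ⟨ℓ₂, h2, k₂, rfl⟩ := hb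
      exact ⟨ℓ₁ + ℓ₂, L.add_mem h1 h2, k₁ + k₂, by rw [add_smul]; abel⟩
    | neg a _ ha =>
      obtain ⟨ℓ₁, h1, k₁, rfl⟩ := ha
      exact ⟨-ℓ₁, L.neg_mem h1, -k₁, by rw [neg_smul]; abel⟩
  set K : AddSubgroup (Lat d) := L ⊔ AddSubgroup.zmultiples ((2 : ℤ) • v) with hK
  have hLK : ∀ y ∈ L, y ∈ K := fun y hy => (le_sup_left : L ≤ K) hy
  have hvK : v ∉ K := by
    intro hcon
    obtain ⟨y, hy, z, hz, hyz⟩ := AddSubgroup.mem_sup.mp hcon
    obtain ⟨j, rfl⟩ := AddSubgroup.mem_zmultiples_iff.mp hz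
    have e : (1 - 2 * j) • v = y := by
      rw [eq_sub_of_add_eq hyz]; module
    have hodd1 : Odd (1 - 2 * j).natAbs := by
      rw [Int.natAbs_odd]
      exact ⟨-j, by ring⟩
    apply hnoodd _ hodd1
    rcases Int.natAbs_eq (1 - 2 * j) with h1 | h1
    · have : ((1 - 2 * j).natAbs) • v = y := by
        calc ((1 - 2 * j).natAbs) • v = (((1 - 2 * j).natAbs : ℤ)) • v := (natCast_zsmul v _).symm
          _ = (1 - 2 * j) • v := by rw [← h1]
          _ = y := e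
      rw [this]; exact hy
    · have : ((1 - 2 * j).natAbs) • v = -y := by
        have h2 : ((1 - 2 * j).natAbs : ℤ) = -(1 - 2 * j) := by omega
        calc ((1 - 2 * j).natAbs) • v = (((1 - 2 * j).natAbs : ℤ)) • v := (natCast_zsmul v _).symm
          _ = -((1 - 2 * j) • v) := by rw [h2, neg_smul]
          _ = -y := by rw [e]
      rw [this]; exact L.neg_mem hy
  have hKstep : ∀ x, x ∉ K → x - v ∈ K := by
    intro x hx
    obtain ⟨ℓ, hℓ, k, rfl⟩ := hspan x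
    rcases Int.even_or_odd' k with ⟨j, rfl | rfl⟩
    · exfalso
      apply hx
      refine AddSubgroup.mem_sup.mpr ⟨ℓ, hℓ, j • ((2 : ℤ) • v), AddSubgroup.zsmul_mem _ (AddSubgroup.mem_zmultiples _) _, ?_⟩
      module
    · refine AddSubgroup.mem_sup.mpr ⟨ℓ, hℓ, j • ((2 : ℤ) • v), AddSubgroup.zsmul_mem _ (AddSubgroup.mem_zmultiples _) _, ?_⟩
      module
  let ξ : Lat d →+ ZMod (2 ^ (0 + 1)) := AddMonoidHom.mk'
    (fun x => if x ∈ K then 0 else 1) (by
      intro x y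
      by_cases hx : x ∈ K <;> by_cases hy : y ∈ K
      · simp [hx, hy, K.add_mem hx hy]
      · have : x + y ∉ K := fun hc => hy (by
          have := K.sub_mem hc hx
          simpa using this)
        simp [hx, hy, this]
      · have : x + y ∉ K := fun hc => hx (by
          have := K.sub_mem hc hy
          simpa using this)
        simp [hx, hy, this]
      · have h1 := hKstep x hx
        have h2 := hKstep y hy
        have h3 : x + y ∈ K := by
          have h4 : x + y = (x - v) + (y - v) + (2 : ℤ) • v := by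
            module
          rw [h4]
          refine K.add_mem (K.add_mem h1 h2) ?_
          exact (le_sup_right : AddSubgroup.zmultiples ((2 : ℤ) • v) ≤ K) (AddSubgroup.mem_zmultiples _)
        simp only [hx, hy, h3, if_true, if_false]
        exact z2_one_add.symm)
  have hξlow : ∀ y, low 2 0 (ξ y) ↔ y ∈ K := by
    intro y
    show low 2 0 (if y ∈ K then 0 else 1) ↔ y ∈ K
    by_cases hy : y ∈ K
    · simp only [hy, if_true, iff_true]; exact low_zero
    · simp only [hy, if_false, iff_false]; exact not_low_one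
  obtain ⟨b, η, hη⟩ := exists_hom_extension p L h
  have hηψ : ∀ f ∈ F, ∀ f' ∈ F, (f ∈ F₁ ↔ f' ∈ F₁) →
      η (f - f') = (p ^ b : ZMod (p ^ (b + 1))) * (((ψ f - ψ f').val : ℕ) : ZMod (p ^ (b + 1))) := by
    intro f hf f' hf' hc
    have hm := hmemL f hf f' hf' hc
    have h1 := hη ⟨f - f', hm⟩
    rw [hh f hf f' hf' hc ⟨f - f', hm⟩ rfl] at h1
    exact h1
  have h1 : ∀ f ∈ (F₁ : Set (Lat d)), ∀ f' ∈ (F₁ : Set (Lat d)), η (f - f')
      = (p ^ b : ZMod (p ^ (b + 1))) * (((ψ f - ψ f').val : ℕ) : ZMod (p ^ (b + 1))) := by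
    intro f hf f' hf'
    exact hηψ f (hsub hf) f' (hsub hf') (by simp only [Finset.mem_coe] at hf hf'; tauto)
  have h2 : ∀ f ∈ ((F : Set (Lat d)) \ (F₁ : Set (Lat d))), ∀ f' ∈ ((F : Set (Lat d)) \ (F₁ : Set (Lat d))), η (f - f')
      = (p ^ b : ZMod (p ^ (b + 1))) * (((ψ f - ψ f').val : ℕ) : ZMod (p ^ (b + 1))) := by
    rintro f ⟨hf, hf1⟩ f' ⟨hf', hf1'⟩
    exact hηψ f hf f' hf' (by simp only [Finset.mem_coe] at hf1 hf1'; tauto)
  apply periodic_of_digits F p 0 b ξ η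
  intro x
  by_cases hx : x - f₁ ∈ K
  · -- the class of `f₁`
    have hcl : ∀ g ∈ F, (low 2 0 (ξ (x - g)) ↔ g ∈ F₁) := by
      intro g hg
      rw [hξlow]
      by_cases hg₁ : g ∈ F₁
      · simp only [hg₁, iff_true]
        have e : x - g = (x - f₁) - (g - f₁) := by abel
        rw [e]
        exact K.sub_mem hx (hLK _ (hmemL g hg f₁ hf₁F (by tauto)))
      · simp only [hg₁, iff_false]
        intro hcon
        apply hvK
        have e : v = (x - f₁) - (g - f₂) - (x - g) := by rw [hv]; abel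
        rw [e]
        exact K.sub_mem (K.sub_mem hx (hLK _ (hmemL g hg f₂ hf₂F' (by tauto)))) hcon
    obtain ⟨f, ⟨hf, hfl⟩, hu⟩ := unique_in_class p b _ ψ hb1 η h1 f₁ hf₁ x
    refine ⟨f, ⟨hsub hf, (hcl f (hsub hf)).mpr hf, hfl⟩, ?_⟩
    rintro g ⟨hg, hg1, hg2⟩
    exact hu g ⟨(hcl g hg).mp hg1, hg2⟩
  · have hx2 : x - f₂ ∈ K := by
      have := hKstep _ hx
      have e : x - f₁ - v = x - f₂ := by rw [hv]; abel
      rwa [e] at this
    have hcl : ∀ g ∈ F, (low 2 0 (ξ (x - g)) ↔ g ∉ F₁) := by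
      intro g hg
      rw [hξlow]
      by_cases hg₁ : g ∈ F₁
      · simp only [hg₁, not_true_eq_false, iff_false]
        intro hcon
        apply hx
        have e : x - f₁ = (x - g) + (g - f₁) := by abel
        rw [e]
        exact K.add_mem hcon (hLK _ (hmemL g hg f₁ hf₁F (by tauto)))
      · simp only [hg₁, not_false_eq_true, iff_true]
        have e : x - g = (x - f₂) - (g - f₂) := by abel
        rw [e]
        exact K.sub_mem hx2 (hLK _ (hmemL g hg f₂ hf₂F' (by tauto)))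
    obtain ⟨f, ⟨hf, hfl⟩, hu⟩ := unique_in_class p b _ ψ hb2 η h2 f₂ ⟨hf₂F, hf₂⟩ x
    refine ⟨f, ⟨hf.1, (hcl f hf.1).mpr hf.2, hfl⟩, ?_⟩
    rintro g ⟨hg, hg1, hg2⟩
    exact hu g ⟨⟨hg, (hcl g hg).mp hg1⟩, hg2⟩

end Vale.Agent.P043T
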