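import Vale.Agent.P043T.Classify
import Vale.Agent.P043T.Split
import Vale.Agent.P043T.Ext
import Vale.Agent.P043T.Dilation
import Vale.Agent.P043T.Fourier

/-!
The complex function attached to a dilated tiling is a finite sum of two kinds of pieces;
the pieces of the first kind are periodic unless a periodic tiling is directly available.
-/

namespace Vale.Agent.P043T

open scoped BigOperators
open Finset

variable {d : ℕ}

/-- Bounded functions on the lattice. -/
abbrev BF (d : ℕ) := BddFn (Lat d)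

/-- Nonzero pieces with two transversals. -/
def SG (p : ℕ) [Fact p.Prime] (ω : ℂ) (F : Finset (Lat d)) : Set (BF d) :=
  {g | g ≠ 0 ∧ TypeG p ω F g}

/-- Nonzero pieces with an antipodal involution. -/
def SP (F : Finset (Lat d)) : Set (BF d) := {g | g ≠ 0 ∧ TypeP F g}

lemma ne_zero_val {g : BF d} (hg : g ≠ 0) : g.1 ≠ 0 := by
  intro h
  exact hg (Subtype.ext h)

lemma BF_ext {g g' : BF d} (h : ∀ x, g.1 x = g'.1 x) : g = g' :=
  Subtype.ext (funext h)

lemma add_apply (g g' : BF d) (x : Lat d) : (g + g').1 x = g.1 x + g'.1 x := rfl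

lemma zero_apply (x : Lat d) : (0 : BF d).1 x = 0 := rfl

lemma sub_apply (g g' : BF d) (x : Lat d) : (g - g').1 x = g.1 x - g'.1 x := rfl

lemma sum_tau_apply {ι : Type*} (s : Finset ι) (v : ι → Lat d) (h : BF d) (x : Lat d) :
    (∑ i ∈ s, tau (v i) • h : BF d).1 x = ∑ i ∈ s, h.1 (x - v i) := by
  classical
  induction s using Finset.induction_on with
  | empty => simp
  | insert a s ha ih =>
    rw [Finset.sum_insert ha, Finset.sum_insert ha, add_apply, tau_smul_apply, ih]

lemma eigen_apply (g : BF d) (v : Lat d) (z : ℂ) (h : tau v • g = (cc z : GA (Lat d)) • g)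
    (x : Lat d) : g.1 (x - v) = z * g.1 x := by
  have h1 := congrArg (fun m : BF d => m.1 x) h
  simpa only [tau_smul_apply, cc_smul_apply] using h1

/-- The decomposition of a solution of the equations into pieces. -/
theorem exists_pieces (p : ℕ) [Fact p.Prime] (hp : p ≠ 2) (F : Finset (Lat d)) (hF : F.card = 2 * p)
    {ζ : ℂ} (hζ : IsPrimitiveRoot ζ (2 * p)) (k : BF d) (hk : Eqn F (2 * p) (2 * p) k) :
    ∃ u w : BF d, u ∈ AddSubmonoid.closure (SG p (ζ ^ 2) F) ∧
      w ∈ AddSubmonoid.closure (SP F) ∧ k = u + w := by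
  have hpp : p.Prime := Fact.out
  have hpos : 0 < 2 * p := by have := hpp.pos; omega
  have h1 := leaf_decomp (M := BF d) ergR F (2 * p) (2 * p) hF.le ergR_inv ergR_fix k hk
  clear hk
  have hadd : ∀ a b : BF d, (∃ u w : BF d, u ∈ AddSubmonoid.closure (SG p (ζ ^ 2) F) ∧
      w ∈ AddSubmonoid.closure (SP F) ∧ a = u + w) →
      (∃ u w : BF d, u ∈ AddSubmonoid.closure (SG p (ζ ^ 2) F) ∧
      w ∈ AddSubmonoid.closure (SP F) ∧ b = u + w) →
      (∃ u w : BF d, u ∈ AddSubmonoid.closure (SG p (ζ ^ 2) F) ∧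
      w ∈ AddSubmonoid.closure (SP F) ∧ a + b = u + w) := by
    rintro a b ⟨u, w, hu, hw, rfl⟩ ⟨u', w', hu', hw', rfl⟩
    exact ⟨u + u', w + w', add_mem hu hu', add_mem hw hw', by abel⟩
  have hzero : (∃ u w : BF d, u ∈ AddSubmonoid.closure (SG p (ζ ^ 2) F) ∧
      w ∈ AddSubmonoid.closure (SP F) ∧ (0 : BF d) = u + w) :=
    ⟨0, 0, zero_mem _, zero_mem _, by simp⟩
  have hinner : ∀ x : BF d, Leaf F (2 * p) x → (∃ u w : BF d, u ∈ AddSubmonoid.closure (SG p (ζ ^ 2) F) ∧
      w ∈ AddSubmonoid.closure (SP F) ∧ x = u + w) := by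
    intro x hx
    have h2 := eigen_decomp F hpos hζ x hx
    clear hx
    induction h2 using AddSubmonoid.closure_induction with
    | mem y hy =>
      by_cases hy0 : y = 0
      · subst hy0
        exact hzero
      · rcases classify p hp F hF hζ y hy0 hy with h3 | h3
        · exact ⟨0, y, zero_mem _, AddSubmonoid.subset_closure ⟨hy0, h3⟩, by simp⟩
        · exact ⟨y, 0, AddSubmonoid.subset_closure ⟨hy0, h3⟩, zero_mem _, by simp⟩
    | zero => exact hzero
    | add a b _ _ ha hb => exact hadd a b ha hb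
  induction h1 using AddSubmonoid.closure_induction with
  | mem x hx => exact hinner x hx.2
  | zero => exact hzero
  | add a b _ _ ha hb => exact hadd a b ha hb

/-- A uniform odd index. -/
lemma exists_M (F : Finset (Lat d)) : ∃ M : ℕ, Odd M ∧ ∀ F₁ ⊆ F, OddIndex F F₁ →
    ∀ f₁ ∈ F₁, ∀ f₂ ∈ F, f₂ ∉ F₁ → M • (f₂ - f₁) ∈ splitLattice F F₁ := by
  classical
  let m : Finset (Lat d) → ℕ := fun F₁ => if h : OddIndex F F₁ then h.choose else 1
  have hm : ∀ F₁, Odd (m F₁) := by
    intro F₁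
    by_cases h : OddIndex F F₁
    · simp only [m, dif_pos h]
      exact h.choose_spec.1
    · simp only [m, dif_neg h]
      exact odd_one
  refine ⟨∏ F₁ ∈ F.powerset, m F₁, Finset.prod_induction _ Odd (fun a b ha hb => ha.mul hb) odd_one
    (fun F₁ _ => hm F₁), fun F₁ hF₁ hodd f₁ hf₁ f₂ hf₂ hf₂' => ?_⟩
  obtain ⟨c, hc⟩ := Finset.dvd_prod_of_mem m (Finset.mem_powerset.mpr hF₁)
  rw [hc, mul_comm, mul_smul]
  apply AddSubgroup.nsmul_mem
  have h1 := hodd.choose_spec.2 f₁ hf₁ f₂ hf₂ hf₂'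
  simp only [m, dif_pos hodd]
  exact h1

/-- Pieces with two transversals are periodic, unless the tile has a periodic tiling. -/
theorem per_of_typeG (p : ℕ) [Fact p.Prime] (F : Finset (Lat d))
    (hgen : AddSubgroup.closure {v : Lat d | ∃ f ∈ F, ∃ f' ∈ F, v = f - f'} = ⊤)
    (hnp : ¬ HasPeriodicTiling F) {ω : ℂ} (hω : IsPrimitiveRoot ω p) (M : ℕ)
    (hM : ∀ F₁ ⊆ F, OddIndex F F₁ →
      ∀ f₁ ∈ F₁, ∀ f₂ ∈ F, f₂ ∉ F₁ → M • (f₂ - f₁) ∈ splitLattice F F₁)
    (g : BF d) (hg : g ∈ SG p ω F) : Per (p * M) g.1 := by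
  classical
  have hpp : p.Prime := Fact.out
  haveI : NeZero p := ⟨hpp.ne_zero⟩
  obtain ⟨hg0, F₁, ψ, hsub, hb1, hb2, hcl⟩ := hg
  have hg' := ne_zero_val hg0
  obtain ⟨h, hh⟩ : ∃ h : splitLattice F F₁ →+ ZMod p, ∀ (ℓ : splitLattice F F₁) (x : Lat d),
      g.1 (x - ℓ) = ω ^ (h ℓ).val * g.1 x :=
    hom_of_eigen p hω {v : Lat d | ∃ f ∈ F, ∃ f' ∈ F, (f ∈ F₁ ↔ f' ∈ F₁) ∧ v = f - f'} g.1 hg' (by
      rintro v ⟨f, hf, f', hf', hc, rfl⟩
      exact ⟨_, eigen_apply g _ _ (hcl f hf f' hf' hc)⟩)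
  obtain ⟨x₀, hx₀⟩ : ∃ x₀, g.1 x₀ ≠ 0 := by
    by_contra hcon
    push Not at hcon
    exact hg' (funext hcon)
  have hh' : ∀ f ∈ F, ∀ f' ∈ F, (f ∈ F₁ ↔ f' ∈ F₁) → ∀ ℓ : splitLattice F F₁,
      (ℓ : Lat d) = f - f' → h ℓ = ψ f - ψ f' := by
    intro f hf f' hf' hc ℓ hℓ
    have e1 := hh ℓ x₀
    rw [hℓ, eigen_apply g _ _ (hcl f hf f' hf' hc)] at e1
    have e2 := mul_right_cancel₀ hx₀ e1
    exact ZMod.val_injective p (hω.pow_inj (ZMod.val_lt _) (ZMod.val_lt _) e2.symm)
  have hodd : OddIndex F F₁ := by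
    by_contra hc
    exact hnp (periodic_of_not_oddIndex F F₁ hgen p hsub ψ hb1 hb2 h hh' hc)
  have hL : ∀ ℓ ∈ splitLattice F F₁, ∀ x, g.1 (x - p • ℓ) = g.1 x := by
    intro ℓ hℓ x
    have h1 := hh (p • (⟨ℓ, hℓ⟩ : splitLattice F F₁)) x
    have h2 : h (p • (⟨ℓ, hℓ⟩ : splitLattice F F₁)) = 0 := by
      rw [map_nsmul, nsmul_eq_mul, ZMod.natCast_self, zero_mul]
    rw [h2] at h1
    simpa using h1
  have hK : ∀ v ∈ AddSubgroup.closure {v : Lat d | ∃ f ∈ F, ∃ f' ∈ F, v = f - f'},
      ∀ x, g.1 (x - (p * M) • v) = g.1 x := by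
    intro v hv
    induction hv using AddSubgroup.closure_induction with
    | mem v hv =>
      obtain ⟨f, hf, f', hf', rfl⟩ := hv
      intro x
      rw [mul_smul]
      apply hL
      by_cases hc : f ∈ F₁ ↔ f' ∈ F₁
      · have h9 : f - f' ∈ splitLattice F F₁ := AddSubgroup.subset_closure ⟨f, hf, f', hf', hc, rfl⟩
        exact AddSubgroup.nsmul_mem _ h9 _
      · by_cases h1 : f ∈ F₁
        · have h2 : f' ∉ F₁ := fun h2 => hc ⟨fun _ => h2, fun _ => h1⟩
          have h3 := hM F₁ hsub hodd f h1 f' hf' h2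
          have e : M • (f - f') = - (M • (f' - f)) := by
            rw [← smul_neg]
            congr 1
            abel
          rw [e]
          exact AddSubgroup.neg_mem _ h3
        · have h2 : f' ∈ F₁ := by
            by_contra h2
            exact hc ⟨fun h => absurd h h1, fun h => absurd h h2⟩
          exact hM F₁ hsub hodd f' h2 f hf h1
    | zero =>
      intro x
      simp
    | add a b _ _ ha hb =>
      intro x
      have e : x - (p * M) • (a + b) = x - (p * M) • a - (p * M) • b := by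
        rw [smul_add]
        abel
      rw [e, hb, ha]
    | neg a _ ha =>
      intro x
      have h1 := ha (x - (p * M) • -a)
      have e : x - (p * M) • -a - (p * M) • a = x := by
        rw [smul_neg]
        abel
      rw [e] at h1
      exact h1.symm
  intro x z
  exact hK z (by rw [hgen]; exact AddSubgroup.mem_top z) x

lemma per_closure (p : ℕ) [Fact p.Prime] (ω : ℂ) (F : Finset (Lat d)) (Ω : ℕ)
    (h : ∀ g ∈ SG p ω F, Per Ω g.1) (u : BF d) (hu : u ∈ AddSubmonoid.closure (SG p ω F)) :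
    Per Ω u.1 := by
  induction hu using AddSubmonoid.closure_induction with
  | mem g hg => exact h g hg
  | zero => intro x z; rfl
  | add a b _ _ ha hb =>
    intro x z
    rw [add_apply, add_apply, ha, hb]

lemma neg_iterate (g : BF d) (v : Lat d) (hv : tau v • g = -g) (n : ℕ) (x : Lat d) :
    g.1 (x - n • v) = (-1) ^ n * g.1 x := by
  have h1 : ∀ y, g.1 (y - v) = - g.1 y := by
    intro y
    have h2 : (tau v • g : BF d).1 y = (-g : BF d).1 y := by rw [hv]
    rw [tau_smul_apply] at h2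
    exact h2
  induction n generalizing x with
  | zero => simp
  | succ n ih =>
    have e : x - (n + 1) • v = x - n • v - v := by
      rw [succ_nsmul]; abel
    rw [e, h1, ih, pow_succ]
    ring

/-- The sums over the tile of a piece of involution type vanish. -/
lemma lambda_P (F : Finset (Lat d)) (Ω : ℕ) (hΩ : Odd Ω) (w : BF d)
    (hw : w ∈ AddSubmonoid.closure (SP F)) (x : Lat d) :
    ∑ f ∈ F, w.1 (x - Ω • f) = 0 := by
  classical
  induction hw using AddSubmonoid.closure_induction with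
  | mem g hg =>
    obtain ⟨_, τ, hτ⟩ := hg
    refine Finset.sum_involution (fun f _ => τ f) ?_ ?_ ?_ ?_
    · intro f hf
      obtain ⟨h1, _, _, h4⟩ := hτ f hf
      have e : x - Ω • τ f = x - Ω • f - Ω • (τ f - f) := by
        rw [smul_sub]; abel
      rw [e, neg_iterate g _ h4, hΩ.neg_one_pow]
      ring
    · intro f hf _
      exact (hτ f hf).2.2.1
    · intro f hf
      exact (hτ f hf).1
    · intro f hf
      exact (hτ f hf).2.1
  | zero => simp [zero_apply]
  | add a b _ _ ha hb =>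
    simp only [add_apply]
    rw [Finset.sum_add_distrib, ha, hb, add_zero]

end Vale.Agent.P043T
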