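import Vale.Agent.P043T.Main

/-!
Removing the assumption that the differences generate the lattice: change of coordinates on
the subgroup generated by the differences, and extension of a periodic tiling of that subgroup
to the whole lattice.
-/

namespace Vale.Agent.P043T

open scoped BigOperators
open Finset

variable {d : ℕ}

/-- Any subgroup of the lattice is the image of an injective homomorphism from a lattice. -/
lemma exists_coord (Γ : AddSubgroup (Lat d)) :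
    ∃ (n : ℕ) (ι : Lat n →+ Lat d), Function.Injective ι ∧ ∀ x, x ∈ Γ ↔ ∃ y, ι y = x := by
  obtain ⟨n, B⟩ := Submodule.basisOfPid (Pi.basisFun ℤ (Fin d)) (AddSubgroup.toIntSubmodule Γ)
  refine ⟨n, ((AddSubgroup.toIntSubmodule Γ).subtype.toAddMonoidHom).comp
    (B.equivFun.symm.toLinearMap.toAddMonoidHom), ?_, ?_⟩
  · intro y y' h
    have h1 : B.equivFun.symm y = B.equivFun.symm y' := Subtype.ext h
    exact B.equivFun.symm.injective h1
  · intro x
    constructor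
    · intro hx
      refine ⟨B.equivFun (⟨x, hx⟩ : AddSubgroup.toIntSubmodule Γ), ?_⟩
      simp
    · rintro ⟨y, rfl⟩
      exact (B.equivFun.symm y).2

/-- The index needed for the extension of a periodic tiling from a subgroup. -/
lemma exists_sat_index (Γ : AddSubgroup (Lat d)) (N : ℕ) (hN : 0 < N) :
    ∃ N' : ℕ, 0 < N' ∧ ∀ z : Lat d, N' • z ∈ Γ → ∃ γ ∈ Γ, N' • z = N • γ := by
  classical
  let S : Submodule ℤ (Lat d) :=
    { carrier := {z | ∃ m : ℕ, 0 < m ∧ ∃ γ ∈ Γ, m • z = N • γ}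
      add_mem' := by
        rintro a b ⟨m₁, h₁, γ₁, hγ₁, e₁⟩ ⟨m₂, h₂, γ₂, hγ₂, e₂⟩
        refine ⟨m₁ * m₂, Nat.mul_pos h₁ h₂, m₂ • γ₁ + m₁ • γ₂,
          Γ.add_mem (Γ.nsmul_mem hγ₁ _) (Γ.nsmul_mem hγ₂ _), ?_⟩
        rw [smul_add, smul_add, smul_comm N m₂ γ₁, smul_comm N m₁ γ₂, ← e₁, ← e₂, smul_smul,
          smul_smul, mul_comm m₂ m₁]
      zero_mem' := ⟨1, one_pos, 0, Γ.zero_mem, by simp⟩
      smul_mem' := by
        rintro c a ⟨m, h, γ, hγ, e⟩
        refine ⟨m, h, c • γ, Γ.zsmul_mem hγ _, ?_⟩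
        rw [smul_comm m c a, e, smul_comm]}
  obtain ⟨t, ht⟩ := (IsNoetherian.noetherian S : S.FG)
  have hsub : ∀ s ∈ t, s ∈ S := by
    intro s hs
    rw [← ht]
    exact Submodule.subset_span hs
  have hprod : ∀ t' : Finset (Lat d), (∀ s ∈ t', s ∈ S) →
      ∃ e : ℕ, 0 < e ∧ ∀ s ∈ t', ∃ γ ∈ Γ, e • s = N • γ := by
    intro t'
    induction t' using Finset.induction_on with
    | empty => exact fun _ => ⟨1, one_pos, by simp⟩
    | insert a t' _ ih =>
      intro h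
      obtain ⟨e, he, he'⟩ := ih fun s hs => h s (Finset.mem_insert_of_mem hs)
      obtain ⟨m, hm, γ, hγ, eq⟩ := h a (Finset.mem_insert_self _ _)
      refine ⟨m * e, Nat.mul_pos hm he, fun s hs => ?_⟩
      rw [Finset.mem_insert] at hs
      rcases hs with rfl | hs
      · refine ⟨e • γ, Γ.nsmul_mem hγ _, ?_⟩
        rw [mul_comm, mul_smul, eq, smul_comm]
      · obtain ⟨γ', hγ', eq'⟩ := he' s hs
        refine ⟨m • γ', Γ.nsmul_mem hγ' _, ?_⟩
        rw [mul_smul, eq', smul_comm]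
  obtain ⟨e, he, he'⟩ := hprod t hsub
  have hall : ∀ z ∈ S, ∃ γ ∈ Γ, e • z = N • γ := by
    intro z hz
    rw [← ht] at hz
    induction hz using Submodule.span_induction with
    | mem x hx => exact he' x hx
    | zero => exact ⟨0, Γ.zero_mem, by simp⟩
    | add x y _ _ hx hy =>
      obtain ⟨γ₁, h₁, e₁⟩ := hx
      obtain ⟨γ₂, h₂, e₂⟩ := hy
      exact ⟨γ₁ + γ₂, Γ.add_mem h₁ h₂, by rw [smul_add, smul_add, e₁, e₂]⟩
    | smul c x _ hx =>
      obtain ⟨γ₁, h₁, e₁⟩ := hx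
      exact ⟨c • γ₁, Γ.zsmul_mem h₁ _, by rw [smul_comm e c x, e₁, smul_comm]⟩
  refine ⟨N * e, Nat.mul_pos hN he, fun z hz => ?_⟩
  have hzS : z ∈ S := ⟨N * (N * e), Nat.mul_pos hN (Nat.mul_pos hN he), (N * e) • z, hz, by
    rw [mul_smul N (N * e) z]⟩
  obtain ⟨γ₁, h₁, e₁⟩ := hall z hzS
  exact ⟨N • γ₁, Γ.nsmul_mem h₁ _, by rw [mul_smul, e₁]⟩

/-- The subgroup `Γ + N' • ℤ^d`. -/
def wSub (Γ : AddSubgroup (Lat d)) (N' : ℕ) : AddSubgroup (Lat d) where
  carrier := {x | ∃ γ ∈ Γ, ∃ z : Lat d, x = γ + N' • z}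
  add_mem' := by
    rintro a b ⟨γ₁, h₁, z₁, rfl⟩ ⟨γ₂, h₂, z₂, rfl⟩
    exact ⟨γ₁ + γ₂, Γ.add_mem h₁ h₂, z₁ + z₂, by rw [smul_add]; abel⟩
  zero_mem' := ⟨0, Γ.zero_mem, 0, by simp⟩
  neg_mem' := by
    rintro a ⟨γ₁, h₁, z₁, rfl⟩
    exact ⟨-γ₁, Γ.neg_mem h₁, -z₁, by rw [smul_neg]; abel⟩

/-- Extension of a periodic tiling of a subgroup to a periodic tiling of the whole lattice. -/
theorem extend_periodic (Γ : AddSubgroup (Lat d)) (F : Finset (Lat d)) (f₀ : Lat d)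
    (hF : ∀ f ∈ F, f - f₀ ∈ Γ) (B : Set (Lat d)) (hsub : ∀ x ∈ B, x ∈ Γ) (N : ℕ) (hN : 0 < N)
    (hper : ∀ x ∈ B, ∀ γ ∈ Γ, x + N • γ ∈ B)
    (htile : ∀ x ∈ Γ, ∃! f, f ∈ F ∧ x - (f - f₀) ∈ B) :
    ∃ (C : Set (Lat d)) (N' : ℕ), 0 < N' ∧ (∀ x, ∃! f, f ∈ F ∧ x - (f - f₀) ∈ C) ∧
      ∀ x z, x ∈ C → x + N' • z ∈ C := by
  classical
  obtain ⟨N', hN', hsat⟩ := exists_sat_index Γ N hN
  set W := wSub Γ N' with hW
  have hΓW : ∀ γ ∈ Γ, γ ∈ W := fun γ hγ => ⟨γ, hγ, 0, by simp⟩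
  have hPW : ∀ z : Lat d, N' • z ∈ W := fun z => ⟨0, Γ.zero_mem, z, by simp⟩
  let rep : Lat d → Lat d := fun x => Quotient.out (x : Lat d ⧸ W)
  have hrep1 : ∀ x, x - rep x ∈ W := by
    intro x
    have h1 : ((rep x : Lat d) : Lat d ⧸ W) = (x : Lat d ⧸ W) := Quotient.out_eq' _
    have h2 := QuotientAddGroup.eq.mp h1
    have e : x - rep x = - rep x + x := by abel
    rw [e]
    exact h2
  have hrep2 : ∀ x y, x - y ∈ W → rep x = rep y := by
    intro x y hxy
    have h1 : (x : Lat d ⧸ W) = (y : Lat d ⧸ W) := by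
      apply QuotientAddGroup.eq.mpr
      have e : -x + y = -(x - y) := by abel
      rw [e]
      exact W.neg_mem hxy
    simp only [rep, h1]
  let C : Set (Lat d) := {x | ∃ γ ∈ B, ∃ z : Lat d, x = rep x + γ + N' • z}
  refine ⟨C, N', hN', fun x => ?_, ?_⟩
  · obtain ⟨γ, hγ, z, hxz⟩ := hrep1 x
    obtain ⟨f, ⟨hf, hfB⟩, hfu⟩ := htile γ hγ
    have hrepf : ∀ g ∈ F, rep (x - (g - f₀)) = rep x := by
      intro g hg
      apply hrep2
      have e : x - (g - f₀) - x = -(g - f₀) := by abel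
      rw [e]
      exact W.neg_mem (hΓW _ (hF g hg))
    refine ⟨f, ⟨hf, ?_⟩, ?_⟩
    · refine ⟨γ - (f - f₀), hfB, z, ?_⟩
      rw [hrepf f hf]
      have e : x = rep x + (x - rep x) := by abel
      conv_lhs => rw [e, hxz]
      abel
    · rintro f' ⟨hf', γ', hγ', z', hz'⟩
      rw [hrepf f' hf'] at hz'
      -- compare the two expressions
      have e : x = rep x + (γ + N' • z) := by rw [← hxz]; abel
      have e2 : x - (f' - f₀) = rep x + (γ - (f' - f₀)) + N' • z := by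
        conv_lhs => rw [e]
        abel
      rw [e2] at hz'
      have e3 : γ - (f' - f₀) + N' • z = γ' + N' • z' := by
        have e4 : rep x + (γ - (f' - f₀)) + N' • z = rep x + (γ - (f' - f₀) + N' • z) := by abel
        have e5 : rep x + γ' + N' • z' = rep x + (γ' + N' • z') := by abel
        rw [e4, e5] at hz'
        exact add_left_cancel hz'
      have h1 : N' • (z' - z) = γ - (f' - f₀) - γ' := by
        calc N' • (z' - z) = (γ' + N' • z') - (γ' + N' • z) := by rw [smul_sub]; abel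
          _ = (γ - (f' - f₀) + N' • z) - (γ' + N' • z) := by rw [e3]
          _ = _ := by abel
      have h2 : N' • (z' - z) ∈ Γ := by
        rw [h1]
        exact Γ.sub_mem (Γ.sub_mem hγ (hF f' hf')) (hsub γ' hγ')
      obtain ⟨γ₂, hγ₂, h3⟩ := hsat _ h2
      apply hfu f'
      refine ⟨hf', ?_⟩
      have h4 : γ - (f' - f₀) = γ' + N • γ₂ := by
        rw [← h3, h1]
        abel
      rw [h4]
      exact hper γ' hγ' γ₂ hγ₂
  · rintro x z ⟨γ, hγ, z', hz'⟩
    refine ⟨γ, hγ, z' + z, ?_⟩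
    have e : rep (x + N' • z) = rep x := by
      apply hrep2
      have e : x + N' • z - x = N' • z := by abel
      rw [e]
      exact hPW z
    rw [e, smul_add]
    conv_lhs => rw [hz']
    abel

/-- The main theorem for an arbitrary tile of size twice an odd prime. -/
theorem periodic_of_tile_general (p : ℕ) [Fact p.Prime] (hp : p ≠ 2) (F : Finset (Lat d))
    (hF : F.card = 2 * p) (hA : ∃ A, IsTiling A F) : HasPeriodicTiling F := by
  classical
  have hpp : p.Prime := Fact.out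
  obtain ⟨A, hA⟩ := hA
  obtain ⟨f₀, hf₀⟩ : F.Nonempty := by
    rw [← Finset.card_pos, hF]
    have := hpp.pos
    omega
  set Γ : AddSubgroup (Lat d) := AddSubgroup.closure {v : Lat d | ∃ f ∈ F, ∃ f' ∈ F, v = f - f'} with hΓ
  have hdiff : ∀ f ∈ F, f - f₀ ∈ Γ := fun f hf =>
    AddSubgroup.subset_closure ⟨f, hf, f₀, hf₀, rfl⟩
  obtain ⟨n, ι, hinj, hι⟩ := exists_coord Γ
  -- coordinates of the elements of the tile
  have hsec : ∀ f, ∃ y : Lat n, f ∈ F → ι y = f - f₀ := by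
    intro f
    by_cases hf : f ∈ F
    · obtain ⟨y, hy⟩ := (hι _).mp (hdiff f hf)
      exact ⟨y, fun _ => hy⟩
    · exact ⟨0, fun h => absurd h hf⟩
  choose σ hσ using hsec
  have hσinj : ∀ f ∈ F, ∀ f' ∈ F, σ f = σ f' → f = f' := by
    intro f hf f' hf' h
    have h1 := hσ f hf
    rw [h, hσ f' hf'] at h1
    exact (sub_left_inj.mp h1).symm
  set F' : Finset (Lat n) := F.image σ with hF'
  have hF'card : F'.card = 2 * p := by
    rw [hF', Finset.card_image_of_injOn, hF]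
    intro f hf f' hf' h
    exact hσinj f hf f' hf' h
  -- the tiling in coordinates
  set A' : Set (Lat n) := {y | ι y - f₀ ∈ A} with hA'
  have hA't : IsTiling A' F' := by
    apply isTiling_of_unique
    intro y
    obtain ⟨⟨a, f⟩, ⟨ha, hf, hx⟩, hu⟩ := hA (ι y)
    simp only at ha hf hx
    refine ⟨σ f, ⟨Finset.mem_image_of_mem _ hf, ?_⟩, ?_⟩
    · show ι (y - σ f) - f₀ ∈ A
      rw [map_sub, hσ f hf, ← hx]
      have e : a + f - (f - f₀) - f₀ = a := by abel
      rw [e]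
      exact ha
    · rintro y' ⟨hy', hy'A⟩
      obtain ⟨f₁, hf₁, rfl⟩ := Finset.mem_image.mp hy'
      have hy'A' : ι (y - σ f₁) - f₀ ∈ A := hy'A
      rw [map_sub, hσ f₁ hf₁] at hy'A'
      have h3 := hu (ι y - (f₁ - f₀) - f₀, f₁) ⟨hy'A', hf₁, by simp only; abel⟩
      have h4 : f₁ = f := congrArg Prod.snd h3
      rw [h4]
  -- generation
  have hgen' : AddSubgroup.closure {v : Lat n | ∃ f ∈ F', ∃ f' ∈ F', v = f - f'} = ⊤ := by
    rw [eq_top_iff]
    intro y _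
    have hx : ι y ∈ Γ := (hι _).mpr ⟨y, rfl⟩
    suffices H : ∀ x ∈ Γ, ∀ y, ι y = x →
        y ∈ AddSubgroup.closure {v : Lat n | ∃ f ∈ F', ∃ f' ∈ F', v = f - f'} from H _ hx y rfl
    intro x hx
    induction hx using AddSubgroup.closure_induction with
    | mem v hv =>
      obtain ⟨f, hf, f', hf', rfl⟩ := hv
      intro y hy
      have h1 : y = σ f - σ f' := by
        apply hinj
        rw [hy, map_sub, hσ f hf, hσ f' hf']
        abel
      rw [h1]
      exact AddSubgroup.subset_closure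
        ⟨σ f, Finset.mem_image_of_mem _ hf, σ f', Finset.mem_image_of_mem _ hf', rfl⟩
    | zero =>
      intro y hy
      have h1 : y = 0 := hinj (by rw [hy, map_zero])
      rw [h1]
      exact AddSubgroup.zero_mem _
    | add a b ha hb iha ihb =>
      intro y hy
      obtain ⟨y₁, h₁⟩ := (hι _).mp ha
      obtain ⟨y₂, h₂⟩ := (hι _).mp hb
      have h1 : y = y₁ + y₂ := hinj (by rw [hy, map_add, h₁, h₂])
      rw [h1]
      exact AddSubgroup.add_mem _ (iha y₁ h₁) (ihb y₂ h₂)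
    | neg a ha iha =>
      intro y hy
      obtain ⟨y₁, h₁⟩ := (hι _).mp ha
      have h1 : y = -y₁ := hinj (by rw [hy, map_neg, h₁])
      rw [h1]
      exact AddSubgroup.neg_mem _ (iha y₁ h₁)
  obtain ⟨Ã, N, hN, hÃ, hÃper⟩ := periodic_of_tile p hp F' hF'card hgen' ⟨A', hA't⟩
  -- back to the subgroup
  set B : Set (Lat d) := {x | ∃ y ∈ Ã, ι y = x} with hB
  obtain ⟨C, N', hN', hC, hCper⟩ := extend_periodic Γ F f₀ hdiff B
    (fun x hx => by
      obtain ⟨y, _, rfl⟩ := hx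
      exact (hι _).mpr ⟨y, rfl⟩) N hN
    (by
      rintro x ⟨y, hy, rfl⟩ γ hγ
      obtain ⟨y', rfl⟩ := (hι _).mp hγ
      exact ⟨y + N • y', hÃper y y' hy, by rw [map_add, map_nsmul]⟩)
    (by
      intro x hx
      obtain ⟨y, rfl⟩ := (hι _).mp hx
      obtain ⟨⟨a, f'⟩, ⟨ha, hf', hy⟩, hu⟩ := hÃ y
      simp only at ha hf' hy
      obtain ⟨f, hf, rfl⟩ := Finset.mem_image.mp hf'
      refine ⟨f, ⟨hf, a, ha, ?_⟩, ?_⟩
      · rw [← hy, map_add, hσ f hf]
        abel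
      · rintro f₁ ⟨hf₁, a₁, ha₁, h₁⟩
        have h2 : ι (a₁ + σ f₁) = ι y := by
          rw [map_add, h₁, hσ f₁ hf₁]
          abel
        have h3 := hu (a₁, σ f₁) ⟨ha₁, Finset.mem_image_of_mem _ hf₁, hinj h2⟩
        have h4 : σ f₁ = σ f := congrArg Prod.snd h3
        exact hσinj f₁ hf₁ f hf h4)
  refine ⟨{y | y + f₀ ∈ C}, N', hN', ?_, ?_⟩
  · apply isTiling_of_unique
    intro x
    have h1 := hC x
    have e : ∀ f, x - (f - f₀) = x - f + f₀ := fun f => by abel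
    simp only [e] at h1
    exact h1
  · intro x z hx
    have h1 := hCper (x + f₀) z hx
    show x + N' • z + f₀ ∈ C
    have e : x + N' • z + f₀ = x + f₀ + N' • z := by abel
    rw [e]
    exact h1

end Vale.Agent.P043T
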